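import Vale.Agent.P066.S.P1

/-!
P066 part S, file P2 (TASK S10): positivity of the expansion in attractor coefficients.
Strong induction on `deg (b - g0)` (if `b - g0 ∉ P` take `β = 0`, `cj_supp`), inside it `flow` with
`d = 0`, `η = eta b`, `Z = {p ∈ P, deg p ≤ R}`, `R = deg b - deg g0`, `X = ∅`; locality by `phi_loc`;
at the end `alpha_lex` (`β = single b 1`).  Step: `σ0` is generic along `m` (`InQ2_zero`), let
`w = mid σ0 g`.  If the line of `m` meets `P` only in `0`, then `w = 1`.  Otherwise take `d ∈ P \ 0` on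
it; `η d ≠ 0`, all nonzero elements of `P` on the line have the sign of `η d` (`Cone.ray`).  If
`η d > 0` then `lo η w = 1`, `lo (-η) w = w` and `phi σ- = cj w (phi σ+)`; otherwise
`phi σ- = cj w⁻¹ (phi σ+)` (`phi_lex`, `lo_of_neg`, `lo_of_pos`).  Expand with `cj_expand_sum` over the
finite set `{b' | b' - g0 ∈ P, b - b' ∈ P, InQ d (b - b')}`; for such `b'`,
`om (cls x) b' = om (cls x) b`; by `p1`, `ker_eqOn`, `ker_pos`, `ker_inv_pos` the kernels are in `Kpos`;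
for `b' = b` use the flow hypothesis, for `b' ≠ b` the induction hypothesis at `σ+` (`Gen2.lex`).
-/

namespace Vale.Agent.P066.S
noncomputable section
open Classical WT

variable {N : Type} [AddCommGroup N] [QL N]

namespace P2Aux

/-- the functional is a positive combination of attractor coefficients -/
def Pos (D : Diag N) (g0 : N) (Φ : L D.C → K) : Prop :=
  ∃ β : N →₀ K, (∀ a, β a ∈ Kpos) ∧ ∀ f : L D.C, (∀ n, f.fn n ≠ 0 → n - g0 ∈ D.C.P) →
    Φ f = β.sum fun a c => c * alpha D.g f a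

variable {D : Diag N} {g0 : N} {Φ Ψ : L D.C → K}

theorem Pos.congr (h : Pos D g0 Φ)
    (e : ∀ f : L D.C, (∀ n, f.fn n ≠ 0 → n - g0 ∈ D.C.P) → Ψ f = Φ f) : Pos D g0 Ψ := by
  obtain ⟨β, h1, h2⟩ := h
  exact ⟨β, h1, fun f hf => (e f hf).trans (h2 f hf)⟩

theorem Pos.zero : Pos D g0 fun _ => 0 :=
  ⟨0, fun _ => Kpos_zero, fun _ _ => by simp⟩

theorem Pos.alpha (b : N) : Pos D g0 fun f => alpha D.g f b := by
  refine ⟨Finsupp.single b 1, fun a => ?_, fun f _ => ?_⟩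
  · rw [Finsupp.single_apply]
    split_ifs
    · exact Kpos_one
    · exact Kpos_zero
  · rw [Finsupp.sum_single_index (zero_mul _), one_mul]

theorem Pos.add (h : Pos D g0 Φ) (h' : Pos D g0 Ψ) : Pos D g0 fun f => Φ f + Ψ f := by
  obtain ⟨β, h1, h2⟩ := h
  obtain ⟨β', h1', h2'⟩ := h'
  refine ⟨β + β', fun a => Kpos_add (h1 a) (h1' a), fun f hf => ?_⟩
  beta_reduce
  rw [Finsupp.sum_add_index' (fun _ => zero_mul _) fun _ _ _ => add_mul _ _ _, h2 f hf, h2' f hf]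

theorem Pos.mul (h : Pos D g0 Φ) {c : K} (hc : c ∈ Kpos) : Pos D g0 fun f => Φ f * c := by
  obtain ⟨β, h1, h2⟩ := h
  refine ⟨c • β, fun a => Kpos_mul hc (h1 a), fun f hf => ?_⟩
  beta_reduce
  rw [Finsupp.sum_smul_index fun _ => zero_mul _, h2 f hf, Finsupp.sum, Finsupp.sum,
    Finset.sum_mul]
  exact Finset.sum_congr rfl fun a _ => by ring

theorem Pos.sum (s : Finset N) {F : N → L D.C → K} (h : ∀ b ∈ s, Pos D g0 (F b)) :
    Pos D g0 fun f => ∑ b ∈ s, F b f := by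
  induction s using Finset.induction_on with
  | empty => exact Pos.zero.congr fun _ _ => Finset.sum_empty
  | insert a s ha ih =>
    exact ((h a (Finset.mem_insert_self _ _)).add
      (ih fun b hb => h b (Finset.mem_insert_of_mem hb))).congr
      fun _ _ => Finset.sum_insert ha

theorem expand {b : N} {σ : Sg N} {Q : AddSubmonoid N} {u : Grp D.C} (hu : SuppIn Q u.fn)
    (hk : ∀ b', b' - g0 ∈ D.C.P → b - b' ∈ D.C.P → b - b' ∈ Q → (ker u b').fn (b - b') ∈ Kpos)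
    (h : ∀ b', b' - g0 ∈ D.C.P → b - b' ∈ D.C.P → Pos D g0 fun f => (phi σ D.g f).fn b') :
    Pos D g0 fun f => (cj u (phi σ D.g f)).fn b := by
  have hs : ∀ b', b' ∈ (D.C.between_finite g0 b).toFinset.filter (fun b' => b - b' ∈ Q) ↔
      (b' - g0 ∈ D.C.P ∧ b - b' ∈ D.C.P) ∧ b - b' ∈ Q := fun b' => by simp
  refine (Pos.sum ((D.C.between_finite g0 b).toFinset.filter fun b' => b - b' ∈ Q)
    (F := fun b' f => (phi σ D.g f).fn b' * (U (om b' b) * (ker u b').fn (b - b')))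
    fun b' hb' => ?_).congr fun f hf => ?_
  · obtain ⟨⟨h1, h2⟩, h3⟩ := (hs b').1 hb'
    exact (h b' h1 h2).mul (Kpos_mul (Kpos_U _) (hk b' h1 h2 h3))
  · refine cj_expand_sum u _ b _ fun b' h1 h2 => (hs b').2 ⟨⟨?_, ?_⟩, ?_⟩
    · exact cj_supp _ hf b' h1
    · exact (ker u b').supp _ h2
    · exact supp_ker hu b' _ h2

omit [QL N] in
theorem ray_pos {C : Cone N} {d n : N} (hd : d ∈ C.P) (hn : n ∈ C.P) (hn0 : n ≠ 0) (hd0 : d ≠ 0)
    (h : InQ d n) (η : N →+ ℤ) (hη : 0 < η d) : 0 < η n := by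
  obtain ⟨j, l, hj, hl, e⟩ := C.ray hd hn hn0 hd0 h
  have h1 := congrArg η e
  rw [map_zsmul, map_zsmul, smul_eq_mul, smul_eq_mul] at h1
  exact (mul_pos_iff_of_pos_left hj).1 (h1 ▸ mul_pos hl hη)

theorem lo_ray {C : Cone N} {w : Grp C} {η : N →+ ℤ} (h : ∀ x, w.fn x ≠ 0 → x ≠ 0 → 0 < η x) :
    lo (Sg.ofHom η) w = 1 ∧ lo (Sg.ofHom (-η)) w = w := by
  constructor
  · refine lo_of_pos fun x hx => ?_
    by_cases h0 : x = 0
    · exact Or.inl h0
    · exact Or.inr (Sg.ofHom_pos.2 (h x hx h0))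
  · refine lo_of_neg fun x hx => ?_
    by_cases h0 : x = 0
    · exact Or.inl h0
    · refine Or.inr (Sg.ofHom_neg.2 ?_)
      have := h x hx h0
      rw [AddMonoidHom.neg_apply]
      omega

theorem step (hD : InPos D) {b m : N} {σ0 : Sg N} (hm : 0 < eta b m) (h2 : Gen σ0 m)
    (h : ∀ b', b' - g0 ∈ D.C.P → b - b' ∈ D.C.P →
      Pos D g0 fun f => (phi (σ0.lex (Sg.ofHom (eta b))) D.g f).fn b') (hb : b - g0 ∈ D.C.P) :
    Pos D g0 fun f => (phi (σ0.lex (Sg.ofHom (-eta b))) D.g f).fn b := by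
  have hw : SuppIn σ0.ker (mid σ0 D.g).fn := (isF_fac σ0 D.g).2.1
  by_cases hex : ∃ d ∈ D.C.P, d ≠ 0 ∧ σ0.nul d
  swap
  · have h0 : ∀ η : N →+ ℤ, lo (Sg.ofHom η) (mid σ0 D.g) = 1 := fun η =>
      (lo_ray fun x hx hx0 => (hex ⟨x, (mid σ0 D.g).supp x hx, hx0, hw x hx⟩).elim).1
    refine (h b hb (by rw [sub_self]; exact D.C.P.zero_mem)).congr fun f _ => ?_
    rw [phi_lex, phi_lex, h0, h0]
  obtain ⟨d, hd, hd0, hdn⟩ := hex
  have hg : Gen σ0 d := h2.of_nul hdn hd0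
  have hne : eta b d ≠ 0 := fun e => hm.ne' ((((h2 d).1 hdn).symm hd0).hom _ e)
  obtain ⟨V, hV, hVd, hVw⟩ := p1 D hD (D.C.deg b - D.C.deg g0) d hd hd0 σ0 hg
  obtain ⟨c, hc⟩ := exists_grp_M hV
  have he : Set.EqOn (mid σ0 D.g).fn c.fn {p | D.C.deg p ≤ D.C.deg b - D.C.deg g0} :=
    fun p hp => by rw [hc]; exact hVw p hp
  have hcc : ∀ x y, om (V.cls x) (V.cls y) = 0 := fun x y => (hVd x).om_eq_zero (hVd y)
  have hdeg : ∀ b', b' - g0 ∈ D.C.P →
      b - b' ∈ {p | D.C.deg p ≤ D.C.deg b - D.C.deg g0} := by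
    intro b' h1
    have := D.C.deg_nonneg h1
    simp only [map_sub, Set.mem_ofPred_eq] at this ⊢
    omega
  have hom : ∀ b', b - b' ∈ σ0.ker → ∀ x, om (V.cls x) b' = eta b (V.cls x) := by
    intro b' h1 x
    have h3 := (hVd x).om_eq_zero ((hg _).1 h1)
    rw [om, map_sub] at h3
    rw [eta_apply, om, om]
    omega
  rcases lt_or_gt_of_ne hne with hlt | hgt
  · have hlt' : 0 < (-eta b) d := by
      rw [AddMonoidHom.neg_apply]
      omega
    obtain ⟨e1, e2⟩ := lo_ray (w := mid σ0 D.g) (η := -eta b) fun x hx hx0 =>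
      ray_pos hd ((mid σ0 D.g).supp x hx) hx0 hd0 ((hg x).1 (hw x hx)) _ hlt'
    rw [neg_neg] at e2
    refine (expand (supp_inv hw) (fun b' h1 _ h3 => ?_) h).congr fun f _ => ?_
    · rw [ker_eqOn (down_le _ _) (inv_eqOn (down_le _ _) he) b' (hdeg b' h1)]
      refine ker_inv_pos hV hcc hc (fun x => ?_) _
      have := ray_pos hd (hV.2 x).1 (hV.2 x).2 hd0 (hVd x) _ hlt'
      rw [AddMonoidHom.neg_apply] at this
      rw [hom b' h3]
      omega
    · rw [phi_lex, phi_lex, e1, e2, ← cj_mul_grp, mul_inv_cancel]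
  · obtain ⟨e1, e2⟩ := lo_ray (w := mid σ0 D.g) (η := eta b) fun x hx hx0 =>
      ray_pos hd ((mid σ0 D.g).supp x hx) hx0 hd0 ((hg x).1 (hw x hx)) _ hgt
    refine (expand hw (fun b' h1 _ h3 => ?_) h).congr fun f _ => ?_
    · rw [ker_eqOn (down_le _ _) he b' (hdeg b' h1)]
      refine ker_pos hV hcc hc (fun x => ?_) _
      rw [hom b' h3]
      exact (ray_pos hd (hV.2 x).1 (hV.2 x).2 hd0 (hVd x) _ hgt).le
    · rw [phi_lex, phi_lex, e1, e2, cj_one]

theorem main (hD : InPos D) (n : ℕ) : ∀ b, D.C.deg (b - g0) < n → ∀ σ, Gen σ 0 →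
    Pos D g0 fun f => (phi σ D.g f).fn b := by
  have hz : ∀ b σ, b - g0 ∉ D.C.P → Pos D g0 fun f => (phi σ D.g f).fn b := by
    intro b σ hb
    refine Pos.zero.congr fun f hf => ?_
    by_contra hc
    exact hb (cj_supp _ hf b hc)
  induction n with
  | zero =>
    intro b hb σ _
    refine hz b σ fun h => ?_
    have := D.C.deg_nonneg h
    omega
  | succ n ih =>
    intro b hb σ hσ
    by_cases hbP : b - g0 ∈ D.C.P
    swap
    · exact hz b σ hbP
    refine flow (eta b) 0 (map_zero _) _ (D.C.fin (D.C.deg b - D.C.deg g0)) ∅ (by simp)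
      (fun σ => Pos D g0 fun f => (phi σ D.g f).fn b) ?_ ?_ ?_ σ hσ (by simp)
    · intro σ τ _ _ _ _ hA h
      refine h.congr fun f hf => (phi_loc hA fun b' hb' => ?_).symm
      have := D.C.deg_nonneg (hf b' hb')
      rw [map_sub] at this
      omega
    · intro σ _ _
      exact (Pos.alpha b).congr fun f _ => alpha_lex _ _ _ _
    · intro σ0 m hm h2 _ h
      refine step hD hm (fun x => (h2 x).trans InQ2_zero) (fun b' h1 h3 => ?_) hbP
      by_cases e : b - b' = 0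
      · rw [← sub_eq_zero.1 e]
        exact h
      · refine ih b' ?_ _ (h2.lex (map_zero _) hm.ne')
        have := D.C.pos _ h3 e
        simp only [map_sub] at this hb ⊢
        omega

end P2Aux

theorem p2 (D : Diag N) (hD : InPos D) (g0 b : N) (σ : Sg N) (hσ : Gen σ 0) :
    ∃ β : N →₀ K, (∀ a, β a ∈ Kpos) ∧ ∀ f : L D.C, (∀ n, f.fn n ≠ 0 → n - g0 ∈ D.C.P) →
      (phi σ D.g f).fn b = β.sum fun a c => c * alpha D.g f a := by
  exact P2Aux.main hD ((D.C.deg (b - g0)).toNat + 1) b (by omega) σ hσ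

end
end Vale.Agent.P066.S
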