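import Vale.Agent.P066.S.GF
import Vale.Agent.P066.A.Main

/-!
P066 part S, file AdPos (TASK S7).
* `ker_pos`: split the tower `V × ℕ` along `p (x,j) := w x ≤ j`, `w x = om (cls x) b ≥ 0` (`mon_split`,
  all `om` vanish): `c = c1 * H`, `H = gf` of the finite part; the part `j ≥ w x` is equivalent to the
  whole tower with exponents shifted by `2 om (cls x) b` (`mon_equiv`, `ψ = eta b`), so
  `c1 = tw b c` and `ker c b = H`.
* `ker_inv_pos`: apply the same to the shifted family `V'` (`ex + 2 om (cls x) b`), whose group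
  element is `tw b c`, and to `-b`: `tw b c = H' * c` (split in the other order).
* `gfA`: apply `A.thmA` to the colours `V.T` (classical decidable equality),
  `a i j = (om (cls i) (cls j)).toNat`, weights `η (cls i)`, `k = V.ex`.  With
  `D β = β.sum (n • cls i)` one has `omA a β β' = om (D β) (D β')`, `etaC β = η (D β)`.  Turn `T1`, `Γ`,
  `T3` into weighted types through `D`; `Φ` identifies `V.M` with `(W1.prod V'.M).prod W3` (the
  twisting term of `V'.M` vanishes by `hsym`); finiteness of `W1`, `W3`, `V'` by `fin_of_inj`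
  (`t ↦ Φ.symm (t, 0, unit)`, `x ↦ Φ.symm (unit, single (x,0) 1, unit)`); a nonzero `β` has
  `D β ∈ P \ 0`; `gf_equiv`, `gf_prod`, `exists_grp`, `fac_unique`.
-/

namespace Vale.Agent.P066.S
noncomputable section
open Classical WT

variable {N : Type} [AddCommGroup N] [QL N] {C : Cone N} {V : WT N}

/-- shifting the towers -/
def adShift {T : Type} (w : T → ℕ) (p : T × ℕ → Prop) (hp : ∀ t, p t ↔ w t.1 ≤ t.2) :
    T × ℕ ≃ {t // p t} where
  toFun t := ⟨(t.1, t.2 + w t.1), (hp _).2 (Nat.le_add_left _ _)⟩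
  invFun t := (t.1.1, t.1.2 - w t.1.1)
  left_inv t := by simp
  right_inv t := by
    apply Subtype.ext
    have := (hp _).1 t.2
    exact Prod.ext rfl (Nat.sub_add_cancel this)

theorem ker_pos (h : V.Fam C) (hc : ∀ x y, om (V.cls x) (V.cls y) = 0) {c : Grp C}
    (hg : c.fn = V.M.gf) {b : N} (hb : ∀ x, 0 ≤ om (V.cls x) b) (p : N) :
    (ker c b).fn p ∈ Kpos := by
  let w : V.T → ℕ := fun x => (om (V.cls x) b).toNat
  let q : V.tow.T → Prop := fun t => w t.1 ≤ t.2
  have hs := mon_split (tow_Fam h) q fun x y _ _ => (hc x.1 y.1).le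
  obtain ⟨H, hH⟩ := exists_grp_mon (res_Fam (tow_Fam h) fun x => ¬ q x)
  have h1 : (V.tow.res q).mon.gf = (tw b c).fn := by
    funext n
    rw [tw_fn, hg]
    refine mon_equiv (G := V.tow) (G' := V.tow.res q) (adShift w q fun _ => Iff.rfl) (eta b)
      (fun _ => rfl) (fun t => ?_) n
    change V.ex t.1 + 2 * ((t.2 + w t.1 : ℕ) : ℤ) = V.ex t.1 + 2 * t.2 + 2 * om (V.cls t.1) b
    have := Int.toNat_of_nonneg (hb t.1)
    simp only [w]
    push_cast
    omega
  have h2 : c = tw b c * H := Grp.ext (by rw [Grp.mul_fn, hH, ← h1, hg]; exact hs)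
  have h3 : ker c b = H := by
    unfold ker
    exact inv_mul_eq_of_eq_mul h2
  rw [h3, hH]
  exact gf_pos _ _

theorem ker_inv_pos (h : V.Fam C) (hc : ∀ x y, om (V.cls x) (V.cls y) = 0) {c : Grp C}
    (hg : c.fn = V.M.gf) {b : N} (hb : ∀ x, om (V.cls x) b ≤ 0) (p : N) :
    (ker c⁻¹ b).fn p ∈ Kpos := by
  let V' : WT N := ⟨V.T, V.cls, fun x => V.ex x + 2 * om (V.cls x) b⟩
  have h' : V'.Fam C := ⟨fin_of_inj (W := V') (W' := V) id Function.injective_id id
    (fun n => -(2 * om n b)) (fun _ => rfl) (fun t => by simp [V']) h.1, h.2⟩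
  let w : V.T → ℕ := fun x => (-om (V.cls x) b).toNat
  let q : V'.tow.T → Prop := fun t => t.2 < w t.1
  have hs := mon_split (tow_Fam h') q fun x y _ _ => (hc x.1 y.1).le
  obtain ⟨H, hH⟩ := exists_grp_mon (res_Fam (tow_Fam h') q)
  have h0 : V'.tow.mon.gf = (tw b c).fn := by
    funext n
    rw [tw_fn, hg]
    refine mon_equiv (G := V.tow) (G' := V'.tow) (Equiv.refl _) (eta b)
      (fun _ => rfl) (fun t => ?_) n
    change V.ex t.1 + 2 * om (V.cls t.1) b + 2 * t.2 = V.ex t.1 + 2 * t.2 + 2 * om (V.cls t.1) b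
    ring
  have h1 : (V'.tow.res fun x => ¬ q x).mon.gf = c.fn := by
    funext n
    rw [hg]
    have := mon_equiv (G := V.tow) (G' := V'.tow.res fun x => ¬ q x)
      (adShift w (fun x => ¬ q x) fun _ => not_lt) 0 (fun _ => rfl) (fun t => ?_) n
    · rw [this]
      simp [U_zero, M]
    · change V.ex t.1 + 2 * om (V.cls t.1) b + 2 * ((t.2 + w t.1 : ℕ) : ℤ) =
        V.ex t.1 + 2 * t.2 + 2 * 0
      have := Int.toNat_of_nonneg (neg_nonneg.2 (hb t.1))
      simp only [w]
      push_cast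
      omega
  have h2 : tw b c = H * c := Grp.ext (by rw [Grp.mul_fn, hH, ← h1, ← h0]; exact hs)
  have h3 : ker c⁻¹ b = H := by
    unfold ker
    rw [tw_inv, inv_inv, h2, mul_inv_cancel_right]
  rw [h3, hH]
  exact gf_pos _ _

/-- class of a dimension vector -/
def adD (V : WT N) : (V.T →₀ ℕ) →+ N := Finsupp.liftAddHom fun i => multiplesHom N (V.cls i)

omit [QL N] in
theorem adD_single (i : V.T) (n : ℕ) : adD V (Finsupp.single i n) = n • V.cls i := by
  simp [adD]

omit [QL N] in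
theorem adD_mem {Q : AddSubmonoid N} (hQ : ∀ x, V.cls x ∈ Q) (β : V.T →₀ ℕ) : adD V β ∈ Q := by
  induction β using Finsupp.induction_linear with
  | zero => simp
  | add f g hf hg => rw [map_add]; exact Q.add_mem hf hg
  | single i n => rw [adD_single]; exact Q.nsmul_mem (hQ i) n

omit [QL N] in
theorem adD_eq_zero (h : V.Fam C) {β : V.T →₀ ℕ} (h0 : adD V β = 0) : β = 0 := by
  by_contra hne
  obtain ⟨i, hi⟩ := Finsupp.ne_iff.1 hne
  have hi' : 1 ≤ β i := Nat.one_le_iff_ne_zero.2 hi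
  have e : β = (β - Finsupp.single i 1) + Finsupp.single i 1 :=
    (tsub_add_cancel_of_le (Finsupp.single_le_iff.2 hi')).symm
  rw [e, map_add, adD_single, one_smul] at h0
  have h1 := C.deg_nonneg (adD_mem (fun x => (h.2 x).1) (β - Finsupp.single i 1))
  have h2 := C.pos _ (h.2 i).1 (h.2 i).2
  have h3 := congrArg C.deg h0
  rw [map_add, map_zero] at h3
  omega

omit [QL N] in
theorem adD_eta (η : N →+ ℤ) (β : V.T →₀ ℕ) :
    A.etaC (fun i => η (V.cls i)) β = η (adD V β) := by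
  induction β using Finsupp.induction_linear with
  | zero => simp [A.etaC]
  | add f g hf hg => rw [A.etaC_add, hf, hg, map_add, map_add]
  | single i n => simp [A.etaC, adD_single]

/-- the form `aC` as a biadditive map -/
def adB {T : Type} (a : T → T → ℕ) : (T →₀ ℕ) →+ (T →₀ ℕ) →+ ℤ :=
  AddMonoidHom.mk' (fun β => AddMonoidHom.mk' (fun β' => (A.aC a β β' : ℤ)) fun x y => by
    rw [A.aC_add_right]; push_cast; rfl) fun x y => by
      refine AddMonoidHom.ext fun z => ?_
      change ((A.aC a (x + y) z : ℕ) : ℤ) = (A.aC a x z : ℕ) + (A.aC a y z : ℕ)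
      rw [A.aC_add_left]; push_cast; rfl

theorem adB_apply {T : Type} (a : T → T → ℕ) (β β' : T →₀ ℕ) : adB a β β' = A.aC a β β' := rfl

theorem adB_single {T : Type} (a : T → T → ℕ) (i j : T) (n m : ℕ) :
    adB a (Finsupp.single i n) (Finsupp.single j m) = n * m * a i j := by
  simp [adB_apply, A.aC]

theorem adD_om (β β' : V.T →₀ ℕ) :
    A.omA (fun i j => (om (V.cls i) (V.cls j)).toNat) β β' = om (adD V β) (adD V β') := by
  unfold A.omA
  rw [← adB_apply, ← adB_apply]
  induction β using Finsupp.induction_linear with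
  | zero => simp [om]
  | add f g hf hg =>
    simp only [om, map_add, AddMonoidHom.add_apply] at hf hg ⊢
    omega
  | single i n =>
    induction β' using Finsupp.induction_linear with
    | zero => simp [om]
    | add f g hf hg =>
      simp only [om, map_add, AddMonoidHom.add_apply] at hf hg ⊢
      omega
    | single j m =>
      rw [adB_single, adB_single, adD_single, adD_single]
      have e : ((om (V.cls i) (V.cls j)).toNat : ℤ) - (om (V.cls j) (V.cls i)).toNat =
          om (V.cls i) (V.cls j) := by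
        rw [om_skew (V.cls j)]
        omega
      simp only [om, map_nsmul, AddMonoidHom.nsmul_apply, nsmul_eq_mul] at e ⊢
      linear_combination (n : ℤ) * m * e

omit [QL N] in
theorem adD_cls {Y : Type} {k : Y → ℤ} (c : Y → V.T →₀ ℕ) (m : A.Mo k) :
    adD V (m.cls c) = m.1.sum fun y n => n • adD V (c y.1) := by
  simp only [A.Mo.cls, map_finsuppSum, map_nsmul]

theorem adB_cls {T Y : Type} (a : T → T → ℕ) {k : Y → ℤ} (c : Y → T →₀ ℕ) (m : A.Mo k) :
    adB a (m.cls c) (m.cls c) =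
      m.1.sum fun x n => m.1.sum fun y l => (n : ℤ) * l * adB a (c x.1) (c y.1) := by
  simp only [A.Mo.cls, Finsupp.sum, map_sum, map_nsmul, AddMonoidHom.finsetSum_apply,
    AddMonoidHom.nsmul_apply, nsmul_eq_mul, Finset.mul_sum]
  rw [Finset.sum_comm]
  refine Finset.sum_congr rfl fun x _ => Finset.sum_congr rfl fun y _ => ?_
  ring

/-- monomials in towers -/
def adE (W : WT N) : W.M.T ≃ A.Mo W.ex :=
  Equiv.subtypeEquivRight fun m => forall_congr' fun y => by
    have : Odd (W.tow.ex y) ↔ Odd (W.ex y.1) := by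
      change Odd (W.ex y.1 + 2 * y.2) ↔ _
      simp [Int.odd_add]
    exact imp_congr_left this

theorem adE_ex (W : WT N) (m : W.M.T) : W.M.ex m = (adE W m).wt -
    m.1.sum fun x n => m.1.sum fun y l => (n : ℤ) * l * max (om (W.cls x.1) (W.cls y.1)) 0 := rfl

theorem ad_fin_left {W W' : WT N} (h : (W.prod W').Fin) {u : W'.T} (h1 : W'.cls u = 0)
    (h2 : W'.ex u = 0) : W.Fin :=
  fin_of_inj (W' := W.prod W') (fun t => (t, u)) (fun _ _ e => (Prod.ext_iff.1 e).1) id 0
    (fun t => by simp [prod, h1]) (fun t => by simp [prod, h1, h2, om]) h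

theorem ad_fin_right {W W' : WT N} (h : (W.prod W').Fin) {u : W.T} (h1 : W.cls u = 0)
    (h2 : W.ex u = 0) : W'.Fin :=
  fin_of_inj (W' := W.prod W') (fun t => (u, t)) (fun _ _ e => (Prod.ext_iff.1 e).2) id 0
    (fun t => by simp [prod, h1]) (fun t => by simp [prod, h1, h2, om]) h

theorem ad_fin_M {W : WT N} (h : W.M.Fin) : W.Fin := by
  refine fin_of_inj (W' := W.M) (fun t => ⟨Finsupp.single (t, 0) 1, fun x _ => ?_⟩)
    (fun t t' e => ?_) id 0 (fun t => ?_) (fun t => ?_) h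
  · have : ∀ y : W.T × ℕ, (Finsupp.single (t, 0) 1 : W.T × ℕ →₀ ℕ) y ≤ 1 := fun y => by
      rw [Finsupp.single_apply]
      split_ifs <;> simp
    exact this x
  · have := Finsupp.single_left_injective one_ne_zero (congrArg Subtype.val e)
    exact (Prod.ext_iff.1 this).1
  · simp [M, mon, tow]
  · simp [M, mon, tow, om_self]

theorem gfA (h : V.Fam C) (η : N →+ ℤ) (Q : AddSubmonoid N) (hQ : ∀ x, V.cls x ∈ Q)
    (hsym : ∀ n ∈ Q, ∀ n' ∈ Q, η n = 0 → η n' = 0 → om n n' = 0) {g : Grp C}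
    (hg : g.fn = V.M.gf) :
    ∃ V' : WT N, V'.Fam C ∧ (∀ x, η (V'.cls x) = 0 ∧ V'.cls x ∈ Q) ∧
      (mid (Sg.ofHom (-η)) g).fn = V'.M.gf := by
  obtain ⟨T1, T3, Γ, c1, x1, c3, x3, c, kΓ, Φ, s1, ⟨u1, u1c, u1x, u1u⟩, s3, ⟨u3, u3c, u3x, u3u⟩,
    sc, hΦ⟩ := A.thmA (fun i j => (om (V.cls i) (V.cls j)).toNat) (fun i => η (V.cls i)) V.ex
    fun β β' h1 h2 => by
      have h3 := adD_om β β'
      rw [adD_eta] at h1 h2
      rw [hsym _ (adD_mem hQ β) _ (adD_mem hQ β') h1 h2] at h3
      unfold A.omA at h3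
      omega
  simp only [adD_eta] at s1 s3 sc
  let W1 : WT N := ⟨T1, fun t => adD V (c1 t), x1⟩
  let W3 : WT N := ⟨T3, fun t => adD V (c3 t), x3⟩
  let V' : WT N := ⟨Γ, fun t => adD V (c t), kΓ⟩
  let W : WT N := (W1.prod V'.M).prod W3
  let e : V.M.T ≃ W.T := (adE V).trans (Φ.trans ((Equiv.prodAssoc _ _ _).symm.trans
    (Equiv.prodCongr (Equiv.prodCongr (Equiv.refl _) (adE V').symm) (Equiv.refl _))))
  have hP : ∀ x, V.cls x ∈ C.P := fun x => (h.2 x).1
  have hcM : ∀ m : A.Mo kΓ, V'.M.cls ((adE V').symm m) = adD V (m.cls c) := fun m =>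
    (adD_cls c m).symm
  have hxM : ∀ m : A.Mo kΓ, V'.M.ex ((adE V').symm m) = m.wt := by
    intro m
    rw [adE_ex, Equiv.apply_symm_apply]
    have : ∀ x y : Γ, om (V'.cls x) (V'.cls y) = 0 := fun x y =>
      hsym _ (adD_mem hQ _) _ (adD_mem hQ _) (sc x).1 (sc y).1
    simp [this]
  have hc : ∀ m, W.cls (e m) = V.M.cls m := by
    intro m
    have h1 := congrArg (adD V) (hΦ (adE V m)).1
    rw [map_add, map_add, adD_cls] at h1
    simp only [adD_single, one_smul] at h1
    change adD V (c1 (Φ (adE V m)).1) + V'.M.cls ((adE V').symm (Φ (adE V m)).2.1) +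
      adD V (c3 (Φ (adE V m)).2.2) = _
    rw [hcM, ← h1]
    rfl
  have he : ∀ m, W.ex (e m) = V.M.ex m := by
    intro m
    have h1 := (hΦ (adE V m)).2
    rw [adD_om, adD_om, adD_om, ← adB_apply, adB_cls] at h1
    simp only [adB_single, Nat.cast_one, one_mul, Int.toNat_eq_max] at h1
    change x1 (Φ (adE V m)).1 + V'.M.ex ((adE V').symm (Φ (adE V m)).2.1) +
      om (adD V (c1 (Φ (adE V m)).1)) (V'.M.cls ((adE V').symm (Φ (adE V m)).2.1)) +
      x3 (Φ (adE V m)).2.2 + om (adD V (c1 (Φ (adE V m)).1) +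
        V'.M.cls ((adE V').symm (Φ (adE V m)).2.1)) (adD V (c3 (Φ (adE V m)).2.2)) = _
    rw [hcM, hxM, adE_ex]
    refine Eq.trans ?_ h1.symm
    simp only [om, map_add, AddMonoidHom.add_apply]
    ring
  have hWf : W.Fin := fin_of_inj (W' := V.M) e.symm e.symm.injective id 0
    (fun t => by rw [← hc, Equiv.apply_symm_apply]; rfl)
    (fun t => by rw [← he, Equiv.apply_symm_apply]; simp) (mon_In (tow_Fam h)).1
  let z : V'.M.T := ⟨0, fun _ _ => zero_le_one⟩
  have zc : V'.M.cls z = 0 := by simp [z, M, mon]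
  have zx : V'.M.ex z = 0 := by simp [z, M, mon]
  have c1z : W1.cls u1 = 0 := by simp [W1, u1c]
  have c3z : W3.cls u3 = 0 := by simp [W3, u3c]
  have h12 : (W1.prod V'.M).Fin := ad_fin_left hWf (u := u3) c3z u3x
  have hW1 : W1.In C := ⟨ad_fin_left h12 zc zx, fun t => adD_mem hP _⟩
  have hV' : V'.Fam C := ⟨ad_fin_M (ad_fin_right h12 (u := u1) c1z u1x),
    fun t => ⟨adD_mem hP _, fun h0 => (sc t).2 (adD_eq_zero h h0)⟩⟩
  have hW3 : W3.In C := ⟨ad_fin_right hWf (u := (u1, z)) (by simp [prod, c1z, zc])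
    (by simp only [prod, c1z, zx]; simpa [om] using u1x), fun t => adD_mem hP _⟩
  obtain ⟨g1, hg1⟩ := exists_grp hW1 ⟨u1, c1z, u1x, fun t ht => u1u t (adD_eq_zero h ht)⟩
  obtain ⟨g3, hg3⟩ := exists_grp hW3 ⟨u3, c3z, u3x, fun t ht => u3u t (adD_eq_zero h ht)⟩
  obtain ⟨g2, hg2⟩ := exists_grp_M hV'
  have hM : V'.M.In C := mon_In (tow_Fam hV')
  have hgg : g = g1 * g2 * g3 := by
    refine Grp.ext ?_
    rw [Grp.mul_fn, Grp.mul_fn, hg1, hg2, hg3, ← gf_prod hW1 hM, ← gf_prod (prod_In hW1 hM) hW3, hg]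
    funext n
    have := gf_equiv e 0 hc (fun t => by rw [he]; simp) n
    rw [this]
    simp [U_zero]
  have hF : IsF (Sg.ofHom (-η)) g1 g2 g3 := by
    refine ⟨?_, ?_, ?_⟩
    · rw [hg1]
      refine gf_supp fun t => ?_
      rcases s1 t with h1 | h1
      · exact Or.inl (by simp [W1, h1])
      · exact Or.inr (Sg.ofHom_neg.2 (by simpa using h1))
    · rw [hg2]
      exact M_supp fun t => Sg.ofHom_nul.2 (by simpa using (sc t).1)
    · rw [hg3]
      refine gf_supp fun t => ?_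
      rcases s3 t with h1 | h1
      · exact Or.inl (by simp [W3, h1])
      · exact Or.inr (Sg.ofHom_pos.2 (by simpa using h1))
  refine ⟨V', hV', fun x => ⟨(sc x).1, adD_mem hQ _⟩, ?_⟩
  rw [hgg, (fac_unique hF).2.1, hg2]

end
end Vale.Agent.P066.S
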