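import Vale.Agent.P066.S.Fac

/-!
P066 part S, file Conj (definitions final; lemmas = TASK S5).  Conjugation, `phi`, `alpha`,
existence of a group element with prescribed attractor data.
* `toL_mul_Xm`: `a X^b = X^b (tw b a)` (`conv_dl_left/right`); `tw b` is multiplicative.
* `cj_expand`: both sides are the finite triple sum; e.g. write `f` at the finitely many relevant
  classes as a finite sum of monomials plus a remainder that does not contribute.
* `cj_perp`: `conv_comm_perp` gives `(c⁻¹ (f c)) x = ((f c) c⁻¹) x`.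
* `mid_att_indep`: let `b = mid (ofHom (eta n)) g`, supported where `om (·, n) = 0`.  Let `Dg` be
  `p ↦ deg p * g p` (a derivation of `L C`), `ell g = g⁻¹ * Dg`, so
  `ell (a b) = cj b (ell a) + ell b`.  For `x ≠ 0` on the line of `n`, `cj_perp` gives
  `ell b x = ell (lo) x + ell (mid) x + ell (hi) x = ell (mid σ b) x`, hence
  `ell (mid σ b) = ell (mid σ' b)` (off the line both vanish).  If `ell w = ell w'` then
  `D (w w'⁻¹) = 0`, so `w = w'` (`K` is torsion free).
* `exists_init`: `solve` with `Φ g n = (mid ((ofHom (eta n)).lex σ_n) g).fn n` (`exists_gen`,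
  `mid_U1`), then `mid_att_indep`; outside the cone both sides vanish.
-/

namespace Vale.Agent.P066.S
noncomputable section
open Classical

variable {N : Type} [AddCommGroup N] [QL N] {C : Cone N}

/-- `X^(-b) g X^b` -/
def tw (b : N) (g : Grp C) : Grp C where
  fn p := U (2 * om p b) * g.fn p
  supp p h := g.supp p fun h0 => h (by simp [h0])
  at0 := by simp [om, U_zero, g.at0]

def cj (c : Grp C) (f : L C) : L C := toL C c⁻¹ * f * toL C c
def phi (σ : Sg N) (g : Grp C) (f : L C) : L C := cj (lo σ g) f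
def alpha (g : Grp C) (f : L C) (a : N) : K := (phi (Sg.ofHom (eta a)) g f).fn a
/-- kernel of the conjugation -/
def ker (c : Grp C) (b : N) : Grp C := (tw b c)⁻¹ * c

variable {c c' g : Grp C} {f f' : L C} {b x : N}

theorem tw_fn (b : N) (g : Grp C) (p : N) : (tw b g).fn p = U (2 * om p b) * g.fn p := rfl
theorem tw_one (b : N) : tw b (1 : Grp C) = 1 := by
  refine Grp.ext (funext fun p => ?_)
  rw [tw_fn, Grp.one_fn]
  by_cases hp : p = 0
  · subst hp
    simp [om, U_zero]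
  · simp [dl, hp]
theorem tw_mul (b : N) (g h : Grp C) : tw b (g * h) = tw b g * tw b h := by
  refine Grp.ext (funext fun n => ?_)
  have hfin := (adm_of_supp g.supp).pair_finite (adm_of_supp h.supp) n
  rw [tw_fn, Grp.mul_fn, Grp.mul_fn,
    conv_eq_sum hfin.toFinset (fun a h1 h2 => hfin.mem_toFinset.2 ⟨h1, h2⟩),
    conv_eq_sum (F := (tw b g).fn) (G := (tw b h).fn) hfin.toFinset
      (fun a h1 h2 => hfin.mem_toFinset.2
        ⟨right_ne_zero_of_mul h1, right_ne_zero_of_mul h2⟩), Finset.mul_sum]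
  refine Finset.sum_congr rfl fun a _ => ?_
  have e : 2 * om n b = 2 * om a b + 2 * om (n - a) b := by
    simp only [om, map_sub, AddMonoidHom.sub_apply]; ring
  rw [tw_fn, tw_fn, e, U_add]
  ring
theorem tw_inv (b : N) (g : Grp C) : tw b g⁻¹ = (tw b g)⁻¹ :=
  eq_inv_of_mul_eq_one_left (by rw [← tw_mul, inv_mul_cancel, tw_one])
theorem tw_tw (b b' : N) (g : Grp C) : tw b (tw b' g) = tw (b + b') g := by
  refine Grp.ext (funext fun p => ?_)
  have e : 2 * om p (b + b') = 2 * om p b + 2 * om p b' := by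
    simp only [om, map_add]; ring
  rw [tw_fn, tw_fn, tw_fn, e, U_add, mul_assoc]
theorem tw_zero (g : Grp C) : tw 0 g = g := by
  refine Grp.ext (funext fun p => ?_)
  rw [tw_fn]
  simp [om, U_zero]
theorem toL_mul_Xm (g : Grp C) (b : N) : toL C g * Xm C b = Xm C b * toL C (tw b g) := by
  refine L.ext (funext fun n => ?_)
  rw [L.mul_fn, L.mul_fn, mono_fn, toL_fn, toL_fn, conv_dl_left, conv_dl_right, tw_fn]
  have e : om n b = om b n + 2 * om (n - b) b := by
    have h1 : om (n - b) b = om n b - om b b := by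
      simp only [om, map_sub, AddMonoidHom.sub_apply]
    rw [h1, om_self, om_skew b n]; ring
  rw [e, U_add]
  ring
theorem cj_one (f : L C) : cj 1 f = f := by simp [cj]
theorem cj_mul_grp (c c' : Grp C) (f : L C) : cj (c * c') f = cj c' (cj c f) := by
  simp only [cj, mul_inv_rev, map_mul, mul_assoc]
theorem cj_add (c : Grp C) (f f' : L C) : cj c (f + f') = cj c f + cj c f' := by
  simp only [cj, mul_add, add_mul]
theorem toL_mul_inv_conj (c : Grp C) : toL C c * toL C c⁻¹ = 1 := by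
  rw [← map_mul, mul_inv_cancel, map_one]
theorem toL_inv_mul_conj (c : Grp C) : toL C c⁻¹ * toL C c = 1 := by
  rw [← map_mul, inv_mul_cancel, map_one]
theorem cj_mul (c : Grp C) (f f' : L C) : cj c (f * f') = cj c f * cj c f' := by
  have : cj c f * cj c f' = toL C c⁻¹ * f * (toL C c * toL C c⁻¹) * f' * toL C c := by
    simp only [cj, mul_assoc]
  rw [this, toL_mul_inv_conj]
  simp only [cj, mul_assoc, one_mul]
theorem cj_one' (c : Grp C) : cj c 1 = 1 := by
  rw [cj, mul_one, toL_inv_mul_conj]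
theorem cj_sum {ι : Type} (c : Grp C) (s : Finset ι) (F : ι → L C) :
    cj c (∑ i ∈ s, F i) = ∑ i ∈ s, cj c (F i) := by
  simp only [cj, Finset.mul_sum, Finset.sum_mul]
theorem cj_list_prod (c : Grp C) (l : List (L C)) : cj c l.prod = (l.map (cj c)).prod := by
  induction l with
  | nil => simp [cj_one']
  | cons a l ih => rw [List.prod_cons, List.map_cons, List.prod_cons, cj_mul, ih]
theorem cj_toL (c g : Grp C) : cj c (toL C g) = toL C (c⁻¹ * g * c) := by
  simp only [cj, map_mul]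
theorem cj_Xm (c : Grp C) (b : N) : cj c (Xm C b) = Xm C b * toL C (ker c b) := by
  rw [cj, toL_mul_Xm, tw_inv, ker, map_mul, mul_assoc]
theorem cj_Xm_fn (c : Grp C) (b x : N) :
    (cj c (Xm C b)).fn x = U (om b x) * (ker c b).fn (x - b) := by
  rw [cj_Xm, L.mul_fn, mono_fn, conv_dl_left, toL_fn, mul_one]
theorem cj_finite (f : L C) (x : N) : {b | f.fn b ≠ 0 ∧ x - b ∈ C.P}.Finite := by
  obtain ⟨T, hT⟩ := f.adm
  refine (T.finite_toSet.biUnion fun t _ => C.between_finite t x).subset ?_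
  rintro b ⟨h1, h2⟩
  obtain ⟨t, ht, h3⟩ := hT b h1
  exact Set.mem_biUnion (Finset.mem_coe.2 ht) ⟨h3, h2⟩
theorem cj_ne_zero (h : (cj c f).fn x ≠ 0) : ∃ b, f.fn b ≠ 0 ∧ x - b ∈ C.P := by
  rw [cj, L.mul_fn] at h
  obtain ⟨a, h1, h2⟩ := conv_ne_zero h
  rw [L.mul_fn] at h1
  obtain ⟨a', h3, h4⟩ := conv_ne_zero h1
  refine ⟨a - a', h4, ?_⟩
  have e : x - (a - a') = (x - a) + a' := by abel
  rw [e]
  exact C.P.add_mem (c.supp _ h2) ((c⁻¹).supp _ h3)
theorem cj_mono_fn (c : Grp C) (b x : N) (k : K) :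
    (cj c (mono C b k)).fn x = k * (cj c (Xm C b)).fn x := by
  have e : mono C b k = mono C 0 k * Xm C b := by
    rw [mono_mul]
    simp [om, U_zero]
  have e2 : cj c (mono C b k) = mono C 0 k * cj c (Xm C b) := by
    rw [e, cj, cj, ← mul_assoc, ← mono_zero_comm]
    simp only [mul_assoc]
  rw [e2, L.mul_fn, mono_fn, conv_dl_left]
  simp [om, U_zero]
theorem cj_expand (c : Grp C) (f : L C) (x : N) :
    (cj c f).fn x = ∑ᶠ b, f.fn b * (cj c (Xm C b)).fn x := by
  have hfin := cj_finite f x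
  set s := hfin.toFinset with hs
  have hmem : ∀ b, b ∈ s ↔ f.fn b ≠ 0 ∧ x - b ∈ C.P := fun b => hfin.mem_toFinset
  set m : L C := ∑ b ∈ s, mono C b (f.fn b) with hm
  have hr : (cj c (f - m)).fn x = 0 := by
    by_contra hne
    obtain ⟨b, h1, h2⟩ := cj_ne_zero hne
    apply h1
    rw [L.sub_fn, Pi.sub_apply, hm, L.sum_fn]
    simp only [mono_fn, dl, Finset.sum_ite_eq]
    by_cases hb : b ∈ s
    · simp [hb]
    · have : f.fn b = 0 := by
        by_contra h0
        exact hb ((hmem b).2 ⟨h0, h2⟩)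
      simp [hb, this]
  have e : f = m + (f - m) := by abel
  have e1 : (cj c f).fn x = ∑ b ∈ s, f.fn b * (cj c (Xm C b)).fn x := by
    conv_lhs => rw [e]
    rw [cj_add, L.add_fn, Pi.add_apply, hr, add_zero, hm, cj_sum, L.sum_fn]
    exact Finset.sum_congr rfl fun b _ => cj_mono_fn c b x _
  rw [e1, finsum_eq_sum_of_support_subset]
  intro b hb
  rw [Function.mem_support, cj_Xm_fn] at hb
  exact Finset.mem_coe.2 ((hmem b).2 ⟨left_ne_zero_of_mul hb,
    (ker c b).supp _ (right_ne_zero_of_mul (right_ne_zero_of_mul hb))⟩)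
theorem cj_expand_sum (c : Grp C) (f : L C) (x : N) (s : Finset N)
    (h : ∀ b, f.fn b ≠ 0 → (ker c b).fn (x - b) ≠ 0 → b ∈ s) :
    (cj c f).fn x = ∑ b ∈ s, f.fn b * (U (om b x) * (ker c b).fn (x - b)) := by
  rw [cj_expand, finsum_eq_sum_of_support_subset (s := s)]
  · exact Finset.sum_congr rfl fun b _ => by rw [cj_Xm_fn]
  · intro b hb
    rw [Function.mem_support, cj_Xm_fn] at hb
    exact Finset.mem_coe.2 (h b (left_ne_zero_of_mul hb)
      (right_ne_zero_of_mul (right_ne_zero_of_mul hb)))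
theorem supp_tw_conj {Q : AddSubmonoid N} (h : SuppIn Q c.fn) (b : N) : SuppIn Q (tw b c).fn :=
  fun p hp => h p (right_ne_zero_of_mul hp)
theorem supp_ker {Q : AddSubmonoid N} (h : SuppIn Q c.fn) (b : N) : SuppIn Q (ker c b).fn :=
  supp_mul (supp_inv (supp_tw_conj h b)) h
theorem ker_eqOn {Z : Set N} (hZ : Down C Z) (h : Set.EqOn c.fn c'.fn Z) (b : N) :
    Set.EqOn (ker c b).fn (ker c' b).fn Z :=
  mul_eqOn hZ (inv_eqOn hZ fun p hp => by rw [tw_fn, tw_fn, h hp]) h
theorem ker_eqOn_one {Z : Set N} (hZ : Down C Z) (h : ∀ p ∈ Z, c.fn p ≠ 0 → om p b = 0) :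
    Set.EqOn (ker c b).fn (1 : Grp C).fn Z := by
  have h1 : Set.EqOn (tw b c).fn c.fn Z := fun p hp => by
    rw [tw_fn]
    by_cases h0 : c.fn p = 0
    · rw [h0, mul_zero]
    · rw [h p hp h0, mul_zero, U_zero, one_mul]
  have h2 := mul_eqOn hZ (inv_eqOn hZ h1) (Set.eqOn_refl c.fn Z)
  rwa [inv_mul_cancel] at h2
theorem ker_fn_congr {C' : Cone N} {d : Grp C'} (h : c.fn = d.fn) (b : N) :
    (ker c b).fn = (ker d b).fn := by
  have h1 : (tw b c).fn = (tw b d).fn := funext fun p => by rw [tw_fn, tw_fn, h]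
  rw [ker, ker, Grp.mul_fn, Grp.mul_fn, inv_fn_congr h1, h]
theorem cj_loc {R : ℤ} (h : ∀ p, C.deg p ≤ R → c.fn p = c'.fn p)
    (hf : ∀ b, f.fn b ≠ 0 → C.deg x - C.deg b ≤ R) : (cj c f).fn x = (cj c' f).fn x := by
  rw [cj_expand, cj_expand]
  refine finsum_congr fun b => ?_
  by_cases hb : f.fn b = 0
  · rw [hb, zero_mul, zero_mul]
  · have hx : x - b ∈ {p | C.deg p ≤ R} := by
      show C.deg (x - b) ≤ R
      rw [map_sub]
      exact hf b hb
    rw [cj_Xm_fn, cj_Xm_fn, ker_eqOn (down_le C R) (fun p hp => h p hp) b hx]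
theorem cj_cone {C' : Cone N} {d : Grp C'} {f' : L C'} (h : c.fn = d.fn)
    (hf : ∀ b, x - b ∈ C.P → x - b ∈ C'.P → f.fn b = f'.fn b) :
    (cj c f).fn x = (cj d f').fn x := by
  rw [cj_expand, cj_expand]
  refine finsum_congr fun b => ?_
  rw [cj_Xm_fn, cj_Xm_fn, ← ker_fn_congr h b]
  by_cases hk : (ker c b).fn (x - b) = 0
  · rw [hk, mul_zero, mul_zero, mul_zero]
  · rw [hf b ((ker c b).supp _ hk) ((ker d b).supp _ (by rwa [← ker_fn_congr h b]))]
theorem cj_supp {g0 : N} (c : Grp C) (hf : ∀ n, f.fn n ≠ 0 → n - g0 ∈ C.P) :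
    ∀ n, (cj c f).fn n ≠ 0 → n - g0 ∈ C.P := by
  intro n hn
  obtain ⟨b, h1, h2⟩ := cj_ne_zero hn
  have e : n - g0 = (n - b) + (b - g0) := by abel
  rw [e]
  exact C.P.add_mem h2 (hf b h1)
theorem cj_deg {r : ℤ} (c : Grp C) (hf : ∀ n, f.fn n ≠ 0 → r ≤ C.deg n) :
    ∀ n, (cj c f).fn n ≠ 0 → r ≤ C.deg n := by
  intro n hn
  obtain ⟨b, h1, h2⟩ := cj_ne_zero hn
  have h3 := C.deg_nonneg h2
  have h4 := hf b h1
  rw [map_sub] at h3
  omega
theorem cj_perp (h : ∀ p, c.fn p ≠ 0 → om p x = 0) (f : L C) : (cj c f).fn x = f.fn x := by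
  have e : f = toL C c * (toL C c⁻¹ * f) := by
    rw [← mul_assoc, toL_mul_inv_conj, one_mul]
  conv_rhs => rw [e]
  rw [cj, L.mul_fn, L.mul_fn (toL C c), toL_fn]
  exact (conv_comm_perp h).symm
theorem phi_lex (σ τ : Sg N) (g : Grp C) (f : L C) :
    phi (σ.lex τ) g f = cj (lo τ (mid σ g)) (phi σ g f) := by
  rw [phi, phi, lo_lex, cj_mul_grp]
theorem alpha_lex (τ : Sg N) (g : Grp C) (f : L C) (a : N) :
    (phi ((Sg.ofHom (eta a)).lex τ) g f).fn a = alpha g f a := by
  rw [phi_lex, alpha]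
  refine cj_perp (fun p hp => ?_) _
  have h1 := supp_lo (isF_fac (Sg.ofHom (eta a)) g).2.1 τ p hp
  rw [Sg.mem_ker, Sg.ofHom_nul] at h1
  exact h1
theorem phi_loc {σ τ : Sg N} {R : ℤ} (h : σ.Agree τ {p | p ∈ C.P ∧ C.deg p ≤ R})
    (hf : ∀ b, f.fn b ≠ 0 → C.deg x - C.deg b ≤ R) :
    (phi σ g f).fn x = (phi τ g f).fn x := by
  refine cj_loc (fun p hp => ?_) hf
  exact (fac_eqOn (down_le C R) (Set.eqOn_refl g.fn _)
    (h.mono fun z hz => ⟨hz.2, hz.1⟩)).1 hp

/-- the degree derivation -/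
def Dg (F : L C) : L C where
  fn p := (C.deg p : K) * F.fn p
  adm := by
    obtain ⟨T, hT⟩ := F.adm
    exact ⟨T, fun n hn => hT n (right_ne_zero_of_mul hn)⟩

omit [QL N] in
theorem Dg_fn (F : L C) (p : N) : (Dg F).fn p = (C.deg p : K) * F.fn p := rfl

theorem Dg_mul (F G : L C) : Dg (F * G) = Dg F * G + F * Dg G := by
  refine L.ext (funext fun n => ?_)
  have hfin := F.adm.pair_finite G.adm n
  rw [L.add_fn, Pi.add_apply, Dg_fn, L.mul_fn, L.mul_fn, L.mul_fn,
    conv_eq_sum hfin.toFinset (fun a h1 h2 => hfin.mem_toFinset.2 ⟨h1, h2⟩),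
    conv_eq_sum (F := (Dg F).fn) (G := G.fn) hfin.toFinset
      (fun a h1 h2 => hfin.mem_toFinset.2 ⟨right_ne_zero_of_mul h1, h2⟩),
    conv_eq_sum (F := F.fn) (G := (Dg G).fn) hfin.toFinset
      (fun a h1 h2 => hfin.mem_toFinset.2 ⟨h1, right_ne_zero_of_mul h2⟩),
    Finset.mul_sum, ← Finset.sum_add_distrib]
  refine Finset.sum_congr rfl fun a _ => ?_
  rw [Dg_fn, Dg_fn, map_sub, Int.cast_sub]
  ring

/-- the logarithmic derivative -/
def ell (g : Grp C) : L C := toL C g⁻¹ * Dg (toL C g)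

theorem ell_mul (a b : Grp C) : ell (a * b) = cj b (ell a) + ell b := by
  have e : toL C b⁻¹ * toL C a⁻¹ * (toL C a * Dg (toL C b)) = toL C b⁻¹ * Dg (toL C b) := by
    rw [mul_assoc, ← mul_assoc (toL C a⁻¹), toL_inv_mul_conj, one_mul]
  rw [ell, mul_inv_rev, map_mul, map_mul, Dg_mul, mul_add, e]
  simp only [ell, cj, mul_assoc]

theorem supp_ell {Q : AddSubmonoid N} (h : SuppIn Q g.fn) : SuppIn Q (ell g).fn :=
  (supp_inv h).conv fun p hp => h p (right_ne_zero_of_mul hp)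

theorem ell_zero (g : Grp C) : (ell g).fn 0 = 0 := by
  rw [ell, L.mul_fn, conv_at_zero (C := C) (F := (toL C g⁻¹).fn) (G := (Dg (toL C g)).fn)
    (g⁻¹).supp (fun p hp => g.supp p (right_ne_zero_of_mul hp)), Dg_fn]
  simp

theorem K_intCast_ne_zero {k : ℤ} (hk : k ≠ 0) : (k : K) ≠ 0 := by
  intro h
  apply hk
  have h1 : (HahnSeries.C (Γ := ℤ) (R := ℤ)) k = HahnSeries.C 0 := by
    rw [map_zero, ← h, ← map_intCast (HahnSeries.C (Γ := ℤ) (R := ℤ)) k, Int.cast_id]
  exact HahnSeries.C_injective h1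

theorem eq_of_ell {w w' : Grp C} (h : ell w = ell w') : w = w' := by
  set u := w * w'⁻¹ with hu
  have e : w = u * w' := by rw [hu, inv_mul_cancel_right]
  have h1 : cj w' (ell u) = 0 := by
    have := ell_mul u w'
    rw [← e, h] at this
    exact (add_eq_right.1 this.symm)
  have h2 : ell u = 0 := by
    rw [← cj_one (ell u), ← mul_inv_cancel w', cj_mul_grp, h1]
    simp [cj]
  have h3 : Dg (toL C u) = 0 := by
    have : toL C u * ell u = Dg (toL C u) := by
      rw [ell, ← mul_assoc, toL_mul_inv_conj, one_mul]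
    rw [← this, h2, mul_zero]
  have h4 : u = 1 := by
    refine Grp.ext (funext fun p => ?_)
    rw [Grp.one_fn]
    by_cases hp : p = 0
    · subst hp
      simp [dl, u.at0]
    · simp only [dl, hp, if_false]
      by_contra hne
      have h5 := congrFun (congrArg L.fn h3) p
      rw [Dg_fn, toL_fn, L.zero_fn, Pi.zero_apply] at h5
      exact mul_ne_zero (K_intCast_ne_zero (C.pos p (u.supp p hne) hp).ne') hne h5
  rw [e, h4, one_mul]

theorem ell_mid {σ : Sg N} (hx0 : x ≠ 0) (hx : σ.nul x) {Q : AddSubmonoid N}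
    (hQ : ∀ p ∈ Q, om p x = 0) (hg : SuppIn Q g.fn) : (ell (mid σ g)).fn x = (ell g).fn x := by
  have hF := isF_fac σ g
  have h1 : (ell (lo σ g)).fn x = 0 := by
    by_contra hne
    rcases Sg.mem_negs.1 (supp_ell hF.1 x hne) with h | h
    · exact hx0 h
    · exact Sg.not_neg_of_nul hx h
  have h2 : (ell (hi σ g)).fn x = 0 := by
    by_contra hne
    rcases Sg.mem_poss.1 (supp_ell hF.2.2 x hne) with h | h
    · exact hx0 h
    · exact Sg.not_pos_of_nul hx h
  conv_rhs => rw [← fac_mul σ g]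
  rw [ell_mul, L.add_fn, Pi.add_apply, cj_perp (fun p hp => hQ p (supp_hi hg σ p hp)), ell_mul,
    L.add_fn, Pi.add_apply, cj_perp (fun p hp => hQ p (supp_mid hg σ p hp)), h1, h2, zero_add,
    add_zero]

theorem mid_att_indep (g : Grp C) {n : N} {σ σ' : Sg N} (h : Gen σ n) (h' : Gen σ' n) :
    mid ((Sg.ofHom (eta n)).lex σ) g = mid ((Sg.ofHom (eta n)).lex σ') g := by
  rw [mid_lex, mid_lex]
  have hb := (isF_fac (Sg.ofHom (eta n)) g).2.1
  refine eq_of_ell (L.ext (funext fun x => ?_))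
  by_cases hx0 : x = 0
  · rw [hx0, ell_zero, ell_zero]
  by_cases hx : InQ n x
  · have hQ : ∀ p ∈ (Sg.ofHom (eta n)).ker, om p x = 0 := fun p hp => by
      rw [Sg.mem_ker, Sg.ofHom_nul] at hp
      exact hx.hom (QL.om p) hp
    rw [ell_mid hx0 ((h x).2 hx) hQ hb, ell_mid hx0 ((h' x).2 hx) hQ hb]
  · have h1 : ∀ τ : Sg N, Gen τ n →
        (ell (mid τ (mid (Sg.ofHom (eta n)) g))).fn x = 0 := fun τ hτ => by
      by_contra hne
      exact hx ((hτ x).1 (Sg.mem_ker.1 (supp_ell (isF_fac τ _).2.1 x hne)))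
    rw [h1 σ h, h1 σ' h']

theorem exists_init (C : Cone N) (In : N → K) (hIn : SuppIn C.P In) :
    ∃ g : Grp C, ∀ n, n ≠ 0 → ∀ σ, Gen σ n →
      (mid ((Sg.ofHom (eta n)).lex σ) g).fn n = In n := by
  obtain ⟨g, hg⟩ := solve C (fun g n => if h : ∃ σ : Sg N, Gen σ n then
      (mid ((Sg.ofHom (eta n)).lex (Classical.choose h)) g).fn n else g.fn n)
    (fun g g' n _ _ hp => by
      by_cases h : ∃ σ : Sg N, Gen σ n
      · simp only [dif_pos h]
        refine mid_U1 (fun p hp' => hp p (Lo.deg_lt hp')) ?_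
        rw [Sg.lex_nul, Sg.ofHom_nul]
        exact ⟨om_self n, (Classical.choose_spec h).nul_self⟩
      · simp only [dif_neg h]) In
  refine ⟨g, fun n hn σ hσ => ?_⟩
  by_cases hP : n ∈ C.P
  · have h : ∃ σ : Sg N, Gen σ n := ⟨σ, hσ⟩
    have h1 := hg n hP hn
    simp only [dif_pos h] at h1
    rw [mid_att_indep g hσ (Classical.choose_spec h), h1]
  · have h1 : In n = 0 := by
      by_contra hne
      exact hP (hIn n hne)
    rw [h1]
    by_contra hne
    exact hP ((mid _ g).supp n hne)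

/-- a consistent scattering diagram with its attractor data -/
structure Diag (N : Type) [AddCommGroup N] [QL N] where
  C : Cone N
  In : N → K
  g : Grp C
  init : ∀ n, n ≠ 0 → ∀ σ, Gen σ n → (mid ((Sg.ofHom (eta n)).lex σ) g).fn n = In n

end
end Vale.Agent.P066.S
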