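import Vale.Agent.P066.S.Sg

/-!
P066 part S, file Conv (definitions final; all lemmas proved).  Coefficient ring, skew form, cones and
twisted convolution.
For admissible `F`, `G` and fixed `n`, the pairs `(a, n - a)` with `F a ≠ 0`, `G (n - a) ≠ 0` are finite:
`a - t ∈ P`, `n - a - t' ∈ P` bounds `deg (a - t)`.  Associativity: both sides are the finite double
sum over `(a, b)` of `U (om a n + om b (n - a)) F a G b H (n - a - b)` (replace finsums by sums over
large enough finsets, `finsum_eq_sum_of_support_subset`).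
-/

namespace Vale.Agent.P066.S
noncomputable section
open Classical

abbrev K := LaurentSeries ℤ
def U (e : ℤ) : K := HahnSeries.single e 1

/-- Laurent series with nonnegative coefficients -/
def Kpos : Set K := {x | ∀ e, 0 ≤ x.coeff e}

class QL (N : Type) [AddCommGroup N] where
  om : N →+ N →+ ℤ
  om_self : ∀ a, om a a = 0
  zeta : Sg N
  zeta_inj : ∀ x, zeta.nul x → x = 0

variable {N : Type} [AddCommGroup N]

structure Cone (N : Type) [AddCommGroup N] where
  P : AddSubmonoid N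
  deg : N →+ ℤ
  pos : ∀ p ∈ P, p ≠ 0 → 0 < deg p
  fin : ∀ r : ℤ, {p | p ∈ P ∧ deg p ≤ r}.Finite

def Cone.sub (C : Cone N) (Q : AddSubmonoid N) : Cone N where
  P := C.P ⊓ Q
  deg := C.deg
  pos p hp := C.pos p hp.1
  fin r := (C.fin r).subset fun _ h => ⟨h.1.1, h.2⟩

def SuppIn (Q : AddSubmonoid N) (F : N → K) : Prop := ∀ n, F n ≠ 0 → n ∈ Q
def Adm (C : Cone N) (F : N → K) : Prop := ∃ T : Finset N, ∀ n, F n ≠ 0 → ∃ t ∈ T, n - t ∈ C.P
def dl (b : N) (c : K) : N → K := fun n => if n = b then c else 0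
/-- strictly lower elements of the cone -/
def Lo (C : Cone N) (n : N) : Set N := {p | p ∈ C.P ∧ n - p ∈ C.P ∧ p ≠ n}
def Down (C : Cone N) (Z : Set N) : Prop := ∀ z ∈ Z, ∀ p ∈ C.P, z - p ∈ C.P → p ∈ Z

theorem U_add (e e' : ℤ) : U (e + e') = U e * U e' := by
  unfold U; rw [HahnSeries.single_mul_single, mul_one]

theorem U_zero : U 0 = 1 := by
  unfold U; exact HahnSeries.single_zero_one

theorem U_ne_zero (e : ℤ) : U e ≠ 0 := by
  intro h
  have h1 : (U e).coeff e = 1 := HahnSeries.coeff_single_same e 1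
  rw [h] at h1
  simp at h1

theorem Kpos_zero : (0 : K) ∈ Kpos := by
  intro e; simp

theorem Kpos_one : (1 : K) ∈ Kpos := by
  intro e
  rw [HahnSeries.coeff_one]
  split_ifs <;> simp

theorem Kpos_U (e : ℤ) : U e ∈ Kpos := by
  intro e'
  unfold U
  rw [HahnSeries.coeff_single]
  split_ifs <;> simp

theorem Kpos_add {x y : K} (hx : x ∈ Kpos) (hy : y ∈ Kpos) : x + y ∈ Kpos := by
  intro e
  rw [HahnSeries.coeff_add]
  exact add_nonneg (hx e) (hy e)

theorem Kpos_mul {x y : K} (hx : x ∈ Kpos) (hy : y ∈ Kpos) : x * y ∈ Kpos := by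
  intro e
  rw [HahnSeries.coeff_mul]
  exact Finset.sum_nonneg fun ij _ => mul_nonneg (hx _) (hy _)

theorem Kpos_sum {ι : Type} {s : Finset ι} {f : ι → K} (h : ∀ i ∈ s, f i ∈ Kpos) :
    ∑ i ∈ s, f i ∈ Kpos := by
  exact Finset.sum_induction f (· ∈ Kpos) (fun _ _ => Kpos_add) Kpos_zero h


theorem Cone.deg_nonneg (C : Cone N) {p : N} (hp : p ∈ C.P) : 0 ≤ C.deg p := by
  by_cases h : p = 0
  · simp [h]
  · exact (C.pos p hp h).le

theorem Cone.eq_zero (C : Cone N) {p : N} (hp : p ∈ C.P) (hp' : -p ∈ C.P) : p = 0 := by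
  by_contra h
  have h1 := C.pos p hp h
  have h2 := C.deg_nonneg hp'
  rw [map_neg] at h2
  omega

theorem Cone.between_finite (C : Cone N) (a b : N) :
    {p | p - a ∈ C.P ∧ b - p ∈ C.P}.Finite := by
  refine ((C.fin (C.deg (b - a))).image (fun q => q + a)).subset ?_
  rintro p ⟨h1, h2⟩
  refine ⟨p - a, ⟨h1, ?_⟩, by simp⟩
  have h3 := C.deg_nonneg h2
  simp only [map_sub] at h3 ⊢
  omega

theorem Lo.deg_lt {C : Cone N} {n p : N} (h : p ∈ Lo C n) : C.deg p < C.deg n := by
  obtain ⟨_, h2, h3⟩ := h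
  have h4 := C.pos _ h2 (fun h => h3 (sub_eq_zero.1 h).symm)
  rw [map_sub] at h4
  omega

theorem down_Lo (C : Cone N) (n : N) : Down C (Lo C n) := by
  rintro z ⟨_, h2, h3⟩ p hp hzp
  refine ⟨hp, ?_, ?_⟩
  · have := C.P.add_mem h2 hzp
    rwa [sub_add_sub_cancel] at this
  · rintro rfl
    exact h3 (sub_eq_zero.1 (C.eq_zero hzp (by rwa [neg_sub])))

theorem down_le (C : Cone N) (r : ℤ) : Down C {p | C.deg p ≤ r} := by
  intro z hz p _ hzp
  have h1 := C.deg_nonneg hzp
  rw [map_sub] at h1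
  have h2 : C.deg z ≤ r := hz
  show C.deg p ≤ r
  omega

theorem down_univ (C : Cone N) : Down C Set.univ := by
  intro _ _ _ _ _; trivial

theorem Down.Lo_subset {C : Cone N} {Z : Set N} (h : Down C Z) {z : N} (hz : z ∈ Z) :
    Lo C z ⊆ Z := by
  intro p hp; exact h z hz p hp.1 hp.2.1

/-- same ray inside a cone -/
theorem Cone.ray (C : Cone N) {d n : N} (hd : d ∈ C.P) (hn : n ∈ C.P) (hn0 : n ≠ 0)
    (hd0 : d ≠ 0) (h : InQ d n) : ∃ j l : ℤ, 0 < j ∧ 0 < l ∧ j • n = l • d := by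
  obtain ⟨j, l, hj, hjl⟩ := h
  have h1 := C.pos d hd hd0
  have h2 := C.pos n hn hn0
  have h3 : j * C.deg n = l * C.deg d := by
    have := congrArg C.deg hjl
    simpa [map_zsmul] using this
  rcases lt_or_gt_of_ne hj with hj | hj
  · refine ⟨-j, -l, by omega, ?_, by rw [neg_smul, neg_smul, hjl]⟩
    have h4 : l * C.deg d < 0 := by rw [← h3]; exact mul_neg_of_neg_of_pos hj h2
    have h5 : l < 0 := by
      by_contra h6
      exact absurd (mul_nonneg (not_lt.1 h6) h1.le) (not_le.2 h4)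
    omega
  · refine ⟨j, l, hj, ?_, hjl⟩
    have h4 : 0 < l * C.deg d := by rw [← h3]; exact mul_pos hj h2
    by_contra h6
    exact absurd (mul_nonpos_of_nonpos_of_nonneg (not_lt.1 h6) h1.le) (not_le.2 h4)

theorem adm_of_supp {C : Cone N} {F : N → K} (h : SuppIn C.P F) : Adm C F := by
  exact ⟨{0}, fun n hn => ⟨0, by simp, by simpa using h n hn⟩⟩

theorem adm_zero (C : Cone N) : Adm C 0 := by
  exact ⟨∅, fun n hn => absurd rfl hn⟩

theorem adm_dl (C : Cone N) (b : N) (c : K) : Adm C (dl b c) := by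
  refine ⟨{b}, fun n hn => ⟨b, by simp, ?_⟩⟩
  have : n = b := by
    by_contra h
    exact hn (if_neg h)
  rw [this, sub_self]
  exact C.P.zero_mem

theorem Adm.add {C : Cone N} {F G : N → K} (hF : Adm C F) (hG : Adm C G) : Adm C (F + G) := by
  obtain ⟨T, hT⟩ := hF
  obtain ⟨T', hT'⟩ := hG
  refine ⟨T ∪ T', fun n hn => ?_⟩
  by_cases h : F n = 0
  · have h' : G n ≠ 0 := by
      intro h'
      exact hn (by simp [h, h'])
    obtain ⟨t, ht, h2⟩ := hT' n h'
    exact ⟨t, Finset.mem_union_right _ ht, h2⟩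
  · obtain ⟨t, ht, h2⟩ := hT n h
    exact ⟨t, Finset.mem_union_left _ ht, h2⟩

theorem Adm.neg {C : Cone N} {F : N → K} (hF : Adm C F) : Adm C (-F) := by
  obtain ⟨T, hT⟩ := hF
  exact ⟨T, fun n hn => hT n (by simpa using hn)⟩

theorem Adm.mono {C C' : Cone N} {F : N → K} (hF : Adm C F) (h : C.P ≤ C'.P) : Adm C' F := by
  obtain ⟨T, hT⟩ := hF
  refine ⟨T, fun n hn => ?_⟩
  obtain ⟨t, ht, h2⟩ := hT n hn
  exact ⟨t, ht, h h2⟩

theorem Adm.pair_finite {C : Cone N} {F G : N → K} (hF : Adm C F) (hG : Adm C G) (n : N) :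
    {a | F a ≠ 0 ∧ G (n - a) ≠ 0}.Finite := by
  obtain ⟨T, hT⟩ := hF
  obtain ⟨T', hT'⟩ := hG
  refine ((T ×ˢ T').finite_toSet.biUnion
    (fun t _ => C.between_finite t.1 (n - t.2))).subset ?_
  rintro a ⟨h1, h2⟩
  obtain ⟨t, ht, h3⟩ := hT a h1
  obtain ⟨t', ht', h4⟩ := hT' _ h2
  simp only [Set.mem_iUnion]
  refine ⟨(t, t'), by simp [ht, ht'], h3, ?_⟩
  rwa [sub_right_comm]

theorem Adm.exists_deg {C : Cone N} {F : N → K} (hF : Adm C F) :
    ∃ r : ℤ, ∀ n, F n ≠ 0 → r ≤ C.deg n := by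
  obtain ⟨T, hT⟩ := hF
  obtain ⟨r, hr⟩ := (T.finite_toSet.image C.deg).bddBelow
  refine ⟨r, fun n hn => ?_⟩
  obtain ⟨t, ht, h2⟩ := hT n hn
  have h3 := C.deg_nonneg h2
  have h4 : r ≤ C.deg t := hr ⟨t, ht, rfl⟩
  rw [map_sub] at h3
  omega


variable [QL N]

abbrev om (a b : N) : ℤ := QL.om a b
/-- the functional `om (·, n)` -/
def eta (n : N) : N →+ ℤ := (QL.om (N := N)).flip n
def conv (F G : N → K) : N → K := fun n => ∑ᶠ a, U (om a n) * F a * G (n - a)

theorem eta_apply (n x : N) : eta n x = om x n := rfl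
theorem om_self (a : N) : om a a = 0 := QL.om_self a
theorem om_skew (a b : N) : om a b = - om b a := by
  have h := om_self (a + b)
  have h1 := om_self a
  have h2 := om_self b
  simp only [om, map_add, AddMonoidHom.add_apply] at h h1 h2 ⊢
  omega

theorem zsmul_eq_zero' {j : ℤ} {x : N} (hj : j ≠ 0) (h : j • x = 0) : x = 0 := by
  apply QL.zeta_inj
  rw [← Sg.nul_zsmul_iff hj, h]
  exact Sg.nul_zero _

theorem InQ_zero_iff {x : N} : InQ 0 x ↔ x = 0 := by
  constructor
  · rintro ⟨j, l, hj, h⟩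
    exact zsmul_eq_zero' hj (by simpa using h)
  · rintro rfl
    exact InQ.refl _

theorem InQ.symm {d x : N} (h : InQ d x) (hx : x ≠ 0) : InQ x d := by
  obtain ⟨j, l, hj, h⟩ := h
  refine ⟨l, j, ?_, h.symm⟩
  rintro rfl
  exact hx (zsmul_eq_zero' hj (by simpa using h))

theorem InQ.om_eq_zero {d x y : N} (hx : InQ d x) (hy : InQ d y) : om x y = 0 := by
  have h1 : om d y = 0 := hy.hom (QL.om d) (om_self d)
  exact hx.hom (eta y) h1

theorem Gen.of_nul {σ : Sg N} {d n : N} (h : Gen σ d) (hn : σ.nul n) (hn0 : n ≠ 0) :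
    Gen σ n := by
  have h1 : InQ d n := (h n).1 hn
  have h2 : InQ n d := h1.symm hn0
  intro x
  rw [h x]
  exact ⟨fun h3 => h2.trans h3, fun h3 => h1.trans h3⟩

theorem gen_zeta : Gen (QL.zeta : Sg N) 0 := by
  intro x
  rw [InQ_zero_iff]
  exact ⟨QL.zeta_inj x, fun h => h ▸ Sg.nul_zero _⟩

theorem gen_lex_zero {σ τ : Sg N} (h : Gen τ 0) : Gen (σ.lex τ) 0 := by
  intro x
  rw [Sg.lex_nul, h x, InQ_zero_iff]
  exact ⟨fun h => h.2, fun h => ⟨h ▸ Sg.nul_zero _, h⟩⟩

theorem exists_gen_neg {k : N} (hk : k ≠ 0) : ∃ σ : Sg N, Gen σ 0 ∧ σ.neg k := by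
  rcases (QL.zeta : Sg N).tri k with h | h | h
  · exact ⟨_, gen_zeta, h⟩
  · exact absurd (QL.zeta_inj k h) hk
  · refine ⟨(QL.zeta : Sg N).flip, fun x => ?_, Sg.flip_neg.2 h⟩
    rw [Sg.flip_nul]
    exact gen_zeta x

/-- use `zeta.comap (x ↦ δ n • x - δ x • n)` -/
theorem exists_gen (δ : N →+ ℤ) {n : N} (hn : δ n ≠ 0) : ∃ σ : Sg N, Gen σ n := by
  let T : N →+ N :=
    { toFun := fun x => δ n • x - δ x • n
      map_zero' := by simp
      map_add' := fun x y => by rw [map_add, smul_add, add_smul]; abel }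
  refine ⟨(QL.zeta : Sg N).comap T, fun x => ?_⟩
  rw [Sg.comap_nul, gen_zeta, InQ_zero_iff]
  show δ n • x - δ x • n = 0 ↔ _
  constructor
  · intro h
    exact ⟨δ n, δ x, hn, sub_eq_zero.1 h⟩
  · rintro ⟨j, l, hj, h⟩
    have h1 : j * δ x = l * δ n := by
      have := congrArg δ h
      simpa [map_zsmul] using this
    apply zsmul_eq_zero' hj
    rw [smul_sub, smul_comm j (δ n) x, h, smul_smul, smul_smul, h1, mul_comm, sub_self]

/-- in a plane on which `om` is nondegenerate, `om (·, p)` cuts out the line of `p` -/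
theorem Gen2.lex_eta {σ : Sg N} {d m p : N} (h : Gen2 σ d m) (hm : om m d ≠ 0) (hp : σ.nul p)
    (hp0 : p ≠ 0) : Gen (σ.lex (Sg.ofHom (eta p))) p := by
  obtain ⟨i, k, k', hi, hpk⟩ := (h p).1 hp
  intro x
  rw [Sg.lex_nul, Sg.ofHom_nul, eta_apply]
  constructor
  · rintro ⟨hx, hxp⟩
    obtain ⟨j, l, l', hj, hxl⟩ := (h x).1 hx
    have h1 : om (j • x) (i • p) = 0 := by
      simp only [om, map_zsmul, AddMonoidHom.smul_apply] at hxp ⊢
      rw [hxp]; simp
    rw [hxl, hpk] at h1
    have h2 := om_self d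
    have h3 := om_self m
    have h4 := om_skew d m
    simp only [om, map_add, map_zsmul, AddMonoidHom.add_apply, AddMonoidHom.smul_apply,
      smul_eq_mul] at h1 h2 h3 h4 hm
    rw [h2, h3, h4] at h1
    have h5 : (l' * k - l * k') * QL.om m d = 0 := by linarith
    have h6 : l' * k = l * k' := sub_eq_zero.1 ((mul_eq_zero.1 h5).resolve_right hm)
    by_cases hk : k = 0
    · have hk' : k' ≠ 0 := by
        rintro rfl
        exact hp0 (zsmul_eq_zero' hi (by simpa [hk] using hpk))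
      refine ⟨k' * j, l' * i, mul_ne_zero hk' hj, ?_⟩
      rw [mul_smul, mul_smul, hxl, hpk, smul_add, smul_add, smul_smul, smul_smul, smul_smul,
        smul_smul, h6, mul_comm k' l, mul_comm k' l']
    · refine ⟨k * j, l * i, mul_ne_zero hk hj, ?_⟩
      rw [mul_smul, mul_smul, hxl, hpk, smul_add, smul_add, smul_smul, smul_smul, smul_smul,
        smul_smul, ← h6, mul_comm k l, mul_comm k l']
  · intro hx
    refine ⟨?_, hx.hom (eta p) (om_self p)⟩
    obtain ⟨j, l, hj, hjl⟩ := hx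
    rw [← Sg.nul_zsmul_iff hj, hjl]
    exact Sg.nul_zsmul l hp

/-- Pluecker identity in a plane -/
theorem Gen2.plucker {σ : Sg N} {d m x y z : N} (h : Gen2 σ d m) (δ : N →+ ℤ) (hx : σ.nul x)
    (hy : σ.nul y) (hz : σ.nul z) : om x y * δ z = om x z * δ y - om y z * δ x := by
  obtain ⟨i, a, a', hi, h1⟩ := (h x).1 hx
  obtain ⟨j, b, b', hj, h2⟩ := (h y).1 hy
  obtain ⟨k, c, c', hk, h3⟩ := (h z).1 hz
  have key : om (i • x) (j • y) * δ (k • z) =
      om (i • x) (k • z) * δ (j • y) - om (j • y) (k • z) * δ (i • x) := by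
    rw [h1, h2, h3]
    have h2 := om_self d
    have h3 := om_self m
    have h4 := om_skew d m
    simp only [om, map_add, map_zsmul, AddMonoidHom.add_apply, AddMonoidHom.smul_apply,
      smul_eq_mul] at h2 h3 h4 ⊢
    rw [h2, h3, h4]
    ring
  simp only [om, map_zsmul, AddMonoidHom.smul_apply, smul_eq_mul] at key ⊢
  have h0 : i * j * k ≠ 0 := mul_ne_zero (mul_ne_zero hi hj) hk
  apply mul_left_cancel₀ h0
  linarith


theorem conv_ne_zero {F G : N → K} {n : N} (h : conv F G n ≠ 0) :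
    ∃ a, F a ≠ 0 ∧ G (n - a) ≠ 0 := by
  by_contra h1
  apply h
  unfold conv
  rw [← finsum_zero (α := N)]
  refine finsum_congr fun a => ?_
  by_cases h2 : F a = 0
  · simp [h2]
  · have h3 : G (n - a) = 0 := by
      by_contra h3
      exact h1 ⟨a, h2, h3⟩
    simp [h3]

theorem SuppIn.conv {Q : AddSubmonoid N} {F G : N → K} (hF : SuppIn Q F) (hG : SuppIn Q G) :
    SuppIn Q (conv F G) := by
  intro n hn
  obtain ⟨a, h1, h2⟩ := conv_ne_zero hn
  have := Q.add_mem (hF a h1) (hG _ h2)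
  rwa [add_sub_cancel] at this

theorem Adm.conv {C : Cone N} {F G : N → K} (hF : Adm C F) (hG : Adm C G) :
    Adm C (conv F G) := by
  obtain ⟨T, hT⟩ := hF
  obtain ⟨T', hT'⟩ := hG
  refine ⟨(T ×ˢ T').image (fun t => t.1 + t.2), fun n hn => ?_⟩
  obtain ⟨a, h1, h2⟩ := conv_ne_zero hn
  obtain ⟨t, ht, h3⟩ := hT a h1
  obtain ⟨t', ht', h4⟩ := hT' _ h2
  refine ⟨t + t', Finset.mem_image.2 ⟨(t, t'), by simp [ht, ht'], rfl⟩, ?_⟩
  have := C.P.add_mem h3 h4
  rwa [show a - t + (n - a - t') = n - (t + t') by abel] at this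

theorem conv_eq_sum {F G : N → K} {n : N} (s : Finset N)
    (h : ∀ a, F a ≠ 0 → G (n - a) ≠ 0 → a ∈ s) :
    conv F G n = ∑ a ∈ s, U (om a n) * F a * G (n - a) := by
  unfold conv
  apply finsum_eq_sum_of_support_subset
  intro a ha
  have h1 : U (om a n) * F a * G (n - a) ≠ 0 := ha
  exact h a (right_ne_zero_of_mul (left_ne_zero_of_mul h1)) (right_ne_zero_of_mul h1)

theorem conv_congr {F G F' G' : N → K} {n : N}
    (h : ∀ a, F a * G (n - a) = F' a * G' (n - a)) : conv F G n = conv F' G' n := by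
  unfold conv
  refine finsum_congr fun a => ?_
  rw [mul_assoc, mul_assoc, h a]

theorem conv_dl_left (b : N) (c : K) (G : N → K) (n : N) :
    conv (dl b c) G n = U (om b n) * c * G (n - b) := by
  unfold conv
  rw [finsum_eq_single _ b]
  · simp [dl]
  · intro x hx
    simp [dl, hx]

theorem conv_dl_right (F : N → K) (b : N) (c : K) (n : N) :
    conv F (dl b c) n = U (om n b) * F (n - b) * c := by
  unfold conv
  rw [finsum_eq_single _ (n - b)]
  · have h1 : om (n - b) n = om n b := by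
      have h2 := om_self n
      have h3 := om_skew b n
      simp only [om, map_sub, AddMonoidHom.sub_apply] at h2 h3 ⊢
      omega
    rw [h1]
    simp [dl]
  · intro x hx
    have : n - x ≠ b := fun h => hx (by rw [← h]; abel)
    simp [dl, this]

theorem conv_zero_left (G : N → K) : conv 0 G = 0 := by
  funext n; simp [conv]

theorem conv_zero_right (F : N → K) : conv F 0 = 0 := by
  funext n; simp [conv]

theorem conv_supp_fin {C : Cone N} {F G : N → K} (hF : Adm C F) (hG : Adm C G) (n : N) :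
    (Function.support fun a => U (om a n) * F a * G (n - a)).Finite := by
  refine (hF.pair_finite hG n).subset ?_
  intro a ha
  have h1 : U (om a n) * F a * G (n - a) ≠ 0 := ha
  exact ⟨right_ne_zero_of_mul (left_ne_zero_of_mul h1), right_ne_zero_of_mul h1⟩

omit [QL N] in
theorem conv_triple_fin {C : Cone N} {F G H : N → K} (hF : Adm C F) (hG : Adm C G) (hH : Adm C H)
    (n : N) : {x : N × N | F x.1 ≠ 0 ∧ G x.2 ≠ 0 ∧ H (n - x.1 - x.2) ≠ 0}.Finite := by
  obtain ⟨T, hT⟩ := hF
  obtain ⟨T', hT'⟩ := hG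
  obtain ⟨T'', hT''⟩ := hH
  refine ((T ×ˢ T' ×ˢ T'').finite_toSet.biUnion
    (fun t _ => (C.between_finite t.1 (n - t.2.1 - t.2.2)).prod
      (C.between_finite t.2.1 (n - t.1 - t.2.2)))).subset ?_
  rintro x ⟨h1, h2, h3⟩
  obtain ⟨t, ht, h4⟩ := hT _ h1
  obtain ⟨t', ht', h5⟩ := hT' _ h2
  obtain ⟨t'', ht'', h6⟩ := hT'' _ h3
  simp only [Set.mem_iUnion]
  refine ⟨(t, t', t''), by simp [ht, ht', ht''], ⟨h4, ?_⟩, ⟨h5, ?_⟩⟩
  · have := C.P.add_mem h5 h6
    rwa [show x.2 - t' + (n - x.1 - x.2 - t'') = n - t' - t'' - x.1 by abel] at this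
  · have := C.P.add_mem h4 h6
    rwa [show x.1 - t + (n - x.1 - x.2 - t'') = n - t - t'' - x.2 by abel] at this

theorem conv_add_left {C : Cone N} {F F' G : N → K} (hF : Adm C F) (hF' : Adm C F')
    (hG : Adm C G) : conv (F + F') G = conv F G + conv F' G := by
  funext n
  simp only [conv, Pi.add_apply]
  rw [← finsum_add_distrib (conv_supp_fin hF hG n) (conv_supp_fin hF' hG n)]
  refine finsum_congr fun a => ?_
  ring

theorem conv_add_right {C : Cone N} {F G G' : N → K} (hF : Adm C F) (hG : Adm C G)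
    (hG' : Adm C G') : conv F (G + G') = conv F G + conv F G' := by
  funext n
  simp only [conv, Pi.add_apply]
  rw [← finsum_add_distrib (conv_supp_fin hF hG n) (conv_supp_fin hF hG' n)]
  refine finsum_congr fun a => ?_
  ring

theorem conv_assoc {C : Cone N} {F G H : N → K} (hF : Adm C F) (hG : Adm C G) (hH : Adm C H) :
    conv (conv F G) H = conv F (conv G H) := by
  funext n
  let f : N × N → K := fun x =>
    U (om x.1 n) * F x.1 * (U (om x.2 (n - x.1)) * G x.2 * H (n - x.1 - x.2))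
  have hf : (Function.support f).Finite := by
    refine (conv_triple_fin hF hG hH n).subset ?_
    intro x hx
    have h1 : U (om x.1 n) * F x.1 * (U (om x.2 (n - x.1)) * G x.2 * H (n - x.1 - x.2)) ≠ 0 := hx
    have h2 := right_ne_zero_of_mul h1
    exact ⟨right_ne_zero_of_mul (left_ne_zero_of_mul h1),
      right_ne_zero_of_mul (left_ne_zero_of_mul h2), right_ne_zero_of_mul h2⟩
  let e : N × N ≃ N × N :=
    { toFun := fun x => (x.2, x.1 - x.2)
      invFun := fun x => (x.1 + x.2, x.1)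
      left_inv := fun x => by simp
      right_inv := fun x => by simp }
  have hfe : (Function.support (fun x => f (e x))).Finite := by
    have : Function.support (fun x => f (e x)) = e ⁻¹' Function.support f := rfl
    rw [this]
    exact hf.preimage e.injective.injOn
  have h1 : conv F (conv G H) n = ∑ᶠ x, f x := by
    rw [finsum_curry f hf]
    unfold conv
    refine finsum_congr fun a => ?_
    rw [mul_finsum]
  have h2 : conv (conv F G) H n = ∑ᶠ x, f (e x) := by
    rw [finsum_curry (fun x => f (e x)) hfe]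
    unfold conv
    refine finsum_congr fun c => ?_
    rw [mul_finsum, finsum_mul]
    refine finsum_congr fun a => ?_
    show _ = U (om a n) * F a * (U (om (c - a) (n - a)) * G (c - a) * H (n - a - (c - a)))
    have h3 : U (om c n) * U (om a c) = U (om a n) * U (om (c - a) (n - a)) := by
      rw [← U_add, ← U_add]
      have h4 := om_self a
      have h5 := om_skew a c
      have h6 : om c n + om a c = om a n + om (c - a) (n - a) := by
        simp only [om, map_sub, AddMonoidHom.sub_apply] at h4 h5 ⊢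
        omega
      rw [h6]
    rw [show n - a - (c - a) = n - c by abel]
    linear_combination (F a * G (c - a) * H (n - c)) * h3
  rw [h1, h2]
  exact finsum_comp_equiv e

theorem conv_at_zero {C : Cone N} {F G : N → K} (hF : SuppIn C.P F) (hG : SuppIn C.P G) :
    conv F G 0 = F 0 * G 0 := by
  unfold conv
  rw [finsum_eq_single _ 0]
  · simp [om, U_zero]
  · intro x hx
    by_contra h1
    have h2 := hF x (right_ne_zero_of_mul (left_ne_zero_of_mul h1))
    have h3 := hG _ (right_ne_zero_of_mul h1)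
    rw [zero_sub] at h3
    exact hx (C.eq_zero h2 h3)

/-- trace property -/
theorem conv_comm_perp {F G : N → K} {n : N} (h : ∀ p, F p ≠ 0 → om p n = 0) :
    conv F G n = conv G F n := by
  unfold conv
  rw [← finsum_comp_equiv (Equiv.subLeft n)]
  refine finsum_congr fun b => ?_
  simp only [Equiv.subLeft_apply, sub_sub_cancel]
  by_cases h1 : F (n - b) = 0
  · simp [h1]
  · have h2 := h _ h1
    have h3 : om b n = 0 := by
      have h4 := om_self n
      simp only [om, map_sub, AddMonoidHom.sub_apply] at h2 h4 ⊢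
      omega
    rw [h2, h3]
    ring


end
end Vale.Agent.P066.S
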