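import Vale.Agent.P066.S.GF

/-!
P066 part S, file EId (definitions final; lemmas = TASK S8).  The quantum dilogarithm.
* `eps_rec`: split subsets of `ℕ` of size `j+1` according to whether they contain `0`, and shift.
* `M_pt`: monomials in the odd tower over one point are finite subsets of `ℕ`.
* `E_rec`: `E = tw b E * (1 + U 1 X^k)` whenever `om k b = 1`; more generally for the functions
  `E_c (j k) = U (2 j c) eps j` one has `E_c = E_(c+1) * (1 + U (2c+1) X^k)` by `eps_rec`, and all these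
  commute.  Hence for `w = om k b ≥ 0`, `toL (ker E b) = ∏ j < w, (1 + U (2j+1) X^k)`, and for
  `w = - om k b ≥ 0`, `toL (ker E⁻¹ b) = ∏ j < w, (1 + U (-2j-1) X^k)`.
* `E_E`: both sides are finitely supported; compute in one ring, e.g. prove by induction on `w` the
  identity of functions `X^b ∏ j<w (1 + U (2j+1) X^k) = X^(b + w k) ∏ j<w (1 + U (-2j-1) X^(-k))`
  (`conv` does not depend on the cone, all monomials lie in every `L C`), using
  `1 + U (2j+1) Z = U (2j+1) Z (1 + U (-2j-1) Z⁻¹)` and `∑ (2j+1) = w^2`.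
-/

namespace Vale.Agent.P066.S
noncomputable section
open Classical WT

def eps (j : ℕ) : K :=
  (WT.mk (Finset ℕ) Finset.card fun s => ∑ i ∈ s, (2 * (i : ℤ) + 1)).gf j

variable {N : Type} [AddCommGroup N]

def Efn (k : N) (n : N) : K := if h : ∃ j : ℕ, n = j • k then eps (Classical.choose h) else 0

/-- finite subsets of `ℕ`, weighted -/
def ES : WT ℕ := WT.mk (Finset ℕ) Finset.card fun s => ∑ i ∈ s, (2 * (i : ℤ) + 1)

theorem ES_fin : ES.Fin := by
  intro n e
  refine (Finset.range e.toNat).powerset.finite_toSet.subset fun s hs => ?_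
  have h2 : ∑ i ∈ (s : Finset ℕ), (2 * (i : ℤ) + 1) ≤ e := hs.2
  refine Finset.mem_coe.2 (Finset.mem_powerset.2 fun i hi => Finset.mem_range.2 ?_)
  have := Finset.single_le_sum (f := fun i : ℕ => 2 * (i : ℤ) + 1) (fun i _ => by positivity) hi
  omega

/-- the fibres -/
def ESet (j : ℕ) (e : ℤ) : Set (Finset ℕ) := {s | s.card = j ∧ ∑ i ∈ s, (2 * (i : ℤ) + 1) = e}

theorem ESet_fin (j : ℕ) (e : ℤ) : (ESet j e).Finite :=
  (ES_fin j e).subset fun _ hs => ⟨hs.1, hs.2.le⟩

theorem eps_coeff (j : ℕ) (e : ℤ) : (eps j).coeff e = (ESet j e).ncard := by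
  rw [← Nat.card_coe_set_eq]
  exact gf_coeff ES_fin j e

theorem U_mul_coeff_eid (a e : ℤ) (x : K) : (U a * x).coeff e = x.coeff (e - a) := by
  have := HahnSeries.coeff_single_mul_add (r := (1 : ℤ)) (x := x) (a := e - a) (b := a)
  rwa [sub_add_cancel, one_mul] at this

theorem eps_zero : eps 0 = 1 := by
  ext e
  rw [eps_coeff, HahnSeries.coeff_one]
  split_ifs with h
  · have : ESet 0 e = {∅} := by
      ext s
      simp only [ESet, Set.mem_ofPred_eq, Finset.card_eq_zero, Set.mem_singleton_iff, h]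
      exact ⟨fun h => h.1, fun h => by simp [h]⟩
    simp [this]
  · have : ESet 0 e = ∅ := by
      ext s
      simp only [ESet, Set.mem_ofPred_eq, Finset.card_eq_zero, Set.mem_empty_iff_false, iff_false]
      rintro ⟨rfl, h'⟩
      exact h (by simpa using h'.symm)
    simp [this]

/-- shift -/
def shf (s : Finset ℕ) : Finset ℕ := s.map ⟨Nat.succ, Nat.succ_injective⟩

theorem shf_inj : Function.Injective shf := Finset.map_injective _
theorem zero_notMem_shf (s : Finset ℕ) : 0 ∉ shf s := by simp [shf]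
theorem shf_card (s : Finset ℕ) : (shf s).card = s.card := Finset.card_map _
theorem shf_sum (s : Finset ℕ) :
    ∑ i ∈ shf s, (2 * (i : ℤ) + 1) = ∑ i ∈ s, (2 * (i : ℤ) + 1) + 2 * s.card := by
  rw [shf, Finset.sum_map, Finset.card_eq_sum_ones]
  push_cast
  rw [Finset.mul_sum, ← Finset.sum_add_distrib]
  refine Finset.sum_congr rfl fun i _ => ?_
  simp only [Function.Embedding.coeFn_mk]
  push_cast
  ring
theorem exists_shf {s : Finset ℕ} (h : 0 ∉ s) : ∃ t, s = shf t := by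
  refine ⟨s.preimage Nat.succ Nat.succ_injective.injOn, ?_⟩
  ext i
  simp only [shf, Finset.mem_map, Finset.mem_preimage, Function.Embedding.coeFn_mk]
  constructor
  · intro hi
    obtain ⟨j, rfl⟩ := Nat.exists_eq_succ_of_ne_zero (n := i) (by rintro rfl; exact h hi)
    exact ⟨j, hi, rfl⟩
  · rintro ⟨j, hj, rfl⟩
    exact hj

theorem eps_rec (j : ℕ) :
    eps (j + 1) = U (2 * (j + 1)) * eps (j + 1) + U (2 * j + 1) * eps j := by
  ext e
  have hi : Function.Injective fun t => insert 0 (shf t) := fun t t' h => by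
    apply shf_inj
    have h' := congrArg (fun s : Finset ℕ => s.erase 0) h
    simpa only [Finset.erase_insert (zero_notMem_shf _)] using h'
  have hu : ESet (j + 1) e = shf '' ESet (j + 1) (e - 2 * (j + 1)) ∪
      (fun t => insert 0 (shf t)) '' ESet j (e - (2 * j + 1)) := by
    ext s
    constructor
    · rintro ⟨h1, h2⟩
      by_cases h0 : 0 ∈ s
      · obtain ⟨t, ht⟩ := exists_shf (Finset.notMem_erase 0 s)
        have hs : s = insert 0 (shf t) := by rw [← ht, Finset.insert_erase h0]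
        rw [hs, Finset.card_insert_of_notMem (zero_notMem_shf t), shf_card] at h1
        rw [hs, Finset.sum_insert (zero_notMem_shf t), shf_sum] at h2
        refine Or.inr ⟨t, ⟨by omega, ?_⟩, hs.symm⟩
        push_cast at h2
        omega
      · obtain ⟨t, rfl⟩ := exists_shf h0
        rw [shf_card] at h1
        rw [shf_sum] at h2
        exact Or.inl ⟨t, ⟨h1, by omega⟩, rfl⟩
    · rintro (⟨t, ⟨h1, h2⟩, rfl⟩ | ⟨t, ⟨h1, h2⟩, rfl⟩)
      · exact ⟨by rw [shf_card, h1], by rw [shf_sum]; omega⟩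
      · refine ⟨by rw [Finset.card_insert_of_notMem (zero_notMem_shf t), shf_card, h1], ?_⟩
        rw [Finset.sum_insert (zero_notMem_shf t), shf_sum]
        push_cast
        omega
  rw [HahnSeries.coeff_add, U_mul_coeff_eid, U_mul_coeff_eid, eps_coeff, eps_coeff, eps_coeff, hu,
    Set.ncard_union_eq _ ((ESet_fin _ _).image _) ((ESet_fin _ _).image _),
    Set.ncard_image_of_injective _ shf_inj, Set.ncard_image_of_injective _ hi, Nat.cast_add]
  rw [Set.disjoint_left]
  rintro _ ⟨t, -, rfl⟩ ⟨t', -, h⟩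
  exact zero_notMem_shf t (h ▸ Finset.mem_insert_self 0 _)

theorem Efn_of_not {k n : N} (h : ∀ j : ℕ, n ≠ j • k) : Efn k n = 0 :=
  dif_neg fun ⟨j, hj⟩ => h j hj
theorem Efn_ne_zero {k n : N} (h : Efn k n ≠ 0) : ∃ j : ℕ, n = j • k := by
  by_contra hc
  exact h (dif_neg hc)

variable [QL N] {C C' : Cone N} {k b : N}

theorem nsmul_inj_eid (hk : k ≠ 0) {j j' : ℕ} (h : j • k = j' • k) : j = j' := by
  by_contra hc
  refine hk (zsmul_eq_zero' (j := (j : ℤ) - j') (by omega) ?_)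
  rw [sub_smul, natCast_zsmul, natCast_zsmul, h, sub_self]

theorem Efn_nsmul (hk : k ≠ 0) (j : ℕ) : Efn k (j • k) = eps j := by
  have h : ∃ j' : ℕ, j • k = j' • k := ⟨j, rfl⟩
  rw [Efn, dif_pos h, ← nsmul_inj_eid hk (Classical.choose_spec h)]

theorem Mpt_val (m : {m : Unit × ℕ →₀ ℕ // ∀ x : Unit × ℕ, Odd (1 + 2 * (x.2 : ℤ)) → m x ≤ 1})
    {x : Unit × ℕ} (hx : x ∈ m.1.support) : m.1 x = 1 :=
  le_antisymm (m.2 x ⟨x.2, add_comm _ _⟩)
    (Nat.one_le_iff_ne_zero.2 (Finsupp.mem_support_iff.1 hx))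

/-- square free monomials are finite subsets -/
def Mpt_eq0 : {m : Unit × ℕ →₀ ℕ // ∀ x : Unit × ℕ, Odd (1 + 2 * (x.2 : ℤ)) → m x ≤ 1} ≃ Finset ℕ where
  toFun m := m.1.support.map ⟨Prod.snd, fun _ _ h => Prod.ext rfl h⟩
  invFun s := ⟨Finsupp.onFinset (s.map ⟨fun i => ((), i), fun _ _ h => congrArg Prod.snd h⟩)
    (fun x : Unit × ℕ => if x.2 ∈ s then 1 else 0) fun x hx => by
      refine Finset.mem_map.2 ⟨x.2, ?_, rfl⟩
      by_contra h
      exact hx (if_neg h), fun x _ => by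
      simp only [Finsupp.onFinset_apply]
      split_ifs <;> simp⟩
  left_inv m := by
    refine Subtype.ext (Finsupp.ext fun x => ?_)
    simp only [Finsupp.onFinset_apply]
    split_ifs with h
    · obtain ⟨y, hy, hyx⟩ := Finset.mem_map.1 h
      have : y = x := Prod.ext rfl hyx
      exact (Mpt_val m (this ▸ hy)).symm
    · by_contra h0
      exact h (Finset.mem_map.2 ⟨x, Finsupp.mem_support_iff.2 (Ne.symm h0), rfl⟩)
  right_inv s := by
    ext i
    simp only [Finset.mem_map, Finsupp.mem_support_iff, Finsupp.onFinset_apply,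
      Function.Embedding.coeFn_mk]
    constructor
    · rintro ⟨x, hx, rfl⟩
      by_contra h
      exact hx (if_neg h)
    · exact fun h => ⟨((), i), by simp [h], rfl⟩

/-- monomials over a point are finite subsets -/
def Mpt_eq (k : N) : (pt k).M.T ≃ Finset ℕ := Mpt_eq0

theorem Mpt_cls (m : (pt k).M.T) : (pt k).M.cls m = (Mpt_eq k m).card • k := by
  have : (Mpt_eq k m).card = m.1.support.card := Finset.card_map _
  rw [this, ← Finset.sum_const]
  exact Finset.sum_congr rfl fun x hx =>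
    (congrArg (· • k) (Mpt_val m hx)).trans (one_smul _ _)

theorem Mpt_ex (m : (pt k).M.T) : ES.ex (Mpt_eq k m) = (pt k).M.ex m := by
  have h1 : ES.ex (Mpt_eq k m) = ∑ x ∈ m.1.support, (2 * (x.2 : ℤ) + 1) := Finset.sum_map _ _ _
  have h2 : (pt k).M.ex m = ∑ x ∈ m.1.support, (m.1 x : ℤ) * (1 + 2 * (x.2 : ℤ)) -
    ∑ x ∈ m.1.support, ∑ y ∈ m.1.support, (m.1 x : ℤ) * m.1 y * max (om k k) 0 := rfl
  rw [h1, h2, om_self]
  simp only [max_self, mul_zero, Finset.sum_const_zero, sub_zero]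
  exact Finset.sum_congr rfl fun x hx => by
    rw [show m.1 x = 1 from Mpt_val m hx]; ring

theorem M_pt (hk : k ∈ C.P) (hk0 : k ≠ 0) : (pt k).M.gf = Efn k := by
  funext n
  by_cases h : ∃ j : ℕ, n = j • k
  · obtain ⟨j, rfl⟩ := h
    rw [Efn_nsmul hk0]
    refine (gf_congr_fibre (W := (pt k).M) (W' := ES) (mon_In (tow_Fam (pt_Fam hk hk0))).1 ES_fin
      ((Mpt_eq k).subtypeEquiv fun m => ?_) fun m => Mpt_ex m.1).symm
    rw [Mpt_cls]
    exact ⟨nsmul_inj_eid hk0, fun h => congrArg (· • k) h⟩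
  · rw [Efn, dif_neg h]
    by_contra h0
    obtain ⟨m, hm⟩ := gf_ne_zero h0
    exact h ⟨_, hm.symm.trans (Mpt_cls m)⟩

theorem exists_E (hk : k ∈ C.P) (hk0 : k ≠ 0) : ∃ E : Grp C, E.fn = Efn k :=
  M_pt hk hk0 ▸ exists_grp_M (pt_Fam hk hk0)

/-- the multiplicity of `k` in `n` -/
def idx (k n : N) : ℕ := if h : ∃ j : ℕ, n = j • k then Classical.choose h else 0

theorem idx_nsmul (hk : k ≠ 0) (j : ℕ) : idx k (j • k) = j := by
  have h : ∃ j' : ℕ, j • k = j' • k := ⟨j, rfl⟩
  rw [idx, dif_pos h, ← nsmul_inj_eid hk (Classical.choose_spec h)]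

/-- the twisted dilogarithms -/
def Ec (hk : k ≠ 0) (E : Grp C) (c : ℤ) : Grp C where
  fn n := U (2 * idx k n * c) * E.fn n
  supp p h := E.supp p fun h0 => h (by simp [h0])
  at0 := by
    have := idx_nsmul hk 0
    rw [zero_smul] at this
    simp [this, U_zero, E.at0]

theorem om_nsmul_eid (j : ℕ) (k b : N) : om (j • k) b = j * om k b := by simp [om]
theorem om_nsmul_eid2 (j : ℕ) (k b : N) : om b (j • k) = j * om b k := by simp [om]

theorem Ec_zero (hk : k ≠ 0) (E : Grp C) : Ec hk E 0 = E :=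
  Grp.ext (funext fun n => by simp [Ec, U_zero])

theorem tw_eq_Ec (hk : k ≠ 0) {E : Grp C} (hE : E.fn = Efn k) (b : N) :
    tw b E = Ec hk E (om k b) := by
  refine Grp.ext (funext fun n => ?_)
  simp only [tw_fn, Ec, hE]
  by_cases h : Efn k n = 0
  · rw [h, mul_zero, mul_zero]
  · obtain ⟨j, rfl⟩ := Efn_ne_zero h
    rw [idx_nsmul hk, om_nsmul_eid, mul_assoc]

/-- the binomial factors -/
def Zf (C : Cone N) (k : N) (c : ℤ) : L C := 1 + mono C k (U (2 * c + 1))

theorem Ec_rec (hk : k ≠ 0) {E : Grp C} (hE : E.fn = Efn k) (c : ℤ) :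
    toL C (Ec hk E c) = toL C (Ec hk E (c + 1)) * Zf C k c ∧
    toL C (Ec hk E c) = Zf C k c * toL C (Ec hk E (c + 1)) := by
  have key : ∀ n, ∀ a : ℤ, (Efn k (n - k) ≠ 0 → a = 0) → (Ec hk E c).fn n =
      (Ec hk E (c + 1)).fn n + U a * (Ec hk E (c + 1)).fn (n - k) * U (2 * c + 1) := by
    intro n a ha
    simp only [Ec, hE]
    by_cases h : Efn k (n - k) = 0
    · rw [h]
      by_cases h' : Efn k n = 0
      · simp [h']
      · obtain ⟨j, rfl⟩ := Efn_ne_zero h'
        rcases j with _ | j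
        · simp [idx_nsmul hk 0, -zero_nsmul, -zero_smul]
        · rw [succ_nsmul, add_sub_cancel_right, Efn_nsmul hk] at h
          have h2 := eps_rec j
          rw [h] at h2
          rw [idx_nsmul hk, Efn_nsmul hk]
          conv_lhs => rw [h2]
          simp only [mul_zero, zero_mul, add_zero, ← mul_assoc, ← U_add]
          push_cast
          ring_nf
    · obtain ⟨j, hj⟩ := Efn_ne_zero h
      have hn : n = (j + 1) • k := by rw [succ_nsmul, ← hj, sub_add_cancel]
      rw [ha h, hj, hn, idx_nsmul hk, idx_nsmul hk, Efn_nsmul hk, Efn_nsmul hk, U_zero, one_mul,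
        mul_right_comm _ (eps j), ← U_add]
      conv_lhs => rw [eps_rec j]
      simp only [mul_add, ← mul_assoc, ← U_add]
      push_cast
      ring_nf
  have hz : ∀ n, Efn k (n - k) ≠ 0 → om n k = 0 := fun n h => by
    obtain ⟨j, hj⟩ := Efn_ne_zero h
    have hn : n = (j + 1) • k := by rw [succ_nsmul, ← hj, sub_add_cancel]
    rw [hn, om_nsmul_eid, om_self, mul_zero]
  constructor
  · refine L.ext (funext fun n => ?_)
    rw [Zf, mul_add, mul_one, L.add_fn, L.mul_fn, Pi.add_apply, mono_fn, conv_dl_right]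
    exact key n _ (hz n)
  · refine L.ext (funext fun n => ?_)
    rw [Zf, add_mul, one_mul, L.add_fn, L.mul_fn, Pi.add_apply, mono_fn, conv_dl_left,
      mul_right_comm]
    exact key n _ fun h => by rw [om_skew, hz n h, neg_zero]

/-- ascending product -/
def Pw (C : Cone N) (k : N) : ℕ → L C
  | 0 => 1
  | w + 1 => Zf C k w * Pw C k w

/-- descending product -/
def Qw (C : Cone N) (k : N) : ℕ → L C
  | 0 => 1
  | w + 1 => Zf C k (-(w + 1 : ℕ)) * Qw C k w

theorem E_Pw (hk : k ≠ 0) {E : Grp C} (hE : E.fn = Efn k) (w : ℕ) :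
    toL C E = toL C (Ec hk E w) * Pw C k w := by
  induction w with
  | zero => simp [Pw, Ec_zero]
  | succ w ih => rw [ih, (Ec_rec hk hE w).1, Pw, mul_assoc, Nat.cast_succ]

theorem E_Qw (hk : k ≠ 0) {E : Grp C} (hE : E.fn = Efn k) (w : ℕ) :
    toL C (Ec hk E (-w)) = Qw C k w * toL C E := by
  induction w with
  | zero => simp [Qw, Ec_zero]
  | succ w ih =>
    rw [(Ec_rec hk hE _).2, Qw, mul_assoc, ← ih, show (-((w + 1 : ℕ) : ℤ) + 1) = -w by omega]

theorem ker_Pw (hk : k ≠ 0) {E : Grp C} (hE : E.fn = Efn k) {w : ℕ} (h : om k b = w) :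
    toL C (ker E b) = Pw C k w := by
  rw [ker, map_mul, tw_eq_Ec hk hE, h, E_Pw hk hE w, ← mul_assoc, ← map_mul, inv_mul_cancel,
    map_one, one_mul]

theorem ker_Qw (hk : k ≠ 0) {E : Grp C} (hE : E.fn = Efn k) {w : ℕ} (h : om k b = -w) :
    toL C (ker E⁻¹ b) = Qw C k w := by
  rw [ker, tw_inv, inv_inv, map_mul, tw_eq_Ec hk hE, h, E_Qw hk hE w, mul_assoc, ← map_mul,
    mul_inv_cancel, map_one, mul_one]

theorem Xm_mul_Zf {c : ℤ} (h : om k b = 2 * c + 1) :
    Xm C b * Zf C k c = Xm C b + Xm C (b + k) := by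
  rw [Zf, mul_add, mul_one, mono_mul, mul_one, ← U_add, om_skew, h, neg_add_cancel, U_zero]

theorem E_m0 (hk0 : k ≠ 0) {E : Grp C} (hE : E.fn = Efn k) (h : om k b = 0) :
    cj E (Xm C b) = Xm C b := by
  rw [cj_Xm, ker_Pw hk0 hE (w := 0) h, Pw, mul_one]
theorem E_m1 (hk0 : k ≠ 0) {E : Grp C} (hE : E.fn = Efn k) (h : om k b = 1) :
    cj E (Xm C b) = Xm C b + Xm C (b + k) := by
  rw [cj_Xm, ker_Pw hk0 hE (w := 1) h, Pw, Pw, mul_one, Xm_mul_Zf (by simpa using h)]
theorem E_m2 (hk0 : k ≠ 0) {E : Grp C} (hE : E.fn = Efn k) (h : om k b = -1) :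
    cj E (Xm C b + Xm C (b + k)) = Xm C b := by
  have h2 := (Ec_rec hk0 hE (-1)).2
  rw [neg_add_cancel, Ec_zero] at h2
  rw [← Xm_mul_Zf (c := -1) (by simpa using h), cj, ← mul_assoc, toL_mul_Xm, tw_inv,
    tw_eq_Ec hk0 hE, h, mul_assoc, mul_assoc, ← h2, ← map_mul, inv_mul_cancel, map_one, mul_one]

theorem Qw_fn (C C' : Cone N) (k : N) (w : ℕ) : (Qw C k w).fn = (Qw C' k w).fn := by
  induction w with
  | zero => rfl
  | succ w ih => rw [Qw, Qw, L.mul_fn, L.mul_fn, ih]; rfl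

theorem Pw_Qw (C : Cone N) (k : N) (w : ℕ) :
    Pw C k w = mono C (w • k) (U (w ^ 2)) * Qw C (-k) w := by
  induction w with
  | zero => simp [Pw, Qw, U_zero, mono_zero_one]
  | succ w ih =>
    rw [Pw, Qw, ih, ← mul_assoc, ← mul_assoc]
    refine congrArg (· * Qw C (-k) w) ?_
    have e1 : om ((w + 1) • k) (-k) = 0 := by simp [om, QL.om_self]
    rw [Zf, Zf, add_mul, mul_add, one_mul, mul_one, mono_mul, mono_mul, om_nsmul_eid2, om_self, e1,
      ← U_add, ← U_add, ← U_add, ← U_add, add_comm, succ_nsmul, add_neg_cancel_right,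
      add_comm k]
    push_cast
    ring_nf

theorem E_E (hk0 : k ≠ 0) {E : Grp C} (hE : E.fn = Efn k) {E' : Grp C'} (hE' : E'.fn = Efn (-k))
    (h : 0 ≤ om k b) : (cj E (Xm C b)).fn = (cj E'⁻¹ (Xm C' (b + om k b • k))).fn := by
  obtain ⟨w, hw⟩ := Int.eq_ofNat_of_zero_le h
  have h2 : om (-k) (b + (w : ℤ) • k) = -w := by
    rw [← hw]
    simp [om, QL.om_self]
  rw [cj_Xm, cj_Xm, hw, ker_Pw hk0 hE hw, ker_Qw (neg_ne_zero.2 hk0) hE' h2, Pw_Qw, ← mul_assoc,
    mono_mul, mul_one, ← U_add, om_nsmul_eid2, om_skew, hw, natCast_zsmul,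
    show (w : ℤ) * -w + w ^ 2 = 0 by ring, U_zero, L.mul_fn, L.mul_fn, Qw_fn C C']
  rfl

end
end Vale.Agent.P066.S
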