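import Vale.Agent.P066.S.Ring

/-!
P066 part S, file Fac (definitions final; lemmas = TASK S4).  Factorisation `g = lo * mid * hi`.
* `exists_fac`: `solve` with `Φ x = (x|neg * x|nul * x|pos).fn` where `x|p` keeps the value `1` at `0`
  and the values of `x` on the classes satisfying `p` (`tri` twice; exactly one of the three sign
  conditions holds).
* `loc_fac`: strong induction on the degree: at `n ∈ Z`, `tri` gives
  `(a n - a' n) + (b n - b' n) + (c n - c' n) = 0` and two of the three differences vanish.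
* cone independence (`fac_fn_congr`): factor in `C.sub C'.P`, cast the factors to `C` and `C'`,
  use uniqueness.  `supp_lo` etc: factor in `C.sub Q`.
* `lo_lex` etc: uniqueness, `g = (lo σ g * lo τ w) * mid τ w * (hi τ w * hi σ g)`, `w = mid σ g`.
* `cmp`: if `π n ≤ 0` then `n = 0` or both sides vanish.  Otherwise truncate `A` to `{π < π n}`; the
  truncation is supported in both cones; use `mid_U1` in each cone and `fac_fn_congr`.
-/

namespace Vale.Agent.P066.S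
noncomputable section
open Classical

variable {N : Type} [AddCommGroup N] [QL N] {C : Cone N}

def IsF (σ : Sg N) (a b c : Grp C) : Prop :=
  SuppIn σ.negs a.fn ∧ SuppIn σ.ker b.fn ∧ SuppIn σ.poss c.fn

/-- restriction to the classes satisfying `p` -/
def resG (g : Grp C) (p : N → Prop) : Grp C :=
  ⟨fun n => if n = 0 ∨ p n then g.fn n else 0, fun n h => by
    by_cases h' : n = 0 ∨ p n
    · simp only [if_pos h'] at h; exact g.supp n h
    · simp only [if_neg h'] at h; exact absurd rfl h, by simp [g.at0]⟩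

omit [QL N] in
theorem resG_fn (g : Grp C) (p : N → Prop) (n : N) :
    (resG g p).fn n = if n = 0 ∨ p n then g.fn n else 0 := rfl

omit [QL N] in
theorem resG_ne {g : Grp C} {p : N → Prop} {n : N} (h : (resG g p).fn n ≠ 0) : n = 0 ∨ p n := by
  by_contra h'
  rw [resG_fn, if_neg h'] at h
  exact h rfl

omit [QL N] in
theorem fn_of_not_mem (g : Grp C) {n : N} (h : n ∉ C.P) : g.fn n = 0 := by
  by_contra h'; exact h (g.supp n h')

theorem tri3 {a a' b b' c c' : Grp C} {n : N} (hn : n ≠ 0) (ha : Set.EqOn a.fn a'.fn (Lo C n))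
    (hb : Set.EqOn b.fn b'.fn (Lo C n)) (hc : Set.EqOn c.fn c'.fn (Lo C n)) :
    (a * b * c).fn n - (a' * b' * c').fn n =
      (a.fn n - a'.fn n) + (b.fn n - b'.fn n) + (c.fn n - c'.fn n) := by
  rw [tri hn (mul_eqOn (down_Lo C n) ha hb) hc, tri hn ha hb]

theorem exists_fac (σ : Sg N) (g : Grp C) :
    ∃ t : Grp C × Grp C × Grp C, IsF σ t.1 t.2.1 t.2.2 ∧ t.1 * t.2.1 * t.2.2 = g := by
  obtain ⟨x, hx⟩ := solve C (fun x => (resG x σ.neg * resG x σ.nul * resG x σ.pos).fn) (by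
    intro x x' n _ hn h
    have hr : ∀ p : N → Prop, Set.EqOn (resG x p).fn (resG x' p).fn (Lo C n) := by
      intro p q hq
      rw [resG_fn, resG_fn, h q (Lo.deg_lt hq)]
    rw [tri3 hn (hr _) (hr _) (hr _)]
    simp only [resG_fn, hn, false_or]
    rcases σ.tri n with h1 | h1 | h1
    · have h2 : ¬ σ.nul n := fun h => Sg.not_neg_of_nul h h1
      simp [h1, h2, Sg.not_pos_of_neg h1]
    · simp [h1, Sg.not_neg_of_nul h1, Sg.not_pos_of_nul h1]
    · have h2 : ¬ σ.nul n := fun h => Sg.not_pos_of_nul h h1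
      have h3 : ¬ σ.neg n := fun h => Sg.not_pos_of_neg h h1
      simp [h1, h2, h3]) g.fn
  refine ⟨(resG x σ.neg, resG x σ.nul, resG x σ.pos), ⟨fun n h => resG_ne h, fun n h => ?_,
    fun n h => resG_ne h⟩, Grp.ext (funext fun n => ?_)⟩
  · rcases resG_ne h with h | h
    · rw [h]; exact σ.nul_zero
    · exact h
  · by_cases h0 : n = 0
    · rw [h0, Grp.at0, Grp.at0]
    · by_cases h1 : n ∈ C.P
      · exact hx n h1 h0
      · rw [fn_of_not_mem _ h1, fn_of_not_mem _ h1]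

def lo (σ : Sg N) (g : Grp C) : Grp C := (Classical.choose (exists_fac σ g)).1
def mid (σ : Sg N) (g : Grp C) : Grp C := (Classical.choose (exists_fac σ g)).2.1
def hi (σ : Sg N) (g : Grp C) : Grp C := (Classical.choose (exists_fac σ g)).2.2

theorem isF_fac (σ : Sg N) (g : Grp C) : IsF σ (lo σ g) (mid σ g) (hi σ g) :=
  (Classical.choose_spec (exists_fac σ g)).1
theorem fac_mul (σ : Sg N) (g : Grp C) : lo σ g * mid σ g * hi σ g = g :=
  (Classical.choose_spec (exists_fac σ g)).2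

variable {σ τ : Sg N} {g g' a b c a' b' c' : Grp C} {Z : Set N} {n : N}

theorem loc_fac (hZ : Down C Z)
    (h : ∀ z ∈ Z, (a.fn z ≠ 0 → z ∈ σ.negs) ∧ (b.fn z ≠ 0 → z ∈ σ.ker) ∧
      (c.fn z ≠ 0 → z ∈ σ.poss))
    (h' : ∀ z ∈ Z, (a'.fn z ≠ 0 → z ∈ σ.negs) ∧ (b'.fn z ≠ 0 → z ∈ σ.ker) ∧
      (c'.fn z ≠ 0 → z ∈ σ.poss))
    (he : Set.EqOn (a * b * c).fn (a' * b' * c').fn Z) :
    Set.EqOn a.fn a'.fn Z ∧ Set.EqOn b.fn b'.fn Z ∧ Set.EqOn c.fn c'.fn Z := by
  have key : ∀ k : ℕ, ∀ z ∈ Z, (C.deg z).toNat < k →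
      a.fn z = a'.fn z ∧ b.fn z = b'.fn z ∧ c.fn z = c'.fn z := by
    intro k
    induction k with
    | zero => intro z _ hz; omega
    | succ k ih =>
      intro z hzZ hz
      by_cases h0 : z = 0
      · simp [h0, Grp.at0]
      by_cases h1 : z ∈ C.P
      swap
      · simp [fn_of_not_mem _ h1]
      have hl : ∀ p ∈ Lo C z, a.fn p = a'.fn p ∧ b.fn p = b'.fn p ∧ c.fn p = c'.fn p := by
        intro p hp
        have h2 := Lo.deg_lt hp
        have h3 := C.deg_nonneg hp.1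
        exact ih p (hZ.Lo_subset hzZ hp) (by omega)
      have ht := tri3 h0 (fun p hp => (hl p hp).1) (fun p hp => (hl p hp).2.1)
        (fun p hp => (hl p hp).2.2)
      rw [he hzZ, sub_self] at ht
      have za : ∀ {x : K}, (x ≠ 0 → z ∈ σ.negs) → ¬ σ.neg z → x = 0 := fun hx hn => by
        by_contra hc; exact (hx hc).elim h0 hn
      have zb : ∀ {x : K}, (x ≠ 0 → z ∈ σ.ker) → ¬ σ.nul z → x = 0 := fun hx hn => by
        by_contra hc; exact hn (hx hc)
      have zc : ∀ {x : K}, (x ≠ 0 → z ∈ σ.poss) → ¬ σ.pos z → x = 0 := fun hx hn => by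
        by_contra hc; exact (hx hc).elim h0 hn
      obtain ⟨a1, a2, a3⟩ := h z hzZ
      obtain ⟨b1, b2, b3⟩ := h' z hzZ
      rcases σ.tri z with h2 | h2 | h2
      · have h3 : ¬ σ.nul z := fun h => Sg.not_neg_of_nul h h2
        have h4 := Sg.not_pos_of_neg h2
        rw [zb a2 h3, zb b2 h3, zc a3 h4, zc b3 h4] at ht ⊢
        exact ⟨by linear_combination -ht, rfl, rfl⟩
      · have h3 := Sg.not_neg_of_nul h2
        have h4 := Sg.not_pos_of_nul h2
        rw [za a1 h3, za b1 h3, zc a3 h4, zc b3 h4] at ht ⊢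
        exact ⟨rfl, by linear_combination -ht, rfl⟩
      · have h3 : ¬ σ.neg z := fun h => Sg.not_pos_of_neg h h2
        have h4 : ¬ σ.nul z := fun h => Sg.not_pos_of_nul h h2
        rw [za a1 h3, za b1 h3, zb a2 h4, zb b2 h4] at ht ⊢
        exact ⟨rfl, rfl, by linear_combination -ht⟩
  exact ⟨fun z hz => (key _ z hz (Nat.lt_succ_self _)).1,
    fun z hz => (key _ z hz (Nat.lt_succ_self _)).2.1,
    fun z hz => (key _ z hz (Nat.lt_succ_self _)).2.2⟩
omit [QL N] in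
theorem IsF.loc (h : IsF σ a b c) (Z : Set N) :
    ∀ z ∈ Z, (a.fn z ≠ 0 → z ∈ σ.negs) ∧ (b.fn z ≠ 0 → z ∈ σ.ker) ∧ (c.fn z ≠ 0 → z ∈ σ.poss) :=
  fun z _ => ⟨h.1 z, h.2.1 z, h.2.2 z⟩
theorem fac_unique (h : IsF σ a b c) :
    lo σ (a * b * c) = a ∧ mid σ (a * b * c) = b ∧ hi σ (a * b * c) = c := by
  obtain ⟨h1, h2, h3⟩ := loc_fac (down_univ C) ((isF_fac σ (a * b * c)).loc _) (h.loc _)
    (by rw [fac_mul]; exact fun _ _ => rfl)
  exact ⟨Grp.ext (funext fun n => h1 trivial), Grp.ext (funext fun n => h2 trivial),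
    Grp.ext (funext fun n => h3 trivial)⟩
theorem fac_eqOn (hZ : Down C Z) (hg : Set.EqOn g.fn g'.fn Z)
    (hσ : σ.Agree τ (Z ∩ C.P)) :
    Set.EqOn (lo σ g).fn (lo τ g').fn Z ∧ Set.EqOn (mid σ g).fn (mid τ g').fn Z ∧
      Set.EqOn (hi σ g).fn (hi τ g').fn Z := by
  refine loc_fac hZ ((isF_fac σ g).loc _) (fun z hz => ⟨fun h => ?_, fun h => ?_, fun h => ?_⟩)
    (by rw [fac_mul, fac_mul]; exact hg)
  · exact ((isF_fac τ g').1 z h).imp id (Sg.agree_iff.mp hσ z ⟨hz, Grp.supp _ z h⟩).1.mpr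
  · have h1 := hσ z ⟨hz, Grp.supp _ z h⟩
    have h2 := (isF_fac τ g').2.1 z h
    exact ⟨h1.1.mpr h2.1, h1.2.mpr h2.2⟩
  · exact ((isF_fac τ g').2.2 z h).imp id (Sg.agree_iff.mp hσ z ⟨hz, Grp.supp _ z h⟩).2.mpr
theorem mid_U1 (hg : Set.EqOn g.fn g'.fn (Lo C n)) (hn : σ.nul n) :
    (mid σ g).fn n - (mid σ g').fn n = g.fn n - g'.fn n := by
  by_cases h0 : n = 0
  · simp [h0, Grp.at0]
  obtain ⟨h1, h2, h3⟩ := fac_eqOn (σ := σ) (τ := σ) (down_Lo C n) hg (fun _ _ => ⟨Iff.rfl, Iff.rfl⟩)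
  have ht := tri3 h0 h1 h2 h3
  have zl : ∀ x : Grp C, (lo σ x).fn n = 0 := fun x => by
    by_contra hc; exact ((isF_fac σ x).1 n hc).elim h0 (Sg.not_neg_of_nul hn)
  have zh : ∀ x : Grp C, (hi σ x).fn n = 0 := fun x => by
    by_contra hc; exact ((isF_fac σ x).2.2 n hc).elim h0 (Sg.not_pos_of_nul hn)
  rw [fac_mul, fac_mul, zl, zl, zh, zh] at ht
  linear_combination -ht
theorem fac_sub {C' : Cone N} (hle : C'.P ≤ C.P) {h : Grp C'} (e : g.fn = h.fn) (σ : Sg N) :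
    (lo σ g).fn = (lo σ h).fn ∧ (mid σ g).fn = (mid σ h).fn ∧ (hi σ g).fn = (hi σ h).fn := by
  have hs : ∀ x : Grp C', SuppIn C.P x.fn := fun x n hn => hle (x.supp n hn)
  have hF : IsF σ ((lo σ h).cast C (hs _)) ((mid σ h).cast C (hs _)) ((hi σ h).cast C (hs _)) :=
    isF_fac σ h
  have hm : (lo σ h).cast C (hs _) * (mid σ h).cast C (hs _) * (hi σ h).cast C (hs _) = g :=
    Grp.ext (by rw [e]; exact congrArg Grp.fn (fac_mul σ h))
  obtain ⟨h1, h2, h3⟩ := fac_unique hF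
  rw [hm] at h1 h2 h3
  rw [h1, h2, h3]
  exact ⟨rfl, rfl, rfl⟩
theorem fac_fn_congr {C' : Cone N} {h : Grp C'} (e : g.fn = h.fn) (σ : Sg N) :
    (lo σ g).fn = (lo σ h).fn ∧ (mid σ g).fn = (mid σ h).fn ∧ (hi σ g).fn = (hi σ h).fn := by
  have hs : SuppIn (C.sub C'.P).P g.fn := fun n hn => ⟨g.supp n hn, h.supp n (e ▸ hn)⟩
  obtain ⟨a1, a2, a3⟩ := fac_sub (g := g) (h := g.cast (C.sub C'.P) hs) inf_le_left rfl σ
  obtain ⟨b1, b2, b3⟩ := fac_sub (g := h) (h := g.cast (C.sub C'.P) hs) inf_le_right e.symm σ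
  exact ⟨a1.trans b1.symm, a2.trans b2.symm, a3.trans b3.symm⟩
theorem supp_lo {Q : AddSubmonoid N} (h : SuppIn Q g.fn) (σ : Sg N) : SuppIn Q (lo σ g).fn := by
  have hs : SuppIn (C.sub Q).P g.fn := fun n hn => ⟨g.supp n hn, h n hn⟩
  rw [(fac_sub (g := g) (h := g.cast (C.sub Q) hs) inf_le_left rfl σ).1]
  exact fun n hn => (Grp.supp _ n hn).2
theorem supp_mid {Q : AddSubmonoid N} (h : SuppIn Q g.fn) (σ : Sg N) : SuppIn Q (mid σ g).fn := by
  have hs : SuppIn (C.sub Q).P g.fn := fun n hn => ⟨g.supp n hn, h n hn⟩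
  rw [(fac_sub (g := g) (h := g.cast (C.sub Q) hs) inf_le_left rfl σ).2.1]
  exact fun n hn => (Grp.supp _ n hn).2
theorem supp_hi {Q : AddSubmonoid N} (h : SuppIn Q g.fn) (σ : Sg N) : SuppIn Q (hi σ g).fn := by
  have hs : SuppIn (C.sub Q).P g.fn := fun n hn => ⟨g.supp n hn, h n hn⟩
  rw [(fac_sub (g := g) (h := g.cast (C.sub Q) hs) inf_le_left rfl σ).2.2]
  exact fun n hn => (Grp.supp _ n hn).2
theorem fac_lex (σ τ : Sg N) (g : Grp C) : lo (σ.lex τ) g = lo σ g * lo τ (mid σ g) ∧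
    mid (σ.lex τ) g = mid τ (mid σ g) ∧ hi (σ.lex τ) g = hi τ (mid σ g) * hi σ g := by
  have hF : IsF (σ.lex τ) (lo σ g * lo τ (mid σ g)) (mid τ (mid σ g))
      (hi τ (mid σ g) * hi σ g) := by
    refine ⟨supp_mul (fun n hn => ?_) (fun n hn => ?_), fun n hn => ?_,
      supp_mul (fun n hn => ?_) (fun n hn => ?_)⟩
    · exact ((isF_fac σ g).1 n hn).imp id (fun h => Sg.lex_neg.mpr (Or.inl h))
    · exact ((isF_fac τ _).1 n hn).imp id
        (fun h => Sg.lex_neg.mpr (Or.inr ⟨supp_lo (isF_fac σ g).2.1 τ n hn, h⟩))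
    · exact Sg.lex_nul.mpr ⟨supp_mid (isF_fac σ g).2.1 τ n hn, (isF_fac τ _).2.1 n hn⟩
    · exact ((isF_fac τ _).2.2 n hn).imp id
        (fun h => Sg.lex_pos.mpr (Or.inr ⟨supp_hi (isF_fac σ g).2.1 τ n hn, h⟩))
    · exact ((isF_fac σ g).2.2 n hn).imp id (fun h => Sg.lex_pos.mpr (Or.inl h))
  have e : lo σ g * lo τ (mid σ g) * mid τ (mid σ g) * (hi τ (mid σ g) * hi σ g) = g := by
    calc _ = lo σ g * (lo τ (mid σ g) * mid τ (mid σ g) * hi τ (mid σ g)) * hi σ g := by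
          simp only [mul_assoc]
      _ = g := by rw [fac_mul, fac_mul]
  have := fac_unique hF
  rwa [e] at this
theorem lo_lex (σ τ : Sg N) (g : Grp C) : lo (σ.lex τ) g = lo σ g * lo τ (mid σ g) :=
  (fac_lex σ τ g).1
theorem mid_lex (σ τ : Sg N) (g : Grp C) : mid (σ.lex τ) g = mid τ (mid σ g) :=
  (fac_lex σ τ g).2.1
theorem hi_lex (σ τ : Sg N) (g : Grp C) : hi (σ.lex τ) g = hi τ (mid σ g) * hi σ g :=
  (fac_lex σ τ g).2.2
theorem mid_neg_mul (ha : SuppIn σ.negs a.fn) (g : Grp C) : mid σ (a * g) = mid σ g := by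
  have hF : IsF σ (a * lo σ g) (mid σ g) (hi σ g) :=
    ⟨supp_mul ha (isF_fac σ g).1, (isF_fac σ g).2.1, (isF_fac σ g).2.2⟩
  have := (fac_unique hF).2.1
  rwa [mul_assoc a, mul_assoc a, fac_mul] at this
theorem mid_mul_pos (hc : SuppIn σ.poss c.fn) (g : Grp C) : mid σ (g * c) = mid σ g := by
  have hF : IsF σ (lo σ g) (mid σ g) (hi σ g * c) :=
    ⟨(isF_fac σ g).1, (isF_fac σ g).2.1, supp_mul (isF_fac σ g).2.2 hc⟩
  have := (fac_unique hF).2.1
  rwa [← mul_assoc, fac_mul] at this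
theorem lo_eqOn_neg (hZ : Down C Z) (h : ∀ z ∈ Z, g.fn z ≠ 0 → z ∈ σ.negs) :
    Set.EqOn (lo σ g).fn g.fn Z :=
  (loc_fac (a' := g) (b' := 1) (c' := 1) hZ ((isF_fac σ g).loc _)
    (fun z hz => ⟨h z hz, supp_one _ z, supp_one _ z⟩)
    (by rw [fac_mul, mul_one, mul_one]; exact fun _ _ => rfl)).1
theorem mid_eqOn_nul (hZ : Down C Z) (h : ∀ z ∈ Z, g.fn z ≠ 0 → σ.nul z) :
    Set.EqOn (mid σ g).fn g.fn Z :=
  (loc_fac (a' := 1) (b' := g) (c' := 1) hZ ((isF_fac σ g).loc _)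
    (fun z hz => ⟨supp_one _ z, h z hz, supp_one _ z⟩)
    (by rw [fac_mul, mul_one, one_mul]; exact fun _ _ => rfl)).2.1
theorem lo_eqOn_one (hZ : Down C Z) (h : ∀ z ∈ Z, g.fn z ≠ 0 → z ∈ σ.poss) :
    Set.EqOn (lo σ g).fn (1 : Grp C).fn Z :=
  (loc_fac (a' := 1) (b' := 1) (c' := g) hZ ((isF_fac σ g).loc _)
    (fun z hz => ⟨supp_one _ z, supp_one _ z, h z hz⟩)
    (by rw [fac_mul, mul_one, one_mul]; exact fun _ _ => rfl)).1
theorem lo_of_neg (h : SuppIn σ.negs g.fn) : lo σ g = g :=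
  Grp.ext (funext fun _ => lo_eqOn_neg (down_univ C) (fun z _ => h z) trivial)
theorem lo_of_pos (h : SuppIn σ.poss g.fn) : lo σ g = 1 :=
  Grp.ext (funext fun _ => lo_eqOn_one (down_univ C) (fun z _ => h z) trivial)
theorem mid_of_nul (h : SuppIn σ.ker g.fn) : mid σ g = g :=
  Grp.ext (funext fun _ => mid_eqOn_nul (down_univ C) (fun z _ => h z) trivial)
theorem cmp {C1 C2 : Cone N} (π : N →+ ℤ) (h1 : ∀ p ∈ C1.P, p ≠ 0 → 0 < π p)
    (h2 : ∀ p ∈ C2.P, p ≠ 0 → 0 < π p) (A : Grp C1) (B : Grp C2) {n : N}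
    (hAB : ∀ p, π p < π n → A.fn p = B.fn p) (hn : τ.nul n) :
    (mid τ A).fn n - A.fn n = (mid τ B).fn n - B.fn n := by
  by_cases h0 : n = 0
  · simp [h0, Grp.at0]
  by_cases hp : 0 < π n
  swap
  · have a1 : n ∉ C1.P := fun h => hp (h1 n h h0)
    have a2 : n ∉ C2.P := fun h => hp (h2 n h h0)
    simp [fn_of_not_mem _ a1, fn_of_not_mem _ a2]
  have key : ∀ {C : Cone N} (_ : ∀ p ∈ C.P, p ≠ 0 → 0 < π p) (A : Grp C),
      (mid τ A).fn n - (mid τ (resG A fun p => π p < π n)).fn n = A.fn n := by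
    intro C hC A
    rw [mid_U1 (fun p hp' => ?_) hn, resG_fn, if_neg (by simp [h0]), sub_zero]
    have := hC _ hp'.2.1 (sub_ne_zero.mpr hp'.2.2.symm)
    rw [map_sub] at this
    rw [resG_fn, if_pos (Or.inr (by omega))]
  have e : (resG A fun p => π p < π n).fn = (resG B fun p => π p < π n).fn := by
    funext p
    rw [resG_fn, resG_fn]
    split_ifs with h
    · exact hAB p (h.elim (fun h => by rw [h, map_zero]; exact hp) id)
    · rfl
  have k1 := key h1 A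
  have k2 := key h2 B
  rw [(fac_fn_congr e τ).2.1] at k1
  linear_combination k1 - k2
/-- two elements with the same local attractor coefficients agree -/
theorem cmp_eq {C1 C2 : Cone N} (π : N →+ ℤ) (h1 : ∀ p ∈ C1.P, p ≠ 0 → 0 < π p)
    (h2 : ∀ p ∈ C2.P, p ≠ 0 → 0 < π p) (A : Grp C1) (B : Grp C2) (J : ℤ)
    (h : ∀ p, 0 < π p → π p ≤ J → A.fn p = B.fn p ∨
      ∃ τ : Sg N, τ.nul p ∧ (mid τ A).fn p = (mid τ B).fn p) :
    ∀ p, π p ≤ J → A.fn p = B.fn p := by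
  have key : ∀ k : ℕ, ∀ p, π p < k → π p ≤ J → A.fn p = B.fn p := by
    have base : ∀ p, π p ≤ 0 → A.fn p = B.fn p := by
      intro p hp
      by_cases h0 : p = 0
      · rw [h0, Grp.at0, Grp.at0]
      · rw [fn_of_not_mem _ (fun h => absurd (h1 p h h0) (by omega)),
          fn_of_not_mem _ (fun h => absurd (h2 p h h0) (by omega))]
    intro k
    induction k with
    | zero => intro p hp _; exact base p (by omega)
    | succ k ih =>
      intro p hp hJ
      by_cases h0 : 0 < π p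
      · rcases h p h0 hJ with h' | ⟨τ, hτ, h'⟩
        · exact h'
        · have := cmp π h1 h2 A B (fun q hq => ih q (by omega) (by omega)) hτ
          linear_combination h' - this
      · exact base p (by omega)
  exact fun p hp => key ((π p).toNat + 1) p (by omega) hp
/-- the same inside one cone, on a down closed set -/
theorem eqOn_of_mid (hZ : Down C Z)
    (h : ∀ p ∈ Z, p ≠ 0 → g.fn p = g'.fn p ∨
      ∃ τ : Sg N, τ.nul p ∧ (mid τ g).fn p = (mid τ g').fn p) :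
    Set.EqOn g.fn g'.fn Z := by
  refine eqOn_of_tri hZ (fun n hn _ h0 hl => ?_)
  rcases h n hn h0 with h' | ⟨τ, hτ, h'⟩
  · exact h'
  · have := mid_U1 hl hτ
    linear_combination h' - this

end
end Vale.Agent.P066.S
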