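import Vale.Agent.P066.S.Conj

/-!
P066 part S, file GF (definitions final; lemmas = TASK S6).  Generating functions of weighted types.
* `gf_prod`: compare coefficients (`HahnSeries.coeff_mul`, `gf_coeff`), or first prove
  `gf` of a product fibre: for fixed `a`, `U (om a n) * gf W a * gf W' (n - a)` has `e`-th coefficient
  the number of pairs with classes `(a, n - a)` and exponent `e`; sum over the finitely many `a`.
* `mon_In` (finiteness): a monomial of class `n` has at most `deg n` factors, all with classes in the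
  finite set `{p ∈ P, deg p ≤ deg n}`; on these classes `ex` is bounded below by some `e0 ≤ 0` and the
  twisting term is bounded by `B (deg n)^2`; so if the total exponent is `≤ e` every factor has
  exponent `≤ e + B (deg n)^2 - e0 deg n`, which leaves finitely many possible factors
  (`Finsupp` with support in a finite set and bounded values: `Finsupp.finite_of_degree_le` or
  `Set.Finite.pi`).
* `mon_split`: the equivalence `m ↦ (m.subtypeDomain p, m.subtypeDomain (¬ p))`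
  (`Finsupp.sumFinsuppEquivProdFinsupp`, or direct), and
  `max (om x y) 0 + max (om y x) 0 = - om x y` when `om x y ≤ 0`; then `gf_equiv`, `gf_prod`.
-/

namespace Vale.Agent.P066.S
noncomputable section
open Classical

structure WT (N : Type) where
  T : Type
  cls : T → N
  ex : T → ℤ

namespace WT
variable {N : Type}

def Fin (W : WT N) : Prop := ∀ n e, {t | W.cls t = n ∧ W.ex t ≤ e}.Finite

theorem Fin.bdd {W : WT N} (h : W.Fin) (n : N) : BddBelow (Function.support fun e : ℤ =>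
    (Nat.card {t // W.cls t = n ∧ W.ex t = e} : ℤ)) := by
  obtain ⟨b, hb⟩ := ((h n 0).image W.ex).bddBelow
  refine ⟨min b 0, fun e he => ?_⟩
  by_cases h0 : e ≤ 0
  · have : Nonempty {t // W.cls t = n ∧ W.ex t = e} := by
      by_contra hc
      rw [not_nonempty_iff] at hc
      simp at he
    obtain ⟨t, h1, h2⟩ := this
    exact (min_le_left _ _).trans (hb ⟨t, ⟨h1, h2 ▸ h0⟩, h2⟩)
  · exact (min_le_right _ _).trans (not_le.1 h0).le

/-- generating function -/
def gf (W : WT N) (n : N) : K :=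
  if h : W.Fin then HahnSeries.ofSuppBddBelow
    (fun e : ℤ => (Nat.card {t // W.cls t = n ∧ W.ex t = e} : ℤ)) (h.bdd n) else 0

def res (W : WT N) (p : W.T → Prop) : WT N := ⟨{t // p t}, fun t => W.cls t.1, fun t => W.ex t.1⟩
/-- towers over the generators -/
def tow (W : WT N) : WT N := ⟨W.T × ℕ, fun t => W.cls t.1, fun t => W.ex t.1 + 2 * t.2⟩
def pt (k : N) : WT N := ⟨Unit, fun _ => k, fun _ => 1⟩
def empty (N : Type) : WT N := ⟨Empty, fun t => t.elim, fun t => t.elim⟩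

variable [AddCommGroup N]

def In (C : Cone N) (W : WT N) : Prop := W.Fin ∧ ∀ t, W.cls t ∈ C.P
def Fam (C : Cone N) (W : WT N) : Prop := W.Fin ∧ ∀ t, W.cls t ∈ C.P ∧ W.cls t ≠ 0
def Unit (W : WT N) : Prop := ∃ t, W.cls t = 0 ∧ W.ex t = 0 ∧ ∀ t', W.cls t' = 0 → t' = t

variable [QL N]

def prod (W W' : WT N) : WT N := ⟨W.T × W'.T, fun t => W.cls t.1 + W'.cls t.2,
  fun t => W.ex t.1 + W'.ex t.2 + om (W.cls t.1) (W'.cls t.2)⟩

/-- supercommutative monomials, twisted by the positive part of `om` -/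
def mon (G : WT N) : WT N := ⟨{m : G.T →₀ ℕ // ∀ x, Odd (G.ex x) → m x ≤ 1},
  fun m => m.1.sum fun x n => n • G.cls x,
  fun m => (m.1.sum fun x n => (n : ℤ) * G.ex x) -
    m.1.sum fun x n => m.1.sum fun y l => (n : ℤ) * l * max (om (G.cls x) (G.cls y)) 0⟩

def M (V : WT N) : WT N := V.tow.mon

end WT

open WT
section
variable {N : Type} {W W' : WT N}

theorem gf_coeff (h : W.Fin) (n : N) (e : ℤ) :
    (W.gf n).coeff e = Nat.card {t // W.cls t = n ∧ W.ex t = e} := by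
  rw [WT.gf, dif_pos h, HahnSeries.coeff_ofSuppBddBelow]
theorem gf_pos (W : WT N) (n : N) : W.gf n ∈ Kpos := by
  intro e
  by_cases h : W.Fin
  · rw [gf_coeff h]; exact Int.natCast_nonneg _
  · rw [WT.gf, dif_neg h]; exact le_rfl
theorem gf_ne_zero {n : N} (h : W.gf n ≠ 0) : ∃ t, W.cls t = n := by
  by_contra hc
  apply h
  by_cases hf : W.Fin
  · ext e
    have : IsEmpty {t // W.cls t = n ∧ W.ex t = e} := ⟨fun t => hc ⟨t.1, t.2.1⟩⟩
    rw [gf_coeff hf]; simp
  · rw [WT.gf, dif_neg hf]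
theorem fin_of_inj (f : W.T → W'.T) (hf : Function.Injective f) (φ : N → N) (ψ : N → ℤ)
    (hc : ∀ t, W'.cls (f t) = φ (W.cls t)) (he : ∀ t, W'.ex (f t) = W.ex t + ψ (W.cls t))
    (h : W'.Fin) : W.Fin := by
  intro n e
  refine ((h (φ n) (e + ψ n)).preimage hf.injOn).subset ?_
  rintro t ⟨h1, h2⟩
  refine ⟨by rw [hc, h1], ?_⟩
  rw [he, h1]
  omega
theorem U_mul_coeff (a : ℤ) (x : K) (k : ℤ) : (U a * x).coeff k = x.coeff (k - a) := by
  rw [U, HahnSeries.coeff_single_mul, one_mul]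
theorem gf_equiv (e : W.T ≃ W'.T) (ψ : N → ℤ) (hc : ∀ t, W'.cls (e t) = W.cls t)
    (he : ∀ t, W'.ex (e t) = W.ex t + ψ (W.cls t)) (n : N) : W'.gf n = U (ψ n) * W.gf n := by
  by_cases h : W'.Fin
  · have h' : W.Fin := fin_of_inj e e.injective id ψ hc he h
    ext k
    rw [U_mul_coeff, gf_coeff h, gf_coeff h']
    refine congrArg _ (Nat.card_congr (e.subtypeEquiv fun t => ?_).symm)
    rw [hc, he]
    constructor
    · rintro ⟨h1, h2⟩; exact ⟨h1, by rw [h1]; omega⟩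
    · rintro ⟨h1, h2⟩; exact ⟨h1, by rw [h1] at h2; omega⟩
  · have h' : ¬ W.Fin := fun h' => h (fin_of_inj e.symm e.symm.injective id (fun n => - ψ n)
      (fun t => by rw [← hc, e.apply_symm_apply]; rfl)
      (fun t => by
        have h1 := he (e.symm t)
        have h2 := hc (e.symm t)
        rw [e.apply_symm_apply] at h1 h2
        rw [h2]; omega) h')
    rw [WT.gf, WT.gf, dif_neg h, dif_neg h', mul_zero]
/-- only the fibre over `n` matters -/
theorem gf_congr_fibre {N' : Type} {W' : WT N'} (h : W.Fin) (h' : W'.Fin) {n : N} {n' : N'}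
    (e : {t // W.cls t = n} ≃ {t // W'.cls t = n'}) (he : ∀ t, W'.ex (e t).1 = W.ex t.1) :
    W'.gf n' = W.gf n := by
  ext k
  rw [gf_coeff h, gf_coeff h']
  refine congrArg _ (Nat.card_congr ?_)
  refine (Equiv.subtypeSubtypeEquivSubtypeInter _ _).symm.trans
    (((e.subtypeEquiv fun t => ?_).symm).trans (Equiv.subtypeSubtypeEquivSubtypeInter _ _))
  rw [he]
theorem res_fin (h : W.Fin) (p : W.T → Prop) : (W.res p).Fin := by
  exact fin_of_inj (W := W.res p) Subtype.val Subtype.val_injective id (fun _ => 0) (fun _ => rfl)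
    (fun _ => (add_zero _).symm) h
theorem fin_lb (h : W.Fin) (n : N) : ∃ b, ∀ t, W.cls t = n → b ≤ W.ex t := by
  obtain ⟨b, hb⟩ := ((h n 0).image W.ex).bddBelow
  refine ⟨min b 0, fun t ht => ?_⟩
  by_cases h0 : W.ex t ≤ 0
  · exact (min_le_left _ _).trans (hb ⟨t, ⟨ht, h0⟩, rfl⟩)
  · exact (min_le_right _ _).trans (not_le.1 h0).le
theorem fin_fibre (h : W.Fin) (n : N) (e : ℤ) : Finite {t // W.cls t = n ∧ W.ex t = e} :=
  ((h n e).subset fun _ ht => ⟨ht.1, ht.2.le⟩ : {t | W.cls t = n ∧ W.ex t = e}.Finite)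
theorem card_fib {X Y : Type} [Finite X] (f : X → Y) (s : Finset Y) (h : ∀ x, f x ∈ s) :
    Nat.card X = ∑ y ∈ s, Nat.card {x // f x = y} := by
  have := Fintype.ofFinite X
  rw [Nat.card_eq_fintype_card, ← Finset.card_univ,
    Finset.card_eq_sum_card_fiberwise (f := f) (t := s) fun x _ => h x]
  refine Finset.sum_congr rfl fun y _ => ?_
  rw [Nat.card_eq_fintype_card, Fintype.card_subtype]
theorem fin_pair (h : W.Fin) (h' : W'.Fin) (a b : N) (e : ℤ) :
    {t : W.T × W'.T | W.cls t.1 = a ∧ W'.cls t.2 = b ∧ W.ex t.1 + W'.ex t.2 ≤ e}.Finite := by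
  obtain ⟨c, hc⟩ := fin_lb h a
  obtain ⟨c', hc'⟩ := fin_lb h' b
  refine ((h a (e - c')).prod (h' b (e - c))).subset ?_
  rintro ⟨t, t'⟩ ⟨h1, h2, h3⟩
  have h4 := hc t h1
  have h5 := hc' t' h2
  dsimp only at h3
  exact ⟨⟨h1, by show W.ex t ≤ _; omega⟩, h2, by show W'.ex t' ≤ _; omega⟩
theorem gf_mul_coeff (h : W.Fin) (h' : W'.Fin) (a b : N) (e : ℤ) :
    (W.gf a * W'.gf b).coeff e = Nat.card {t : W.T × W'.T //
      W.cls t.1 = a ∧ W'.cls t.2 = b ∧ W.ex t.1 + W'.ex t.2 = e} := by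
  have : Finite {t : W.T × W'.T // W.cls t.1 = a ∧ W'.cls t.2 = b ∧ W.ex t.1 + W'.ex t.2 = e} :=
    ((fin_pair h h' a b e).subset fun _ ht => ⟨ht.1, ht.2.1, ht.2.2.le⟩ :
      {t : W.T × W'.T | W.cls t.1 = a ∧ W'.cls t.2 = b ∧ W.ex t.1 + W'.ex t.2 = e}.Finite)
  rw [HahnSeries.coeff_mul, card_fib (fun t => (W.ex t.1.1, W'.ex t.1.2))
    (Finset.antidiagonal (W.gf a).isPWO_support (W'.gf b).isPWO_support e), Nat.cast_sum]
  · refine Finset.sum_congr rfl fun ij hij => ?_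
    have hs := (Finset.mem_antidiagonal.1 hij).2.2
    rw [gf_coeff h, gf_coeff h', ← Nat.cast_mul, ← Nat.card_prod]
    refine congrArg _ (Nat.card_congr
      ⟨fun u => ⟨⟨(u.1.1, u.2.1), u.1.2.1, u.2.2.1, ?_⟩, Prod.ext u.1.2.2 u.2.2.2⟩,
       fun t => (⟨t.1.1.1, t.1.2.1, congrArg Prod.fst t.2⟩,
        ⟨t.1.1.2, t.1.2.2.1, congrArg Prod.snd t.2⟩), fun _ => rfl, fun _ => rfl⟩)
    rw [u.1.2.2, u.2.2.2]
    exact hs
  · rintro ⟨⟨t, t'⟩, h1, h2, h3⟩
    refine Finset.mem_antidiagonal.2 ⟨?_, ?_, h3⟩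
    · rw [HahnSeries.mem_support, gf_coeff h]
      have := fin_fibre h a (W.ex t)
      have : Nonempty {u // W.cls u = a ∧ W.ex u = W.ex t} := ⟨⟨t, h1, rfl⟩⟩
      exact_mod_cast Nat.card_pos.ne'
    · rw [HahnSeries.mem_support, gf_coeff h']
      have := fin_fibre h' b (W'.ex t')
      have : Nonempty {u // W'.cls u = b ∧ W'.ex u = W'.ex t'} := ⟨⟨t', h2, rfl⟩⟩
      exact_mod_cast Nat.card_pos.ne'
theorem tow_fin (h : W.Fin) : W.tow.Fin := by
  intro n e
  obtain ⟨b, hb⟩ := fin_lb h n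
  refine ((h n e).prod (Set.finite_Iic (e - b).toNat)).subset ?_
  rintro ⟨t, k⟩ ⟨h1, h2⟩
  have h3 : W.ex t + 2 * (k : ℤ) ≤ e := h2
  have h4 := hb t h1
  exact ⟨⟨h1, by show W.ex t ≤ e; omega⟩, by show k ≤ _; omega⟩
end

variable {N : Type} [AddCommGroup N] [QL N] {C : Cone N} {W W' G G' V : WT N}

theorem gf_zero (h : W.Fin) (hu : W.Unit) : W.gf 0 = 1 := by
  obtain ⟨t, h1, h2, h3⟩ := hu
  ext e
  rw [gf_coeff h, HahnSeries.coeff_one]
  split_ifs with he
  · subst he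
    have : Unique {t // W.cls t = 0 ∧ W.ex t = 0} :=
      ⟨⟨⟨t, h1, h2⟩⟩, fun u => Subtype.ext (h3 u.1 u.2.1)⟩
    simp
  · have : IsEmpty {t // W.cls t = 0 ∧ W.ex t = e} :=
      ⟨fun u => he (by rw [← u.2.2, h3 u.1 u.2.1, h2])⟩
    simp
theorem gf_supp {Q : AddSubmonoid N} (h : ∀ t, W.cls t ∈ Q) : SuppIn Q W.gf := by
  intro n hn
  obtain ⟨t, rfl⟩ := gf_ne_zero hn
  exact h t
theorem exists_grp (h : W.In C) (hu : W.Unit) : ∃ g : Grp C, g.fn = W.gf := by
  exact ⟨⟨W.gf, gf_supp h.2, gf_zero h.1 hu⟩, rfl⟩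
theorem res_Fam (h : W.Fam C) (p : W.T → Prop) : (W.res p).Fam C := by
  exact ⟨res_fin h.1 p, fun t => h.2 t.1⟩
theorem tow_Fam (h : W.Fam C) : W.tow.Fam C := by
  exact ⟨tow_fin h.1, fun t => h.2 t.1⟩
theorem pt_Fam {k : N} (hk : k ∈ C.P) (hk0 : k ≠ 0) : (pt k).Fam C := by
  exact ⟨fun _ _ => Set.Finite.subset (Set.finite_univ (α := _root_.Unit)) (Set.subset_univ _),
    fun _ => ⟨hk, hk0⟩⟩
theorem empty_Fam : (WT.empty N).Fam C := by
  exact ⟨fun _ _ => Set.Finite.subset (Set.finite_univ (α := Empty)) (Set.subset_univ _),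
    fun t => Empty.elim t⟩
theorem prod_In (h : W.In C) (h' : W'.In C) : (W.prod W').In C := by
  refine ⟨fun n e => ?_, fun t => C.P.add_mem (h.2 _) (h'.2 _)⟩
  refine ((C.between_finite 0 n).biUnion fun a _ =>
    fin_pair h.1 h'.1 a (n - a) (e - om a (n - a))).subset ?_
  rintro ⟨t, t'⟩ ⟨h1, h2⟩
  have h3 : W.cls t + W'.cls t' = n := h1
  have h4 : W.ex t + W'.ex t' + om (W.cls t) (W'.cls t') ≤ e := h2
  have h5 : W'.cls t' = n - W.cls t := by rw [← h3]; abel
  refine Set.mem_biUnion (x := W.cls t) ⟨by rw [sub_zero]; exact h.2 t, h5 ▸ h'.2 t'⟩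
    ⟨rfl, h5, ?_⟩
  rw [← h5]
  show W.ex t + W'.ex t' ≤ _
  omega
theorem gf_prod (h : W.In C) (h' : W'.In C) : (W.prod W').gf = conv W.gf W'.gf := by
  funext n
  have hp := prod_In h h'
  rw [conv_eq_sum (C.between_finite 0 n).toFinset fun a ha hb => by
    rw [Set.Finite.mem_toFinset]
    exact ⟨by rw [sub_zero]; exact gf_supp h.2 a ha, gf_supp h'.2 _ hb⟩]
  ext e
  have := fin_fibre hp.1 n e
  rw [gf_coeff hp.1, HahnSeries.coeff_sum,
    card_fib (fun t => W.cls t.1.1) (C.between_finite 0 n).toFinset, Nat.cast_sum]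
  · refine Finset.sum_congr rfl fun a _ => ?_
    rw [mul_assoc, U_mul_coeff, gf_mul_coeff h.1 h'.1]
    have ho : om a (n - a) = om a n := by
      have := om_self a
      simp only [om] at this ⊢
      rw [map_sub, this, sub_zero]
    refine congrArg _ (Nat.card_congr ((Equiv.subtypeSubtypeEquivSubtypeInter
      (fun t : W.T × W'.T => (W.prod W').cls t = n ∧ (W.prod W').ex t = e)
      (fun t => W.cls t.1 = a)).trans (Equiv.subtypeEquivRight fun t => ?_)))
    show (W.cls t.1 + W'.cls t.2 = n ∧ W.ex t.1 + W'.ex t.2 + om (W.cls t.1) (W'.cls t.2) = e) ∧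
      W.cls t.1 = a ↔ _
    constructor
    · rintro ⟨⟨h1, h2⟩, h3⟩
      have h5 : W'.cls t.2 = n - a := by rw [← h1, h3]; abel
      rw [h3, h5, ho] at h2
      exact ⟨h3, h5, by omega⟩
    · rintro ⟨h1, h2, h3⟩
      rw [h1, h2, ho]
      exact ⟨⟨by abel, by omega⟩, rfl⟩
  · rintro ⟨⟨t, t'⟩, h1, h2⟩
    have h3 : W.cls t + W'.cls t' = n := h1
    have h5 : W'.cls t' = n - W.cls t := by rw [← h3]; abel
    rw [Set.Finite.mem_toFinset]
    exact ⟨by rw [sub_zero]; exact h.2 t, h5 ▸ h'.2 t'⟩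
theorem mon_cls_mem {Q : AddSubmonoid N} (h : ∀ x, G.cls x ∈ Q) (m : G.mon.T) :
    G.mon.cls m ∈ Q := by
  exact Q.sum_mem fun x _ => Q.nsmul_mem (h x) _
theorem mon_deg (m : G.mon.T) :
    C.deg (G.mon.cls m) = ∑ x ∈ m.1.support, (m.1 x : ℤ) * C.deg (G.cls x) := by
  show C.deg (∑ x ∈ m.1.support, m.1 x • G.cls x) = _
  rw [map_sum]
  exact Finset.sum_congr rfl fun x _ => by rw [map_nsmul, nsmul_eq_mul]
theorem mon_In (h : G.Fam C) : G.mon.In C := by
  refine ⟨fun n e => ?_, mon_cls_mem fun x => (h.2 x).1⟩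
  have hA := C.fin (C.deg n)
  obtain ⟨b, hb0, hb⟩ : ∃ b : ℤ, b ≤ 0 ∧ ∀ x, C.deg (G.cls x) ≤ C.deg n → b ≤ G.ex x := by
    choose c hc using fin_lb h.1
    obtain ⟨b, hb⟩ := (hA.image c).bddBelow
    exact ⟨min b 0, min_le_right _ _, fun x hx => (min_le_left _ _).trans
      ((hb ⟨_, ⟨(h.2 x).1, hx⟩, rfl⟩).trans (hc _ x rfl))⟩
  obtain ⟨B, hB0, hB⟩ : ∃ B : ℤ, 0 ≤ B ∧ ∀ x y, C.deg (G.cls x) ≤ C.deg n →
      C.deg (G.cls y) ≤ C.deg n → om (G.cls x) (G.cls y) ≤ B := by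
    obtain ⟨B, hB⟩ := ((hA.prod hA).image fun p => om p.1 p.2).bddAbove
    exact ⟨max B 0, le_max_right _ _, fun x y hx hy => (hB ⟨(G.cls x, G.cls y),
      ⟨⟨(h.2 x).1, hx⟩, (h.2 y).1, hy⟩, rfl⟩).trans (le_max_left _ _)⟩
  have hF := hA.biUnion fun a _ => h.1 a (e + B * C.deg n ^ 2 - b * C.deg n)
  refine ((Set.finite_Iic (Finsupp.indicator hF.toFinset fun _ _ => (C.deg n).toNat)).preimage
    Subtype.val_injective.injOn).subset ?_
  rintro ⟨m, hm⟩ ⟨h1, h2⟩
  have hd := mon_deg (C := C) ⟨m, hm⟩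
  rw [h1] at hd
  dsimp only at hd
  have hp : ∀ x, 1 ≤ C.deg (G.cls x) := fun x => C.pos _ (h.2 x).1 (h.2 x).2
  have ht : ∀ x, 0 ≤ (m x : ℤ) * C.deg (G.cls x) := fun x =>
    mul_nonneg (Int.natCast_nonneg _) (by have := hp x; omega)
  have hD : ∑ x ∈ m.support, (m x : ℤ) ≤ C.deg n := by
    rw [hd]
    exact Finset.sum_le_sum fun x _ => le_mul_of_one_le_right (Int.natCast_nonneg _) (hp x)
  have hS0 : 0 ≤ ∑ x ∈ m.support, (m x : ℤ) := Finset.sum_nonneg fun _ _ => Int.natCast_nonneg _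
  have hm1 : ∀ x ∈ m.support, (1 : ℤ) ≤ m x := fun x hx => by
    have := Finsupp.mem_support_iff.1 hx
    omega
  have hle : ∀ x ∈ m.support, C.deg (G.cls x) ≤ C.deg n := fun x hx => by
    rw [hd]
    refine le_trans ?_ (Finset.single_le_sum (fun y _ => ht y) hx)
    exact le_mul_of_one_le_left (by have := hp x; omega) (hm1 x hx)
  have htw : ∑ x ∈ m.support, ∑ y ∈ m.support, (m x : ℤ) * m y * max (om (G.cls x) (G.cls y)) 0 ≤
      B * C.deg n ^ 2 := by
    calc _ ≤ ∑ x ∈ m.support, ∑ y ∈ m.support, (m x : ℤ) * m y * B :=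
          Finset.sum_le_sum fun x hx => Finset.sum_le_sum fun y hy =>
            mul_le_mul_of_nonneg_left (max_le (hB x y (hle x hx) (hle y hy)) hB0) (by positivity)
      _ = B * (∑ x ∈ m.support, (m x : ℤ)) ^ 2 := by
          rw [sq, Finset.sum_mul_sum, Finset.mul_sum]
          refine Finset.sum_congr rfl fun x _ => ?_
          rw [Finset.mul_sum]
          exact Finset.sum_congr rfl fun y _ => mul_comm _ _
      _ ≤ _ := mul_le_mul_of_nonneg_left (pow_le_pow_left₀ hS0 hD 2) hB0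
  have h3 : ∑ x ∈ m.support, (m x : ℤ) * G.ex x -
      ∑ x ∈ m.support, ∑ y ∈ m.support, (m x : ℤ) * m y * max (om (G.cls x) (G.cls y)) 0 ≤ e := h2
  intro x
  show m x ≤ _
  by_cases hx : x ∈ m.support
  · have h4 : G.ex x - b ≤ ∑ y ∈ m.support, (m y : ℤ) * (G.ex y - b) := by
      refine le_trans ?_ (Finset.single_le_sum (f := fun y => (m y : ℤ) * (G.ex y - b))
        (fun y hy => mul_nonneg (Int.natCast_nonneg _) (sub_nonneg.2 (hb y (hle y hy)))) hx)
      exact le_mul_of_one_le_left (sub_nonneg.2 (hb x (hle x hx))) (hm1 x hx)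
    simp only [mul_sub, Finset.sum_sub_distrib, ← Finset.sum_mul] at h4
    have h5 : b * C.deg n ≤ (∑ x ∈ m.support, (m x : ℤ)) * b := by nlinarith
    have h6 : x ∈ hF.toFinset := by
      rw [Set.Finite.mem_toFinset]
      exact Set.mem_biUnion (x := G.cls x) ⟨(h.2 x).1, hle x hx⟩ ⟨rfl, by linarith⟩
    rw [Finsupp.indicator_of_mem h6]
    have h7 : (m x : ℤ) ≤ ∑ x ∈ m.support, (m x : ℤ) :=
      Finset.single_le_sum (f := fun y => (m y : ℤ)) (fun _ _ => Int.natCast_nonneg _) hx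
    omega
  · rw [Finsupp.notMem_support_iff.1 hx]
    exact Nat.zero_le _
theorem mon_Unit (h : G.Fam C) : G.mon.Unit := by
  refine ⟨⟨0, fun _ _ => Nat.zero_le _⟩, rfl, rfl, fun m hm => Subtype.ext ?_⟩
  have hd := mon_deg (C := C) m
  rw [hm, map_zero] at hd
  have hp : ∀ x, 0 < C.deg (G.cls x) := fun x => C.pos _ (h.2 x).1 (h.2 x).2
  have h1 := (Finset.sum_eq_zero_iff_of_nonneg fun x _ =>
    mul_nonneg (Int.natCast_nonneg _) (hp x).le).1 hd.symm
  ext x
  by_contra hx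
  have h2 := h1 x (Finsupp.mem_support_iff.2 hx)
  rcases mul_eq_zero.1 h2 with h3 | h3
  · exact hx (by exact_mod_cast h3)
  · exact (hp x).ne' h3
theorem exists_grp_mon (h : G.Fam C) : ∃ g : Grp C, g.fn = G.mon.gf := by
  exact exists_grp (mon_In h) (mon_Unit h)
theorem exists_grp_M (h : V.Fam C) : ∃ g : Grp C, g.fn = V.M.gf := by
  exact exists_grp_mon (tow_Fam h)
theorem M_supp {Q : AddSubmonoid N} (h : ∀ x, V.cls x ∈ Q) : SuppIn Q V.M.gf := by
  exact gf_supp (mon_cls_mem (G := V.tow) fun x => h x.1)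
theorem mon_equiv (e : G.T ≃ G'.T) (ψ : N →+ ℤ) (hc : ∀ t, G'.cls (e t) = G.cls t)
    (he : ∀ t, G'.ex (e t) = G.ex t + 2 * ψ (G.cls t)) (n : N) :
    G'.mon.gf n = U (2 * ψ n) * G.mon.gf n := by
  refine gf_equiv (W := G.mon) (W' := G'.mon)
    ((Finsupp.equivCongrLeft e).subtypeEquiv fun m => ?_) (fun n => 2 * ψ n) (fun m => ?_)
    (fun m => ?_) n
  · rw [e.forall_congr_left]
    refine forall_congr' fun y => ?_
    have h1 := he (e.symm y)
    rw [e.apply_symm_apply] at h1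
    rw [h1, Int.odd_add]
    simp
  · obtain ⟨m, hm⟩ := m
    show ((Finsupp.equivMapDomain e m).sum fun x n => n • G'.cls x) = m.sum fun x n => n • G.cls x
    rw [Finsupp.sum_equivMapDomain]
    simp only [hc]
  · obtain ⟨m, hm⟩ := m
    show ((Finsupp.equivMapDomain e m).sum fun x n => (n : ℤ) * G'.ex x) -
      ((Finsupp.equivMapDomain e m).sum fun x n => (Finsupp.equivMapDomain e m).sum fun y l =>
        (n : ℤ) * l * max (om (G'.cls x) (G'.cls y)) 0) =
      (m.sum fun x n => (n : ℤ) * G.ex x) - (m.sum fun x n => m.sum fun y l =>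
        (n : ℤ) * l * max (om (G.cls x) (G.cls y)) 0) + 2 * ψ (m.sum fun x n => n • G.cls x)
    simp only [Finsupp.sum_equivMapDomain, hc, he]
    simp only [Finsupp.sum, map_sum, map_nsmul, nsmul_eq_mul, mul_add, Finset.sum_add_distrib,
      Finset.mul_sum]
    rw [Finset.sum_congr rfl fun x _ => mul_left_comm (m x : ℤ) 2 (ψ (G.cls x))]
    ring
theorem M_equiv (e : G.T ≃ G'.T) (hc : ∀ t, G'.cls (e t) = G.cls t)
    (he : ∀ t, G'.ex (e t) = G.ex t) : G'.M.gf = G.M.gf := by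
  funext n
  have := mon_equiv (G := G.tow) (G' := G'.tow) (e.prodCongr (Equiv.refl ℕ)) 0 (fun t => hc t.1)
    (fun t => by
      show G'.ex (e t.1) + 2 * (t.2 : ℤ) = G.ex t.1 + 2 * (t.2 : ℤ) + _
      rw [he]; simp) n
  rw [AddMonoidHom.zero_apply, mul_zero, U_zero, one_mul] at this
  exact this
theorem sum_split {α M : Type} [AddCommMonoid M] (p : α → Prop) (m : α →₀ ℕ) (F : α → ℕ → M) :
    m.sum F = ((m.subtypeDomain p).sum fun x => F x.1) +
      (m.subtypeDomain fun x => ¬ p x).sum fun x => F x.1 := by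
  simp only [Finsupp.sum, Finsupp.support_subtypeDomain, Finsupp.subtypeDomain_apply]
  rw [Finset.sum_subtype_eq_sum_filter (fun x => F x (m x)),
    Finset.sum_subtype_eq_sum_filter (fun x => F x (m x)), Finset.sum_filter_add_sum_filter_not]
theorem mon_split (h : G.Fam C) (p : G.T → Prop)
    (hp : ∀ x y, p x → ¬ p y → om (G.cls x) (G.cls y) ≤ 0) :
    G.mon.gf = conv (G.res p).mon.gf (G.res fun x => ¬ p x).mon.gf := by
  rw [← gf_prod (mon_In (res_Fam h p)) (mon_In (res_Fam h _))]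
  funext n
  let φ : G.mon.T → ((G.res p).mon.prod (G.res fun x => ¬ p x).mon).T := fun m =>
    (⟨m.1.subtypeDomain p, fun x hx => m.2 x.1 hx⟩,
      ⟨m.1.subtypeDomain fun x => ¬ p x, fun x hx => m.2 x.1 hx⟩)
  have hφ : Function.Bijective φ := by
    constructor
    · intro m m' e
      have e1 := congrArg (fun t => t.1.1) e
      have e2 := congrArg (fun t => t.2.1) e
      refine Subtype.ext (Finsupp.ext fun x => ?_)
      by_cases hx : p x
      · exact DFunLike.congr_fun e1 ⟨x, hx⟩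
      · exact DFunLike.congr_fun e2 ⟨x, hx⟩
    · rintro ⟨⟨m1, h1⟩, m2, h2⟩
      refine ⟨⟨Finsupp.piecewise (P := p) m1 m2, fun x hx => ?_⟩, Prod.ext
        (Subtype.ext (Finsupp.subtypeDomain_piecewise (P := p) m1 m2))
        (Subtype.ext (Finsupp.subtypeDomain_not_piecewise (P := p) m1 m2))⟩
      by_cases hx' : p x
      · exact (DFunLike.congr_fun (Finsupp.subtypeDomain_piecewise (P := p) m1 m2)
          ⟨x, hx'⟩).le.trans (h1 ⟨x, hx'⟩ hx)
      · exact (DFunLike.congr_fun (Finsupp.subtypeDomain_not_piecewise (P := p) m1 m2)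
          ⟨x, hx'⟩).le.trans (h2 ⟨x, hx'⟩ hx)
  have := gf_equiv (W := G.mon) (W' := (G.res p).mon.prod (G.res fun x => ¬ p x).mon)
    (Equiv.ofBijective φ hφ) (fun _ => 0) 
    (fun m => (sum_split p m.1 fun x n => n • G.cls x).symm) (fun m => ?_) n
  · rw [this, U_zero, one_mul]
  · have e1 := sum_split p m.1 fun x n => (n : ℤ) * G.ex x
    have e2 := (sum_split p m.1 fun x n => m.1.sum fun y l =>
      (n : ℤ) * l * max (om (G.cls x) (G.cls y)) 0).symm
    conv_lhs at e2 =>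
      simp only [sum_split p m.1 fun y l => _ * (l : ℤ) * max (om _ (G.cls y)) 0, Finsupp.sum_add]
    have e3 : ((m.1.subtypeDomain p).sum fun x n => (m.1.subtypeDomain fun x => ¬ p x).sum fun y l =>
        (n : ℤ) * l * max (om (G.cls x.1) (G.cls y.1)) 0) = 0 :=
      Finset.sum_eq_zero fun x _ => Finset.sum_eq_zero fun y _ => by
        dsimp only
        rw [max_eq_right (hp _ _ x.2 y.2), mul_zero]
    have e4 : ((m.1.subtypeDomain fun x => ¬ p x).sum fun x n => (m.1.subtypeDomain p).sum fun y l =>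
        (n : ℤ) * l * max (om (G.cls x.1) (G.cls y.1)) 0) =
        - om ((m.1.subtypeDomain p).sum fun x n => n • G.cls x.1)
          ((m.1.subtypeDomain fun x => ¬ p x).sum fun x n => n • G.cls x.1) := by
      rw [← om_skew]
      simp only [Finsupp.sum, om, map_sum, map_nsmul, AddMonoidHom.finsetSum_apply,
        AddMonoidHom.nsmul_apply, nsmul_eq_mul, Finset.mul_sum]
      rw [Finset.sum_comm]
      refine Finset.sum_congr rfl fun y _ => Finset.sum_congr rfl fun x _ => ?_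
      have h1 := hp _ _ y.2 x.2
      rw [om_skew] at h1
      rw [max_eq_left (by simpa using h1)]
      ring
    rw [e3, e4] at e2
    show ((m.1.subtypeDomain p).sum fun x n => (n : ℤ) * G.ex x.1) -
      ((m.1.subtypeDomain p).sum fun x n => (m.1.subtypeDomain p).sum fun y l =>
        (n : ℤ) * l * max (om (G.cls x.1) (G.cls y.1)) 0) +
      (((m.1.subtypeDomain fun x => ¬ p x).sum fun x n => (n : ℤ) * G.ex x.1) -
      ((m.1.subtypeDomain fun x => ¬ p x).sum fun x n => (m.1.subtypeDomain fun x => ¬ p x).sum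
        fun y l => (n : ℤ) * l * max (om (G.cls x.1) (G.cls y.1)) 0)) +
      om ((m.1.subtypeDomain p).sum fun x n => n • G.cls x.1)
        ((m.1.subtypeDomain fun x => ¬ p x).sum fun x n => n • G.cls x.1) =
      (m.1.sum fun x n => (n : ℤ) * G.ex x) - (m.1.sum fun x n => m.1.sum fun y l =>
        (n : ℤ) * l * max (om (G.cls x) (G.cls y)) 0) + 0
    linarith
theorem M_split (h : V.Fam C) (p : V.T → Prop)
    (hp : ∀ x y, p x → ¬ p y → om (V.cls x) (V.cls y) ≤ 0) :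
    V.M.gf = conv (V.res p).M.gf (V.res fun x => ¬ p x).M.gf := by
  have key : ∀ q : V.T → Prop, (V.tow.res fun t => q t.1).mon.gf = (V.res q).M.gf := by
    intro q
    funext n
    have := mon_equiv (G := V.tow.res fun t => q t.1) (G' := (V.res q).tow)
      (Equiv.prodSubtypeFstEquivSubtypeProd (p := q)) 0 (fun t => rfl)
      (fun t => (add_zero _).symm) n
    rw [AddMonoidHom.zero_apply, mul_zero, U_zero, one_mul] at this
    exact this.symm
  rw [← key, ← key]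
  exact mon_split (tow_Fam h) (fun t => p t.1) fun x y => hp x.1 y.1
theorem M_empty : (WT.empty N).M.gf = dl 0 1 := by
  let C0 : Cone N := ⟨⊥, 0, fun p hp h0 => absurd (AddSubmonoid.mem_bot.1 hp) h0,
    fun _ => (Set.finite_singleton 0).subset fun p hp => AddSubmonoid.mem_bot.1 hp.1⟩
  obtain ⟨g, hg⟩ := exists_grp_M (empty_Fam (C := C0))
  rw [← hg]
  funext n
  by_cases hn : n = 0
  · rw [hn, g.at0, dl, if_pos rfl]
  · rw [dl, if_neg hn]
    by_contra h0
    exact hn (AddSubmonoid.mem_bot.1 (g.supp n h0))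
/-- three way splitting along a functional -/
theorem mid_M (h : V.Fam C) (η : N →+ ℤ)
    (h1 : ∀ x y, η (V.cls x) < 0 → 0 ≤ η (V.cls y) → om (V.cls x) (V.cls y) ≤ 0)
    (h2 : ∀ x y, η (V.cls x) = 0 → 0 < η (V.cls y) → om (V.cls x) (V.cls y) ≤ 0)
    {g : Grp C} (hg : g.fn = V.M.gf) :
    (mid (Sg.ofHom η) g).fn = (V.res fun x => η (V.cls x) = 0).M.gf := by
  have hr := res_Fam h fun x => ¬ η (V.cls x) < 0
  obtain ⟨a, ha⟩ := exists_grp_M (res_Fam h fun x => η (V.cls x) < 0)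
  obtain ⟨b, hb⟩ := exists_grp_M (res_Fam hr fun x => η (V.cls x.1) = 0)
  obtain ⟨c, hc⟩ := exists_grp_M (res_Fam hr fun x => ¬ η (V.cls x.1) = 0)
  have e1 := M_split h (fun x => η (V.cls x) < 0) fun x y hx hy => h1 x y hx (not_lt.1 hy)
  have e2 := M_split hr (fun x => η (V.cls x.1) = 0) fun x y hx hy =>
    h2 x.1 y.1 hx (lt_of_le_of_ne (not_lt.1 y.2) (Ne.symm hy))
  have e3 : g = a * b * c := by
    rw [mul_assoc]
    refine Grp.ext ?_
    rw [hg, e1, e2, Grp.mul_fn, Grp.mul_fn, ha, hb, hc]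
  have hF : IsF (Sg.ofHom η) a b c := by
    refine ⟨?_, ?_, ?_⟩
    · rw [ha]; exact M_supp fun x => Or.inr (Sg.ofHom_neg.2 x.2)
    · rw [hb]; exact M_supp fun x => Sg.ofHom_nul.2 x.2
    · rw [hc]
      exact M_supp fun x => Or.inr (Sg.ofHom_pos.2 (lt_of_le_of_ne (not_lt.1 x.1.2) (Ne.symm x.2)))
  rw [e3, (fac_unique hF).2.1, hb]
  exact M_equiv ⟨fun x => ⟨⟨x.1, by have := x.2; dsimp only at this; omega⟩, x.2⟩,
    fun x => ⟨x.1.1, x.2⟩, fun _ => rfl, fun _ => rfl⟩ (fun _ => rfl) fun _ => rfl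

end
end Vale.Agent.P066.S
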