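import Vale.Agent.P066.S.Mut

/-!
P066 part S, file Joint (TASK S12): crossing a joint in two mutated diagrams.
* `joint_ord`: `W = mid σ0 g`, `W' = mid σ0 g'`; cast them to the cones `C.sub σ0.ker`,
  `C'.sub σ0.ker`, on which `π > 0` (a class with `π = 0` is a multiple of `k`, and `σ0.neg k`).
  `cmp_eq` with `J = π n - 1` and `τ = ofHom (eta p)` (`mid_lex`, `fac_fn_congr`, `Gen2.lex_eta`, `ih`)
  shows `W = W'` below level `π n`; `cmp` twice (for `eta n` and `- eta n`).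
* `joint_spec`: on the plane `σ0.ker` one has `om k p * π n = om k n * π p` (`Gen2.plucker` with
  `δ = π`), so `om k p > 0` when `π p > 0`.  Let `E`, `E'` be the dilogarithms (`exists_E`).
  Factor `W` along `ofHom (-π)`: `W = Pin * E` (`hi` is trivial since `π ≥ 0`, `mid` is supported on
  `π = 0` where it equals `W`, `mid_eqOn_nul`, `Mut.mid_face`); along `ofHom π`: `W = E * Pout`.
  Similarly `W' = E' * Pin' = Pout' * E'`.  All four `P` are supported in `posP π ⊓ σ0.ker`.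
  For `p` in the plane with `0 < π p ≤ π n`: `mid (eta p) W = mid (eta p) Pin` (`mid_mul_pos`),
  `mid (eta (T p)) W' = mid (eta (T p)) Pin'` (`mid_neg_mul`), `σ0.comap T⁻¹ = σ0`, so `H` and
  `fac_map`, `comap_eta` give the hypothesis of `cmp_eq` for `Pin.map T` and `Pin'` (cast to cones
  intersected with `posP π`): `Pin' (T b) = Pin b` for `π b ≤ π n`.  Then
  `toL Pout = cj E (toL Pin)`, `toL Pout' = cj E'⁻¹ (toL Pin')`; `cj_expand`, reindexing by `T` and `E_E`
  give `Pout = Pout'` on levels `≤ π n`.  Finally `mid (-η) W = mid (-η) Pout` (`mid_neg_mul`),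
  `mid (-η) W' = mid (-η) Pout'` (`mid_mul_pos`) and `cmp`.
-/

namespace Vale.Agent.P066.S
noncomputable section
open Classical

variable {N : Type} [AddCommGroup N] [QL N] {D D' : Diag N} {k : N} {π : N →+ ℤ}

def M1At (D D' : Diag N) (k n : N) : Prop :=
  ∀ σ, Gen σ n → σ.neg k → (mid σ D'.g).fn n = (mid σ D.g).fn n

namespace JointAux

omit [QL N] in
theorem grp_eq_one {C : Cone N} {g : Grp C} (h : ∀ x, g.fn x ≠ 0 → x = 0) : g = 1 := by
  apply Grp.ext
  funext x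
  rw [Grp.one_fn]
  by_cases hx : x = 0
  · subst hx; simp [dl, g.at0]
  · have : g.fn x = 0 := by
      by_contra hc
      exact hx (h x hc)
    simp [dl, hx, this]

theorem split_face {C : Cone N} (π : N →+ ℤ) (hπ : ∀ p ∈ C.P, 0 ≤ π p)
    (hd : Down C {p | π p = 0}) (g E : Grp C) (h0 : ∀ x, π x = 0 → g.fn x = E.fn x)
    (h1 : ∀ x, E.fn x ≠ 0 → π x = 0) :
    g = lo (Sg.ofHom (-π)) g * E ∧ g = E * hi (Sg.ofHom π) g := by
  have hm : ∀ ρ : N →+ ℤ, (∀ x, ρ x = 0 ↔ π x = 0) → mid (Sg.ofHom ρ) g = E := by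
    intro ρ hρ
    apply Grp.ext
    funext x
    by_cases hx : π x = 0
    · rw [← h0 x hx]
      exact mid_eqOn_nul hd (fun z hz _ => Sg.ofHom_nul.2 ((hρ z).2 hz)) hx
    · have e1 : (mid (Sg.ofHom ρ) g).fn x = 0 := by
        by_contra hc
        exact hx ((hρ x).1 (Sg.ofHom_nul.1 ((isF_fac _ g).2.1 x hc)))
      have e2 : E.fn x = 0 := by
        by_contra hc
        exact hx (h1 x hc)
      rw [e1, e2]
  constructor
  · have hh : hi (Sg.ofHom (-π)) g = 1 := grp_eq_one fun x hx => by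
      rcases (isF_fac (Sg.ofHom (-π)) g).2.2 x hx with h | h
      · exact h
      · have := Sg.ofHom_pos.1 h
        have h2 := hπ x ((hi (Sg.ofHom (-π)) g).supp x hx)
        simp at this
        omega
    have := fac_mul (Sg.ofHom (-π)) g
    rw [hh, hm (-π) (by simp), mul_one] at this
    exact this.symm
  · have hh : lo (Sg.ofHom π) g = 1 := grp_eq_one fun x hx => by
      rcases (isF_fac (Sg.ofHom π) g).1 x hx with h | h
      · exact h
      · have := Sg.ofHom_neg.1 h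
        have h2 := hπ x ((lo (Sg.ofHom π) g).supp x hx)
        omega
    have := fac_mul (Sg.ofHom π) g
    rw [hh, hm π (by simp), one_mul] at this
    exact this.symm

omit [QL N] in
theorem mem_posP {π : N →+ ℤ} {x : N} : x ∈ posP π ↔ x = 0 ∨ 0 < π x := by
  rw [posP, Sg.mem_poss, Sg.ofHom_pos]

theorem supp_lo_pos {C : Cone N} (π : N →+ ℤ) (g : Grp C) :
    SuppIn (posP π) (lo (Sg.ofHom (-π)) g).fn := fun x hx => by
  rcases (isF_fac (Sg.ofHom (-π)) g).1 x hx with h | h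
  · exact mem_posP.2 (Or.inl h)
  · have := Sg.ofHom_neg.1 h
    simp at this
    exact mem_posP.2 (Or.inr this)

theorem supp_hi_pos {C : Cone N} (π : N →+ ℤ) (g : Grp C) :
    SuppIn (posP π) (hi (Sg.ofHom π) g).fn := (isF_fac (Sg.ofHom π) g).2.2

omit [QL N] in
theorem sub_pos (C : Cone N) (π : N →+ ℤ) : ∀ p ∈ (C.sub (posP π)).P, p ≠ 0 → 0 < π p :=
  fun _ hp h0 => (mem_posP.1 hp.2).resolve_left h0

/-- `cmp` for elements supported in `posP π` -/
theorem cmp' {C1 C2 : Cone N} (π : N →+ ℤ) (A : Grp C1) (B : Grp C2)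
    (hA : SuppIn (posP π) A.fn) (hB : SuppIn (posP π) B.fn) {n : N} {τ : Sg N}
    (hAB : ∀ p, π p < π n → A.fn p = B.fn p) (hn : τ.nul n) :
    (mid τ A).fn n - A.fn n = (mid τ B).fn n - B.fn n := by
  have := cmp π (sub_pos C1 π) (sub_pos C2 π)
    (A.cast (C1.sub (posP π)) fun x hx => ⟨A.supp x hx, hA x hx⟩)
    (B.cast (C2.sub (posP π)) fun x hx => ⟨B.supp x hx, hB x hx⟩) hAB hn
  rw [(fac_fn_congr (g := A) (h := A.cast (C1.sub (posP π)) fun x hx => ⟨A.supp x hx, hA x hx⟩)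
    rfl τ).2.1, (fac_fn_congr (g := B)
    (h := B.cast (C2.sub (posP π)) fun x hx => ⟨B.supp x hx, hB x hx⟩) rfl τ).2.1]
  exact this

theorem cmp_eq' {C1 C2 : Cone N} (π : N →+ ℤ) (A : Grp C1) (B : Grp C2)
    (hA : SuppIn (posP π) A.fn) (hB : SuppIn (posP π) B.fn) (J : ℤ)
    (h : ∀ p, 0 < π p → π p ≤ J → A.fn p = B.fn p ∨
      ∃ τ : Sg N, τ.nul p ∧ (mid τ A).fn p = (mid τ B).fn p) :
    ∀ p, π p ≤ J → A.fn p = B.fn p := by
  refine cmp_eq π (sub_pos C1 π) (sub_pos C2 π)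
    (A.cast (C1.sub (posP π)) fun x hx => ⟨A.supp x hx, hA x hx⟩)
    (B.cast (C2.sub (posP π)) fun x hx => ⟨B.supp x hx, hB x hx⟩) J fun p h1 h2 => ?_
  rcases h p h1 h2 with h3 | ⟨τ, h3, h4⟩
  · exact Or.inl h3
  · refine Or.inr ⟨τ, h3, ?_⟩
    rw [← (fac_fn_congr (g := A)
      (h := A.cast (C1.sub (posP π)) fun x hx => ⟨A.supp x hx, hA x hx⟩) rfl τ).2.1,
      ← (fac_fn_congr (g := B)
      (h := B.cast (C2.sub (posP π)) fun x hx => ⟨B.supp x hx, hB x hx⟩) rfl τ).2.1]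
    exact h4

theorem om_nsmul (j : ℕ) (a b : N) : om (j • a) b = j * om a b := by
  simp [om]

theorem om_neg (a b : N) : om (-a) b = - om a b := by
  simp [om]

theorem pi_tv {π : N →+ ℤ} {k : N} (hk : π k = 0) (x : N) : π (tv k x) = π x := by
  simp [tv_apply, hk]

end JointAux
open JointAux

theorem joint_ord (h : Mut D D' k π) {n m : N} (_hn : 0 < π n)
    (ih : ∀ p, 0 < π p → π p < π n → M1At D D' k p) {σ0 : Sg N} (h2 : Gen2 σ0 n m)
    (hm : om m n ≠ 0) (hk : σ0.neg k)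
    (he : (mid (σ0.lex (Sg.ofHom (eta n))) D'.g).fn n =
      (mid (σ0.lex (Sg.ofHom (eta n))) D.g).fn n) :
    (mid (σ0.lex (Sg.ofHom (-eta n))) D'.g).fn n =
      (mid (σ0.lex (Sg.ofHom (-eta n))) D.g).fn n := by
  have hA : SuppIn (posP π) (mid σ0 D.g).fn := fun x hx => by
    have hP := (mid σ0 D.g).supp x hx
    have hN : σ0.nul x := (isF_fac σ0 D.g).2.1 x hx
    rcases (h.pi_nn x hP).lt_or_eq with h1 | h1
    · exact mem_posP.2 (Or.inr h1)
    · obtain ⟨j, rfl⟩ := h.pi_zero x hP h1.symm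
      rcases Nat.eq_zero_or_pos j with rfl | hj
      · exact mem_posP.2 (Or.inl (by simp))
      · rw [← natCast_zsmul] at hN
        exact absurd ((Sg.neg_zsmul_iff (by exact_mod_cast hj)).2 hk) (Sg.not_neg_of_nul hN)
  have hB : SuppIn (posP π) (mid σ0 D'.g).fn := fun x hx => by
    have hP := (mid σ0 D'.g).supp x hx
    have hN : σ0.nul x := (isF_fac σ0 D'.g).2.1 x hx
    rcases (h.pi_nn' x hP).lt_or_eq with h1 | h1
    · exact mem_posP.2 (Or.inr h1)
    · obtain ⟨j, rfl⟩ := h.pi_zero' x hP h1.symm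
      rcases Nat.eq_zero_or_pos j with rfl | hj
      · exact mem_posP.2 (Or.inl (by simp))
      · rw [← natCast_zsmul] at hN
        exact absurd ((Sg.pos_zsmul_iff (by exact_mod_cast hj)).2 (Sg.pos_neg_iff.2 hk))
          (Sg.not_pos_of_nul hN)
  have low := cmp_eq' π (mid σ0 D.g) (mid σ0 D'.g) hA hB (π n - 1) fun p h1 h3 => by
    by_cases hp : σ0.nul p
    · have hp0 : p ≠ 0 := by rintro rfl; simp at h1
      refine Or.inr ⟨Sg.ofHom (eta p), Sg.ofHom_nul.2 (om_self p), ?_⟩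
      rw [← mid_lex, ← mid_lex]
      exact (ih p h1 (by omega) _ (h2.lex_eta hm hp hp0) (Sg.lex_neg.2 (Or.inl hk))).symm
    · left
      have e1 : (mid σ0 D.g).fn p = 0 := by
        by_contra hc
        exact hp ((isF_fac σ0 D.g).2.1 p hc)
      have e2 : (mid σ0 D'.g).fn p = 0 := by
        by_contra hc
        exact hp ((isF_fac σ0 D'.g).2.1 p hc)
      rw [e1, e2]
  have c1 := cmp' π _ _ hA hB (τ := Sg.ofHom (eta n)) (n := n) (fun p hp => low p (by omega))
    (Sg.ofHom_nul.2 (om_self n))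
  have c2 := cmp' π _ _ hA hB (τ := Sg.ofHom (-eta n)) (n := n) (fun p hp => low p (by omega))
    (Sg.ofHom_nul.2 (by simp [eta_apply, om_self]))
  rw [mid_lex, mid_lex] at he ⊢
  linear_combination c1 - c2 + he

theorem joint_spec (h : Mut D D' k π) {n m : N} (hn : 0 < π n) (hkn : 0 < om k n) {σ0 : Sg N}
    (h2 : Gen2 σ0 n m) (hm : om m n ≠ 0) (hk : σ0.nul k)
    (H : ∀ p, 0 < π p → π p ≤ π n → 0 < om k p → ∀ σ, Gen σ p → σ.pos k →
      (mid (σ.comap (tv k).symm.toAddMonoidHom) D'.g).fn (tv k p) = (mid σ D.g).fn p) :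
    (mid (σ0.lex (Sg.ofHom (-eta n))) D'.g).fn n =
      (mid (σ0.lex (Sg.ofHom (-eta n))) D.g).fn n := by
  obtain ⟨E, hE⟩ := exists_E h.kP h.k_ne
  obtain ⟨E', hE'⟩ := exists_E h.kP' (neg_ne_zero.2 h.k_ne)
  have hnn : σ0.nul n := (h2 n).2 ⟨1, 1, 0, one_ne_zero, by simp⟩
  have hpos : ∀ p, σ0.nul p → 0 < π p → 0 < om k p := by
    intro p hp h0
    have := h2.plucker π hk hp hnn
    rw [h.pik] at this
    by_contra hc
    rw [not_lt] at hc
    nlinarith [mul_pos hkn h0, mul_nonneg (neg_nonneg.2 hc) hn.le]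
  have hEs : ∀ x, E.fn x ≠ 0 → ∃ j : ℕ, x = j • k := fun x hx => Efn_ne_zero (hE ▸ hx)
  have hEs' : ∀ x, E'.fn x ≠ 0 → ∃ j : ℕ, x = j • (-k) := fun x hx => Efn_ne_zero (hE' ▸ hx)
  have hE0 : ∀ x, E.fn x ≠ 0 → π x = 0 := fun x hx => by
    obtain ⟨j, rfl⟩ := hEs x hx
    simp [h.pik]
  have hE0' : ∀ x, E'.fn x ≠ 0 → π x = 0 := fun x hx => by
    obtain ⟨j, rfl⟩ := hEs' x hx
    simp [h.pik]
  -- sign conditions on the dilogarithms
  have Epos : ∀ ρ : N →+ ℤ, 0 < ρ k → SuppIn (Sg.ofHom ρ).poss E.fn := fun ρ hρ x hx => by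
    obtain ⟨j, rfl⟩ := hEs x hx
    rcases Nat.eq_zero_or_pos j with rfl | hj
    · exact Or.inl (by simp)
    · refine Or.inr (Sg.ofHom_pos.2 ?_)
      rw [map_nsmul, nsmul_eq_mul]
      exact mul_pos (by exact_mod_cast hj) hρ
  have Eneg : ∀ ρ : N →+ ℤ, ρ k < 0 → SuppIn (Sg.ofHom ρ).negs E.fn := fun ρ hρ x hx => by
    obtain ⟨j, rfl⟩ := hEs x hx
    rcases Nat.eq_zero_or_pos j with rfl | hj
    · exact Or.inl (by simp)
    · refine Or.inr (Sg.ofHom_neg.2 ?_)
      rw [map_nsmul, nsmul_eq_mul]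
      exact mul_neg_of_pos_of_neg (by exact_mod_cast hj) hρ
  have Epos' : ∀ ρ : N →+ ℤ, ρ k < 0 → SuppIn (Sg.ofHom ρ).poss E'.fn := fun ρ hρ x hx => by
    obtain ⟨j, rfl⟩ := hEs' x hx
    rcases Nat.eq_zero_or_pos j with rfl | hj
    · exact Or.inl (by simp)
    · refine Or.inr (Sg.ofHom_pos.2 ?_)
      rw [map_nsmul, nsmul_eq_mul, map_neg]
      exact mul_pos (by exact_mod_cast hj) (by omega)
  have Eneg' : ∀ ρ : N →+ ℤ, 0 < ρ k → SuppIn (Sg.ofHom ρ).negs E'.fn := fun ρ hρ x hx => by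
    obtain ⟨j, rfl⟩ := hEs' x hx
    rcases Nat.eq_zero_or_pos j with rfl | hj
    · exact Or.inl (by simp)
    · refine Or.inr (Sg.ofHom_neg.2 ?_)
      rw [map_nsmul, nsmul_eq_mul, map_neg]
      exact mul_neg_of_pos_of_neg (by exact_mod_cast hj) (by omega)
  obtain ⟨s1, s2⟩ := split_face π h.pi_nn h.down (mid σ0 D.g) E
    (fun x hx => by rw [hE]; exact h.mid_face hk hx) hE0
  obtain ⟨s3, s4⟩ := split_face π h.pi_nn' h.down' (mid σ0 D'.g) E'
    (fun x hx => by rw [hE']; exact h.mid_face' hk hx) hE0'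
  have kin := supp_lo (isF_fac σ0 D.g).2.1 (Sg.ofHom (-π))
  have kin' := supp_hi (isF_fac σ0 D'.g).2.1 (Sg.ofHom π)
  have pin := supp_lo_pos π (mid σ0 D.g)
  have pin' := supp_hi_pos π (mid σ0 D'.g)
  have pout := supp_hi_pos π (mid σ0 D.g)
  have pout' := supp_lo_pos π (mid σ0 D'.g)
  generalize lo (Sg.ofHom (-π)) (mid σ0 D.g) = Pin at s1 kin pin
  generalize hi (Sg.ofHom π) (mid σ0 D.g) = Pout at s2 pout
  generalize lo (Sg.ofHom (-π)) (mid σ0 D'.g) = Pout' at s3 pout'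
  generalize hi (Sg.ofHom π) (mid σ0 D'.g) = Pin' at s4 kin' pin'
  have nul_tv : ∀ x, σ0.nul (tv k x) ↔ σ0.nul x := fun x => by
    constructor
    · intro hx
      have := Sg.nul_add hx (Sg.nul_zsmul (-om k x) hk)
      rwa [tv_apply, neg_smul, add_neg_cancel_right] at this
    · intro hx
      exact Sg.nul_add hx (Sg.nul_zsmul _ hk)
  have hσ : σ0.comap (tv k).symm.toAddMonoidHom = σ0 := Sg.ext' fun x => by
    change σ0.nn (x - om k x • k) ↔ σ0.nn x
    constructor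
    · intro hx
      have := σ0.nn_add _ _ hx (Sg.nul_zsmul (om k x) hk).1
      rwa [sub_add_cancel] at this
    · intro hx
      rw [sub_eq_add_neg]
      exact σ0.nn_add _ _ hx (Sg.nul_zsmul (om k x) hk).2
  have hin : ∀ b, π b ≤ π n → Pin.fn b = Pin'.fn (tv k b) := by
    intro b hb
    have := cmp_eq' π (Pin.map (tv k)) Pin' (fun x hx => ?_) pin' (π n) (fun p' h1 h3 => ?_)
      (tv k b) (by rwa [pi_tv h.pik])
    · simpa [Grp.map] using this
    · obtain ⟨p, rfl⟩ := (tv k).surjective x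
      have hx' : Pin.fn p ≠ 0 := by simpa [Grp.map] using hx
      rcases mem_posP.1 (pin p hx') with rfl | h1
      · exact mem_posP.2 (Or.inl (map_zero _))
      · exact mem_posP.2 (Or.inr (by rwa [pi_tv h.pik]))
    · obtain ⟨p, rfl⟩ := (tv k).surjective p'
      rw [pi_tv h.pik] at h1 h3
      by_cases hp : σ0.nul p
      · have hp0 : p ≠ 0 := by rintro rfl; simp at h1
        have hkp := hpos p hp h1
        refine Or.inr ⟨Sg.ofHom (eta (tv k p)), Sg.ofHom_nul.2 (om_self _), ?_⟩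
        have e1 : (mid (Sg.ofHom (eta (tv k p))) (Pin.map (tv k))).fn (tv k p) =
            (mid (Sg.ofHom (eta p)) Pin).fn p := by
          rw [← comap_eta (pres_tv k), (fac_map (pres_tv k) _ Pin).2.1]
          simp [Grp.map]
        have e2 := H p h1 h3 hkp _ (h2.lex_eta hm hp hp0)
          (Sg.lex_pos.2 (Or.inr ⟨hk, Sg.ofHom_pos.2 hkp⟩))
        rw [Sg.comap_lex, hσ, comap_eta (pres_tv k), mid_lex, mid_lex, s1, s4,
          mid_mul_pos (Epos _ hkp), mid_neg_mul (Eneg' _ (by rw [eta_apply, om_tv]; exact hkp))]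
          at e2
        rw [e1, e2]
      · left
        have e1 : Pin.fn p = 0 := by
          by_contra hc
          exact hp (kin p hc)
        have e2 : Pin'.fn (tv k p) = 0 := by
          by_contra hc
          exact hp ((nul_tv p).1 (kin' _ hc))
        simp [Grp.map, e1, e2]
  have hout : ∀ x, π x ≤ π n → Pout.fn x = Pout'.fn x := by
    intro x hx
    have a1 : Pout = E⁻¹ * Pin * E := by
      rw [mul_assoc, ← s1, s2]; simp
    have a2 : Pout' = (E'⁻¹)⁻¹ * Pin' * E'⁻¹ := by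
      rw [inv_inv, ← s4, s3]; simp
    have b1 : Pout.fn x = ∑ᶠ b, Pin.fn b * (cj E (Xm D.C b)).fn x := by
      rw [← toL_fn Pout, a1, ← cj_toL, cj_expand]; rfl
    have b2 : Pout'.fn x = ∑ᶠ b, Pin'.fn b * (cj E'⁻¹ (Xm D'.C b)).fn x := by
      rw [← toL_fn Pout', a2, ← cj_toL, cj_expand]; rfl
    have b3 : ∑ᶠ b, Pin'.fn (tv k b) * (cj E'⁻¹ (Xm D'.C (tv k b))).fn x =
        ∑ᶠ b, Pin'.fn b * (cj E'⁻¹ (Xm D'.C b)).fn x :=
      finsum_comp_equiv (tv k).toEquiv (f := fun b => Pin'.fn b * (cj E'⁻¹ (Xm D'.C b)).fn x)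
    rw [b1, b2, ← b3]
    refine finsum_congr fun b => ?_
    by_cases hb : π b = π x
    · rw [← hin b (by omega)]
      by_cases h0 : Pin.fn b = 0
      · rw [h0, zero_mul, zero_mul]
      · have : 0 ≤ om k b := by
          rcases mem_posP.1 (pin b h0) with rfl | h1
          · simp [om]
          · exact (hpos b (kin b h0) h1).le
        rw [E_E h.k_ne hE hE' this]
        rfl
    · have z1 : (ker E b).fn (x - b) = 0 := by
        by_contra hc
        have := supp_ker (Q := (Sg.ofHom π).ker) (fun y hy => Sg.ofHom_nul.2 (hE0 y hy)) b _ hc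
        have := Sg.ofHom_nul.1 this
        rw [map_sub] at this
        omega
      have z2 : (ker E'⁻¹ (tv k b)).fn (x - tv k b) = 0 := by
        by_contra hc
        have := supp_ker (Q := (Sg.ofHom π).ker)
          (supp_inv fun y hy => Sg.ofHom_nul.2 (hE0' y hy)) _ _ hc
        have := Sg.ofHom_nul.1 this
        rw [map_sub, pi_tv h.pik] at this
        omega
      rw [cj_Xm_fn, cj_Xm_fn, z1, z2]
      simp
  have hneg : (-eta n) k < 0 := by
    simp only [AddMonoidHom.neg_apply, eta_apply]; omega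
  have c := cmp' π Pout Pout' pout pout' (τ := Sg.ofHom (-eta n)) (n := n)
    (fun p hp => hout p hp.le) (Sg.ofHom_nul.2 (by simp [eta_apply, om_self]))
  rw [mid_lex, mid_lex, s2, s3, mid_neg_mul (Eneg _ hneg), mid_mul_pos (Epos' _ hneg)]
  linear_combination -hout n le_rfl - c

end
end Vale.Agent.P066.S
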