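import Vale.Agent.P066.S.Joint

/-!
P066 part S, file M1 (TASK S13): mutation invariance.
* `m1`: strong induction on `π n`, for all mutation data `(D, D', k)` at once (`π` fixed).
  Stage 1 (`om k n ≤ 0`): `flow` with `d = n`, `η = eta n`, `X = {k}`,
  `Z = {p ∈ P, deg p ≤ deg n} ∪ {p ∈ P', deg' p ≤ deg' n}` (`fac_eqOn`), end: `init`, `Mut.inMu`,
  `mu_of_nonpos`; step `joint_ord`.  Stage 2 (`om k n > 0`): `flow` with `X = ∅`, `k` added to `Z`,
  `Q σ := σ.neg k → equality`; the end is vacuous; in the step either `σ0.neg k` (`joint_ord`) or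
  `σ0.nul k` (`joint_spec`, whose hypothesis `H` is `M1At` for `Mut.symm` at `tv k p`: induction
  hypothesis if `π p < π n`, stage 1 if `π p = π n`; `fac_map`, `Gen.comap`).
* `m1_fn`: for `n ≠ 0` with `σ.nul n` use `Gen.of_nul`; classes with `π n ≤ 0` do not occur.
* `m2`: fix `b`; `flow` with `d = 0`, `X = {k}`, `η = c • π - deg` with `c` larger than `deg` on the
  finite sets involved, `Q σ :=` equality at all `x` with `deg x ≤ deg b` and `deg' x ≤ deg' b`
  (`Adm.exists_deg`, `phi_loc`).  End: `lo g ≡ E` and `lo g' ≡ 1` in low degree (write the comparison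
  with `fac_eqOn` to `(ofHom π).lex (ofHom (-deg))`, or use `loc_fac` with `g = E * 1 * (E⁻¹ g)`),
  `cj_loc`.  Step: `w = mid σ0 g`, `w' = mid σ0 g'` have the same function (`m1_fn`), so
  `c = (lo η w)⁻¹ * lo (-η) w` and `c'` have the same function (`fac_fn_congr`, `inv_fn_congr`),
  `phi σ- = cj c (phi σ+)` (`phi_lex`, `cj_mul_grp`), `cj_cone`.
* `alpha_mut`: if `om k a ≤ 0` use `exists_gen_neg`, `alpha_lex`, `m2`; otherwise apply this to
  `Mut.symm` and `f.map (tv k)`, `alpha_map`.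
-/

namespace Vale.Agent.P066.S
noncomputable section
open Classical

variable {N : Type} [AddCommGroup N] [QL N] {D D' : Diag N} {k : N} {π : N →+ ℤ}

theorem m1_mid_loc {C : Cone N} (g : Grp C) (n : N) {σ τ : Sg N} {Z : Set N} (hZ : σ.Agree τ Z)
    (hsub : ∀ p, p ∈ C.P → C.deg p ≤ C.deg n → p ∈ Z) : (mid σ g).fn n = (mid τ g).fn n := by
  have h := fac_eqOn (σ := σ) (τ := τ) (g := g) (g' := g) (down_le C (C.deg n))
    (fun _ _ => rfl) (hZ.mono fun p hp => hsub p hp.2 hp.1)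
  exact h.2.1 (show C.deg n ≤ C.deg n from le_rfl)

/-- the finite set of classes that can influence the coefficient at `n` in either diagram -/
def m1Z (D D' : Diag N) (R R' : ℤ) : Set N :=
  {p | p ∈ D.C.P ∧ D.C.deg p ≤ R} ∪ {p | p ∈ D'.C.P ∧ D'.C.deg p ≤ R'}

theorem m1Z_finite (D D' : Diag N) (R R' : ℤ) : (m1Z D D' R R').Finite :=
  (D.C.fin R).union (D'.C.fin R')

theorem m1_stage1 (h : Mut D D' k π) {n : N} (hn : 0 < π n) (hkn : om k n ≤ 0)
    (ih : ∀ p, 0 < π p → π p < π n → M1At D D' k p) : M1At D D' k n := by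
  have hn0 : n ≠ 0 := by
    rintro rfl
    simp at hn
  intro σ hσ hk
  refine flow (eta n) n (om_self n) (m1Z D D' (D.C.deg n) (D'.C.deg n)) (m1Z_finite _ _ _ _) {k}
    ?_ (fun σ => (mid σ D'.g).fn n = (mid σ D.g).fn n) ?_ ?_ ?_ σ hσ ?_
  · rintro x rfl
    exact hkn
  · intro σ τ _ _ _ _ hag hQ
    rw [← m1_mid_loc D'.g n hag fun p hp hd => Or.inr ⟨hp, hd⟩,
      ← m1_mid_loc D.g n hag fun p hp hd => Or.inl ⟨hp, hd⟩]
    exact hQ
  · intro σ hσ _
    rw [D'.init n hn0 σ hσ, D.init n hn0 σ hσ, ← h.inMu n hn, mu_of_nonpos hkn]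
  · intro σ0 m hm h2 hX hQ
    exact joint_ord h hn ih h2 (ne_of_gt hm) (hX k rfl) hQ
  · rintro x rfl
    exact hk

theorem m1_tv_symm_neg (k : N) : (tv k).symm (-k) = -k := by
  rw [tv_symm_apply]
  have : om k (-k) = 0 := by simp [om, QL.om_self]
  rw [this]
  simp

theorem m1_pi_tv (h : Mut D D' k π) (p : N) : π (tv k p) = π p := by
  rw [tv_apply, map_add, map_zsmul, h.pik]
  simp

theorem m1_om_neg_tv (k p : N) : om (-k) (tv k p) = - om k p := by
  rw [← om_tv k p]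
  simp [om]

theorem m1_H {p : N} (hM : M1At D' (D.map (tv k) (pres_tv k)) (-k) (tv k p)) (σ : Sg N)
    (hσ : Gen σ p) (hk : σ.pos k) :
    (mid (σ.comap (tv k).symm.toAddMonoidHom) D'.g).fn (tv k p) = (mid σ D.g).fn p := by
  have hneg : (σ.comap (tv k).symm.toAddMonoidHom).neg (-k) := by
    rw [Sg.comap_neg]
    change σ.neg ((tv k).symm (-k))
    rw [m1_tv_symm_neg, Sg.neg_neg_iff]
    exact hk
  have h1 := hM _ (hσ.comap (tv k)) hneg
  rw [← h1]
  change (mid (σ.comap (tv k).symm.toAddMonoidHom) (D.g.map (tv k))).fn (tv k p) = _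
  rw [(fac_map (pres_tv k) σ D.g).2.1]
  change (mid σ D.g).fn ((tv k).symm (tv k p)) = _
  rw [AddEquiv.symm_apply_apply]

theorem m1_stage2 (h : Mut D D' k π) {n : N} (hn : 0 < π n) (hkn : 0 < om k n)
    (ih : ∀ p, 0 < π p → π p < π n → M1At D D' k p)
    (ih' : ∀ p, 0 < π p → π p < π n → M1At D' (D.map (tv k) (pres_tv k)) (-k) p) :
    M1At D D' k n := by
  intro σ hσ
  refine flow (eta n) n (om_self n) (insert k (m1Z D D' (D.C.deg n) (D'.C.deg n)))
    ((m1Z_finite _ _ _ _).insert k) ∅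
    ?_ (fun σ => σ.neg k → (mid σ D'.g).fn n = (mid σ D.g).fn n) ?_ ?_ ?_ σ hσ ?_
  · intro x hx
    exact hx.elim
  · intro σ τ _ _ _ _ hag hQ hτ
    rw [← m1_mid_loc D'.g n hag fun p hp hd => Or.inr (Or.inr ⟨hp, hd⟩),
      ← m1_mid_loc D.g n hag fun p hp hd => Or.inr (Or.inl ⟨hp, hd⟩)]
    exact hQ ((Sg.agree_iff.1 hag k (Or.inl rfl)).1.2 hτ)
  · intro σ _ _ hneg
    exfalso
    rcases Sg.lex_neg.1 hneg with h1 | h1
    · have := Sg.ofHom_neg.1 h1
      rw [eta_apply] at this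
      omega
    · have := Sg.ofHom_nul.1 h1.1
      rw [eta_apply] at this
      omega
  · intro σ0 m hm h2 _ hQ hneg
    rcases Sg.lex_neg.1 hneg with h1 | h1
    · exact joint_ord h hn ih h2 (ne_of_gt hm) h1 (hQ (Sg.lex_neg.2 (Or.inl h1)))
    · refine joint_spec h hn hkn h2 (ne_of_gt hm) h1.1 fun p hp hpn hkp τ hτ hτk => ?_
      refine m1_H ?_ τ hτ hτk
      have hπ : π (tv k p) = π p := m1_pi_tv h p
      rcases hpn.lt_or_eq with hlt | heq
      · exact ih' _ (hπ ▸ hp) (hπ ▸ hlt)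
      · refine m1_stage1 h.symm (hπ ▸ hp) ?_ fun q hq hq' => ih' q hq ?_
        · rw [m1_om_neg_tv]
          omega
        · rw [hπ, heq] at hq'
          exact hq'
  · intro x hx
    exact hx.elim

theorem m1_aux (π : N →+ ℤ) (j : ℕ) : ∀ (D D' : Diag N) (k : N), Mut D D' k π →
    ∀ n, 0 < π n → π n ≤ j → M1At D D' k n := by
  induction j with
  | zero =>
    intro D D' k _ n hn hj
    simp only [Nat.cast_zero] at hj
    omega
  | succ j ihj =>
    intro D D' k h n hn hj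
    have hlt : ∀ p, π p < π n → π p ≤ j := fun p hp => by
      push_cast at hj
      omega
    by_cases hkn : om k n ≤ 0
    · exact m1_stage1 h hn hkn fun p hp hpn => ihj D D' k h p hp (hlt p hpn)
    · exact m1_stage2 h hn (not_le.1 hkn) (fun p hp hpn => ihj D D' k h p hp (hlt p hpn))
        fun p hp hpn => ihj _ _ _ h.symm p hp (hlt p hpn)

theorem m1 (h : Mut D D' k π) {n : N} (hn : 0 < π n) : M1At D D' k n :=
  m1_aux π (π n).toNat D D' k h n hn (Int.self_le_toNat _)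

theorem m1_fn (h : Mut D D' k π) {σ : Sg N} {m : N} (hσ : Gen σ m) (hk : σ.neg k) :
    (mid σ D'.g).fn = (mid σ D.g).fn := by
  funext n
  by_cases hn0 : n = 0
  · rw [hn0, Grp.at0, Grp.at0]
  by_cases hnul : σ.nul n
  · by_cases hn : 0 < π n
    · exact m1 h hn σ (hσ.of_nul hnul hn0) hk
    · have key : ∀ j : ℕ, ∀ k' : N, (σ.nul k' → σ.nul k) → n ≠ j • k' := by
        intro j k' hk' e
        have hj : (j : ℤ) ≠ 0 := by
          intro hj
          have : j = 0 := by exact_mod_cast hj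
          exact hn0 (by rw [e, this, zero_smul])
        rw [e, ← natCast_zsmul, Sg.nul_zsmul_iff hj] at hnul
        exact Sg.not_neg_of_nul (hk' hnul) hk
      have h1 : (mid σ D.g).fn n = 0 := by
        by_contra hne
        have hP := (mid σ D.g).supp n hne
        obtain ⟨j, hj⟩ := h.pi_zero n hP (le_antisymm (not_lt.1 hn) (h.pi_nn n hP))
        exact key j k id hj
      have h2 : (mid σ D'.g).fn n = 0 := by
        by_contra hne
        have hP := (mid σ D'.g).supp n hne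
        obtain ⟨j, hj⟩ := h.pi_zero' n hP (le_antisymm (not_lt.1 hn) (h.pi_nn' n hP))
        exact key j (-k) Sg.nul_neg_iff.1 hj
      rw [h1, h2]
  · have h1 : (mid σ D.g).fn n = 0 := by
      by_contra hne
      exact hnul ((isF_fac σ D.g).2.1 n hne)
    have h2 : (mid σ D'.g).fn n = 0 := by
      by_contra hne
      exact hnul ((isF_fac σ D'.g).2.1 n hne)
    rw [h1, h2]

/-- passing from one side of a wall to the other -/
theorem m2_cross {C : Cone N} (σ0 τ τ' : Sg N) (g : Grp C) (f : L C) :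
    phi (σ0.lex τ') g f =
      cj ((lo τ (mid σ0 g))⁻¹ * lo τ' (mid σ0 g)) (phi (σ0.lex τ) g f) := by
  rw [phi_lex, phi_lex, ← cj_mul_grp, mul_inv_cancel_left]

omit [QL N] in
theorem m2_one_ne {C : Cone N} {z : N} (h : (1 : Grp C).fn z ≠ 0) : z = 0 := by
  by_contra hz
  exact h (by simp [Grp.one_fn, dl, hz])

/-- the end of the flow, first diagram -/
theorem m2_end (h : Mut D D' k π) {E : Grp D.C} (hE : E.fn = Efn k) {τ : Sg N} (hk : τ.neg k)
    {R : ℤ} (hτ : ∀ p ∈ D.C.P, D.C.deg p ≤ R → 0 < π p → τ.pos p) :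
    ∀ p, D.C.deg p ≤ R → (lo τ D.g).fn p = E.fn p := by
  have hF := isF_fac τ D.g
  have key := loc_fac (σ := τ) (a := lo τ D.g) (b := mid τ D.g) (c := hi τ D.g) (a' := E)
    (b' := 1) (c' := E⁻¹ * D.g) (down_le D.C R)
    (fun z _ => ⟨hF.1 z, hF.2.1 z, hF.2.2 z⟩) ?_ ?_
  · exact fun p hp => key.1 hp
  · intro z hz
    refine ⟨fun hne => ?_, fun hne => ?_, fun hne => ?_⟩
    · rw [hE] at hne
      obtain ⟨j, rfl⟩ := Efn_ne_zero hne
      exact nsmul_mem (show k ∈ τ.negs from Or.inr hk) j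
    · rw [m2_one_ne hne]
      exact τ.ker.zero_mem
    · have hP := (E⁻¹ * D.g).supp z hne
      rcases (h.pi_nn z hP).lt_or_eq with hπ | hπ
      · exact Or.inr (hτ z hP hz hπ)
      · have h1 : Set.EqOn (E⁻¹ * D.g).fn (E⁻¹ * E).fn {p | π p = 0} :=
          mul_eqOn h.down (fun _ _ => rfl) fun p hp => by rw [h.face hp, hE]
        rw [h1 (show π z = 0 from hπ.symm), inv_mul_cancel] at hne
        exact Or.inl (m2_one_ne hne)
  · rw [fac_mul, mul_one, mul_inv_cancel_left]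
    exact fun _ _ => rfl

/-- the end of the flow, second diagram -/
theorem m2_end' (h : Mut D D' k π) {τ : Sg N} (hk : τ.neg k)
    {R : ℤ} (hτ : ∀ p ∈ D'.C.P, D'.C.deg p ≤ R → 0 < π p → τ.pos p) :
    ∀ p, D'.C.deg p ≤ R → (lo τ D'.g).fn p = (1 : Grp D'.C).fn p := by
  have key := lo_eqOn_one (σ := τ) (g := D'.g) (down_le D'.C R) fun z hz hne => by
    have hP := D'.g.supp z hne
    rcases (h.pi_nn' z hP).lt_or_eq with hπ | hπ
    · exact Or.inr (hτ z hP hz hπ)
    · obtain ⟨j, rfl⟩ := h.pi_zero' z hP hπ.symm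
      exact nsmul_mem (show -k ∈ τ.poss from Or.inr (Sg.pos_neg_iff.2 hk)) j
  exact fun p hp => key hp

theorem m2 (h : Mut D D' k π) {E : Grp D.C} (hE : E.fn = Efn k) {f : L D.C} {f' : L D'.C}
    (hf : f'.fn = (cj E f).fn) {σ : Sg N} (hσ : Gen σ 0) (hk : σ.neg k) :
    (phi σ D'.g f').fn = (phi σ D.g f).fn := by
  funext b
  obtain ⟨r, hr⟩ := f.adm.exists_deg
  obtain ⟨r', hr'⟩ := f'.adm.exists_deg
  set R := D.C.deg b - r with hR
  set R' := D'.C.deg b - r' with hR'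
  have hZ := m1Z_finite D D' R R'
  obtain ⟨c0, hc0⟩ := (hZ.image D.C.deg).bddAbove
  set c : ℤ := max c0 0 + 1 with hc
  have hcZ : ∀ p ∈ m1Z D D' R R', D.C.deg p < c := fun p hp => by
    have := hc0 (Set.mem_image_of_mem D.C.deg hp)
    have h2 := le_max_left c0 0
    omega
  have hcpos : 0 < c := by
    have h2 := le_max_right c0 0
    omega
  set η : N →+ ℤ := c • π - D.C.deg with hη
  have hηa : ∀ p, η p = c * π p - D.C.deg p := fun p => by simp [hη]
  have hηk : η k < 0 := by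
    rw [hηa, h.pik]
    have := D.C.pos k h.kP h.k_ne
    omega
  have hηpos : ∀ p ∈ m1Z D D' R R', 0 < π p → 0 < η p := fun p hp hπ => by
    rw [hηa]
    have := hcZ p hp
    nlinarith
  have hl : ∀ x, D.C.deg x ≤ D.C.deg b → ∀ y, f.fn y ≠ 0 → D.C.deg x - D.C.deg y ≤ R :=
    fun x hx y hy => by
      have := hr y hy
      omega
  have hl' : ∀ x, D'.C.deg x ≤ D'.C.deg b → ∀ y, f'.fn y ≠ 0 → D'.C.deg x - D'.C.deg y ≤ R' :=
    fun x hx y hy => by
      have := hr' y hy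
      omega
  refine flow η 0 (map_zero η) (m1Z D D' R R') hZ {k} ?_
    (fun σ => ∀ x, D.C.deg x ≤ D.C.deg b → D'.C.deg x ≤ D'.C.deg b →
      (phi σ D'.g f').fn x = (phi σ D.g f).fn x) ?_ ?_ ?_ σ hσ ?_ b le_rfl le_rfl
  · rintro x rfl
    exact hηk.le
  · intro σ τ _ _ _ _ hag hQ x hx hx'
    rw [← phi_loc (hag.mono fun p hp => Or.inr hp) (hl' x hx'),
      ← phi_loc (hag.mono fun p hp => Or.inl hp) (hl x hx)]
    exact hQ x hx hx'
  · intro σ _ _ x hx hx'
    have hneg : ((Sg.ofHom η).lex σ).neg k := Sg.lex_neg.2 (Or.inl (Sg.ofHom_neg.2 hηk))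
    have e1 := m2_end h hE hneg (R := R) fun p hp hd hπ =>
      Sg.lex_pos.2 (Or.inl (Sg.ofHom_pos.2 (hηpos p (Or.inl ⟨hp, hd⟩) hπ)))
    have e2 := m2_end' h hneg (R := R') fun p hp hd hπ =>
      Sg.lex_pos.2 (Or.inl (Sg.ofHom_pos.2 (hηpos p (Or.inr ⟨hp, hd⟩) hπ)))
    unfold phi
    rw [cj_loc e1 (hl x hx), cj_loc e2 (hl' x hx'), cj_one, hf]
  · intro σ0 m _ h2 hX hQ x hx hx'
    have hg : Gen σ0 m := fun y => (h2 y).trans InQ2_zero
    have hw := m1_fn h hg (hX k rfl)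
    rw [m2_cross σ0 (Sg.ofHom η) _ D'.g, m2_cross σ0 (Sg.ofHom η) _ D.g]
    refine cj_cone ?_ fun y hy' hy => hQ y ?_ ?_
    · rw [Grp.mul_fn, Grp.mul_fn, inv_fn_congr (fac_fn_congr hw (Sg.ofHom η)).1,
        (fac_fn_congr hw (Sg.ofHom (-η))).1]
    · have := D.C.deg_nonneg hy
      rw [map_sub] at this
      omega
    · have := D'.C.deg_nonneg hy'
      rw [map_sub] at this
      omega
  · rintro x rfl
    exact hk

theorem alpha_mut_neg (h : Mut D D' k π) {E : Grp D.C} (hE : E.fn = Efn k) {f : L D.C}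
    {f' : L D'.C} (hf : f'.fn = (cj E f).fn) {a : N} (ha : om k a ≤ 0) :
    alpha D'.g f' a = alpha D.g f a := by
  obtain ⟨τ, hτ, hτk⟩ := exists_gen_neg h.k_ne
  have hneg : ((Sg.ofHom (eta a)).lex τ).neg k := by
    rcases ha.lt_or_eq with h1 | h1
    · exact Sg.lex_neg.2 (Or.inl (Sg.ofHom_neg.2 h1))
    · exact Sg.lex_neg.2 (Or.inr ⟨Sg.ofHom_nul.2 h1, hτk⟩)
  rw [← alpha_lex τ, ← alpha_lex τ, m2 h hE hf (gen_lex_zero hτ) hneg]

theorem alpha_mut (h : Mut D D' k π) {E : Grp D.C} (hE : E.fn = Efn k) {E' : Grp D'.C}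
    (hE' : E'.fn = Efn (-k)) {f : L D.C} {f' : L D'.C} (hf : f'.fn = (cj E f).fn)
    (hf' : ∀ x, (cj E' f').fn (tv k x) = f.fn x) (a : N) :
    alpha D'.g f' (mu k a) = alpha D.g f a := by
  by_cases ha : om k a ≤ 0
  · rw [mu_of_nonpos ha]
    exact alpha_mut_neg h hE hf ha
  · rw [mu_of_nonneg (not_le.1 ha).le, ← alpha_map (pres_tv k) D.g f a]
    refine (alpha_mut_neg h.symm hE' (f := f') (f' := f.map (tv k)) ?_ ?_).symm
    · funext x
      change f.fn ((tv k).symm x) = _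
      rw [← hf', AddEquiv.apply_symm_apply]
    · rw [m1_om_neg_tv]
      omega

end
end Vale.Agent.P066.S
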