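import Vale.Agent.P066.S.EId

/-!
P066 part S, file Mut (definitions final; lemmas = TASK S11).  Transport along automorphisms
preserving `om`, mutation data.
* `conv_map`: reindex the finsum (`finsum_comp_equiv`).
* `fac_map`: uniqueness of factorisation (`fac_unique`) in the image cone.
* `Mut.face`: for `n = j k ≠ 0` all elements of `P` below `n` lie in `ℕ k`, where
  `(ofHom (eta n)).lex σ` (`exists_gen`) vanishes; `mid_eqOn_nul` on the down closed set `{π = 0}`,
  then `D.init`.  Outside `P` both sides vanish.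
-/

namespace Vale.Agent.P066.S
noncomputable section
open Classical

variable {N : Type} [AddCommGroup N]

def Cone.map (C : Cone N) (T : N ≃+ N) : Cone N where
  P := C.P.map T.toAddMonoidHom
  deg := C.deg.comp T.symm.toAddMonoidHom
  pos := by
    rintro _ ⟨p, hp, rfl⟩ h0
    simpa using C.pos p hp fun h => h0 (by simp [h])
  fin r := ((C.fin r).image T).subset (by
    rintro _ ⟨⟨p, hp, rfl⟩, h⟩
    exact ⟨p, ⟨hp, by simpa using h⟩, rfl⟩)

theorem Cone.mem_map {C : Cone N} {T : N ≃+ N} {x : N} : x ∈ (C.map T).P ↔ T.symm x ∈ C.P :=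
  ⟨by rintro ⟨p, hp, rfl⟩; simpa using hp, fun h => ⟨_, h, by simp⟩⟩

def Grp.map {C : Cone N} (g : Grp C) (T : N ≃+ N) : Grp (C.map T) where
  fn x := g.fn (T.symm x)
  supp x h := Cone.mem_map.2 (g.supp _ h)
  at0 := by simp [g.at0]

def L.map {C : Cone N} (f : L C) (T : N ≃+ N) : L (C.map T) where
  fn x := f.fn (T.symm x)
  adm := by
    obtain ⟨s, hs⟩ := f.adm
    refine ⟨s.image T, fun n h => ?_⟩
    obtain ⟨t, ht, h'⟩ := hs _ h
    exact ⟨T t, Finset.mem_image_of_mem _ ht, Cone.mem_map.2 (by simpa using h')⟩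

/-- the submonoid of `0` and the `π`-positive classes -/
def posP (π : N →+ ℤ) : AddSubmonoid N := (Sg.ofHom π).poss

variable [QL N]

def Pres (T : N ≃+ N) : Prop := ∀ a b, om (T a) (T b) = om a b

/-- the transvection `x ↦ x + om k x • k` -/
def tv (k : N) : N ≃+ N where
  toFun x := x + om k x • k
  invFun x := x - om k x • k
  left_inv x := by simp [om, QL.om_self]
  right_inv x := by simp [om, QL.om_self]
  map_add' x y := by simp [om, add_smul]; abel

/-- the tropical mutation -/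
def mu (k x : N) : N := x + max (om k x) 0 • k

theorem tv_apply (k x : N) : tv k x = x + om k x • k := rfl
theorem tv_symm_apply (k x : N) : (tv k).symm x = x - om k x • k := rfl
theorem pres_tv (k : N) : Pres (tv k) := by
  intro a b
  have h1 := om_skew a k
  have h2 := om_self k
  simp only [tv_apply, om, map_add, map_zsmul, AddMonoidHom.add_apply, AddMonoidHom.zsmul_apply,
    smul_eq_mul] at h1 h2 ⊢
  rw [h1, h2]
  ring
theorem om_tv (k x : N) : om k (tv k x) = om k x := by simp [tv_apply, om, QL.om_self]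
theorem om_mu (k x : N) : om k (mu k x) = om k x := by simp [mu, om, QL.om_self]
theorem mu_of_nonpos {k x : N} (h : om k x ≤ 0) : mu k x = x := by simp [mu, max_eq_right h]
theorem mu_of_nonneg {k x : N} (h : 0 ≤ om k x) : mu k x = tv k x := by
  rw [mu, max_eq_left h, tv_apply]
theorem mu_inj (k : N) : Function.Injective (mu k) := by
  intro x y h
  have h1 : om k x = om k y := by rw [← om_mu k x, h, om_mu]
  rw [mu, mu, h1] at h
  exact add_right_cancel h
theorem mu_surj (k : N) : Function.Surjective (mu k) := fun y =>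
  ⟨y - max (om k y) 0 • k, by simp [mu, om, QL.om_self]⟩
theorem mu_nsmul (k x : N) (j : ℕ) : mu k (j • x) = j • mu k x := by
  have h : om k (j • x) = j * om k x := by simp [om]
  rw [mu, mu, h, smul_add, ← natCast_zsmul (_ • k), smul_smul,
    mul_max_of_nonneg _ _ (Int.natCast_nonneg j), mul_zero]

variable {C : Cone N} {T : N ≃+ N}

theorem conv_map (hT : Pres T) (F G : N → K) :
    conv (fun x => F (T.symm x)) (fun x => G (T.symm x)) = fun x => conv F G (T.symm x) := by
  funext x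
  unfold conv
  rw [← finsum_comp_equiv T.toEquiv]
  refine finsum_congr fun a => ?_
  have h := hT a (T.symm x)
  rw [AddEquiv.apply_symm_apply] at h
  simp [h]
theorem Grp.map_mul (hT : Pres T) (g h : Grp C) : (g * h).map T = g.map T * h.map T :=
  Grp.ext (conv_map hT g.fn h.fn).symm
theorem Grp.map_inv (hT : Pres T) (g : Grp C) : (g⁻¹).map T = (g.map T)⁻¹ := by
  refine eq_inv_of_mul_eq_one_left ?_
  rw [← Grp.map_mul hT, inv_mul_cancel]
  exact Grp.ext (funext fun x => by simp [Grp.map, Grp.one_fn, dl])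
theorem L.map_mul (hT : Pres T) (f f' : L C) : (f * f').map T = f.map T * f'.map T :=
  L.ext (conv_map hT f.fn f'.fn).symm
theorem fac_map (hT : Pres T) (σ : Sg N) (g : Grp C) :
    lo (σ.comap T.symm.toAddMonoidHom) (g.map T) = (lo σ g).map T ∧
    mid (σ.comap T.symm.toAddMonoidHom) (g.map T) = (mid σ g).map T ∧
    hi (σ.comap T.symm.toAddMonoidHom) (g.map T) = (hi σ g).map T := by
  obtain ⟨h1, h2, h3⟩ := isF_fac σ g
  have h0 : ∀ x, T.symm x = 0 → x = 0 := fun x hx => by simpa using hx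
  have h := fac_unique (σ := σ.comap T.symm.toAddMonoidHom) (a := (lo σ g).map T)
    (b := (mid σ g).map T) (c := (hi σ g).map T)
    ⟨fun x hx => (h1 _ hx).imp (h0 x) Sg.comap_neg.2, fun x hx => Sg.comap_nul.2 (h2 _ hx),
      fun x hx => (h3 _ hx).imp (h0 x) Sg.comap_pos.2⟩
  rwa [← Grp.map_mul hT, ← Grp.map_mul hT, fac_mul] at h
theorem cj_map (hT : Pres T) (c : Grp C) (f : L C) : cj (c.map T) (f.map T) = (cj c f).map T := by
  rw [cj, cj, L.map_mul hT, L.map_mul hT, ← Grp.map_inv hT]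
  rfl
theorem comap_eta (hT : Pres T) (n : N) :
    (Sg.ofHom (eta n)).comap T.symm.toAddMonoidHom = Sg.ofHom (eta (T n)) := by
  rw [Sg.comap_ofHom]
  congr 1
  ext x
  have h := hT (T.symm x) n
  rw [AddEquiv.apply_symm_apply] at h
  exact h.symm
theorem alpha_map (hT : Pres T) (g : Grp C) (f : L C) (a : N) :
    alpha (g.map T) (f.map T) (T a) = alpha g f a := by
  have h1 : phi (Sg.ofHom (eta (T a))) (g.map T) (f.map T) = (phi (Sg.ofHom (eta a)) g f).map T := by
    rw [phi, phi, ← comap_eta hT a, (fac_map hT _ g).1, cj_map hT]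
  rw [alpha, alpha, h1]
  generalize phi (Sg.ofHom (eta a)) g f = F
  show F.fn (T.symm (T a)) = F.fn a
  rw [AddEquiv.symm_apply_apply]
theorem init_map (hT : Pres T) (D : Diag N) (n : N) (hn : n ≠ 0) (σ : Sg N) (hσ : Gen σ n) :
    (mid ((Sg.ofHom (eta n)).lex σ) (D.g.map T)).fn n = D.In (T.symm n) := by
  have h1 : ((Sg.ofHom (eta (T.symm n))).lex (σ.comap T.toAddMonoidHom)).comap
      T.symm.toAddMonoidHom = (Sg.ofHom (eta n)).lex σ := by
    rw [Sg.comap_lex, comap_eta hT, AddEquiv.apply_symm_apply]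
    congr 1
    exact Sg.ext' fun a => by simp [Sg.comap]
  rw [← h1, (fac_map hT _ D.g).2.1]
  exact D.init _ (by simpa using hn) _ (hσ.comap T.symm)

def Diag.map (D : Diag N) (T : N ≃+ N) (hT : Pres T) : Diag N where
  C := D.C.map T
  In x := D.In (T.symm x)
  g := D.g.map T
  init := init_map hT D

structure Mut (D D' : Diag N) (k : N) (π : N →+ ℤ) : Prop where
  k_ne : k ≠ 0
  kP : k ∈ D.C.P
  kP' : -k ∈ D'.C.P
  pik : π k = 0
  pi_nn : ∀ p ∈ D.C.P, 0 ≤ π p
  pi_nn' : ∀ p ∈ D'.C.P, 0 ≤ π p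
  pi_zero : ∀ p ∈ D.C.P, π p = 0 → ∃ j : ℕ, p = j • k
  pi_zero' : ∀ p ∈ D'.C.P, π p = 0 → ∃ j : ℕ, p = j • (-k)
  inE : ∀ n, n ≠ 0 → π n = 0 → D.In n = Efn k n
  inE' : ∀ n, n ≠ 0 → π n = 0 → D'.In n = Efn (-k) n
  inMu : ∀ n, 0 < π n → D'.In (mu k n) = D.In n

variable {D D' : Diag N} {k : N} {π : N →+ ℤ}

theorem tv_nsmul (k : N) (j : ℕ) : tv k (j • k) = j • k := by simp [tv_apply, om, QL.om_self]

theorem Mut.symm (h : Mut D D' k π) : Mut D' (D.map (tv k) (pres_tv k)) (-k) π := by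
  have hπ : ∀ x, π ((tv k).symm x) = π x := fun x => by simp [tv_symm_apply, h.pik]
  have hj : ∀ {x} {j : ℕ}, (tv k).symm x = j • k ↔ x = j • k := fun {x j} => by
    rw [AddEquiv.symm_apply_eq, tv_nsmul]
  refine ⟨neg_ne_zero.2 h.k_ne, h.kP', Cone.mem_map.2 ?_, by simp [h.pik], h.pi_nn',
    fun p hp => hπ p ▸ h.pi_nn _ (Cone.mem_map.1 hp), h.pi_zero', fun p hp h0 => ?_, h.inE',
    fun n hn h0 => ?_, fun n hn => ?_⟩
  · rw [neg_neg, hj.2 (one_nsmul k).symm, one_nsmul]
    exact h.kP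
  · obtain ⟨j, e⟩ := h.pi_zero _ (Cone.mem_map.1 hp) ((hπ p).trans h0)
    exact ⟨j, by rw [neg_neg]; exact hj.1 e⟩
  · refine (h.inE ((tv k).symm n) (by simpa using hn) ((hπ n).trans h0)).trans ?_
    rw [neg_neg]
    by_cases e : ∃ j : ℕ, n = j • k
    · obtain ⟨j, e⟩ := e
      rw [hj.2 e, e]
    · rw [Efn_of_not fun j e' => e ⟨j, hj.1 e'⟩, Efn_of_not fun j e' => e ⟨j, e'⟩]
  · have h1 : om k (mu (-k) n) = om k n := by simp [mu, om, QL.om_self]
    have h2 : om k ((tv k).symm (mu (-k) n)) = om k n := by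
      rw [← om_tv, AddEquiv.apply_symm_apply, h1]
    have h3 : om (-k) n = -om k n := by simp [om]
    have h4 : mu k ((tv k).symm (mu (-k) n)) = n := by
      rw [mu, h2, tv_symm_apply, h1, mu, h3, smul_neg, ← sub_eq_add_neg, sub_sub, ← add_smul,
        show max (-om k n) 0 + om k n = max (om k n) 0 by omega, sub_add_cancel]
    have h5 := h.inMu ((tv k).symm (mu (-k) n)) (by rw [hπ]; simpa [mu, h.pik] using hn)
    rw [h4] at h5
    exact h5.symm

omit [QL N] in
theorem mut_down {C : Cone N} (h : ∀ p ∈ C.P, 0 ≤ π p) : Down C {p | π p = 0} := by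
  intro z hz p hp hzp
  have h1 := h p hp
  have h2 := h _ hzp
  have h3 : π z = 0 := hz
  rw [map_sub] at h2
  show π p = 0
  omega

theorem Mut.face (h : Mut D D' k π) {n : N} (hn : π n = 0) : D.g.fn n = Efn k n := by
  by_cases h0 : n = 0
  · have := Efn_nsmul h.k_ne 0
    rw [zero_nsmul, eps_zero] at this
    rw [h0, this, D.g.at0]
  by_cases hP : n ∈ D.C.P
  · obtain ⟨σ, hσ⟩ := exists_gen D.C.deg (D.C.pos n hP h0).ne'
    obtain ⟨j, hj⟩ := h.pi_zero n hP hn
    rw [← h.inE n h0 hn, ← D.init n h0 σ hσ]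
    refine (mid_eqOn_nul (mut_down h.pi_nn) (fun z hz hg => ?_) hn).symm
    obtain ⟨i, hi⟩ := h.pi_zero z (D.g.supp z hg) hz
    refine (hσ.ofHom_lex (η := eta n) (om_self n) z).2 ⟨j, i, fun e => h0 ?_, ?_⟩
    · rw [hj, Int.natCast_eq_zero.1 e, zero_nsmul]
    · rw [hi, hj, natCast_zsmul, natCast_zsmul, smul_comm]
  · rw [Efn_of_not (k := k) (n := n) fun j e => hP (by rw [e]; exact D.C.P.nsmul_mem h.kP j)]
    by_contra e
    exact hP (D.g.supp n e)
theorem Mut.face' (h : Mut D D' k π) {n : N} (hn : π n = 0) : D'.g.fn n = Efn (-k) n :=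
  h.symm.face hn
theorem Mut.down (h : Mut D D' k π) : Down D.C {p | π p = 0} := mut_down h.pi_nn
theorem Mut.down' (h : Mut D D' k π) : Down D'.C {p | π p = 0} := mut_down h.pi_nn'
/-- if `σ0` vanishes on `k`, the face of `mid σ0 g` is the dilogarithm -/
theorem Mut.mid_face (h : Mut D D' k π) {σ0 : Sg N} (hk : σ0.nul k) {n : N} (hn : π n = 0) :
    (mid σ0 D.g).fn n = Efn k n := by
  refine (mid_eqOn_nul h.down (fun z hz hg => ?_) hn).trans (h.face hn)
  obtain ⟨i, hi⟩ := h.pi_zero z (D.g.supp z hg) hz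
  rw [hi, ← natCast_zsmul]
  exact Sg.nul_zsmul _ hk
theorem Mut.mid_face' (h : Mut D D' k π) {σ0 : Sg N} (hk : σ0.nul k) {n : N} (hn : π n = 0) :
    (mid σ0 D'.g).fn n = Efn (-k) n := h.symm.mid_face (Sg.nul_neg_iff.2 hk) hn

end
end Vale.Agent.P066.S
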