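import Vale.Agent.P066.S.AdPos

/-!
P066 part S, file P1 (TASK S9): positivity of all wall functions.
* `joint`: let `W = mid σ0 g`, supported in the plane `σ0.ker`; `mid (σ0.lex τ) g = mid τ W`.
  For `n ∈ P \ 0` in the plane, `σ0.lex (ofHom (eta n))` is generic along `n` (`Gen2.lex_eta`) and
  depends only on the ray of `n` (`Cone.ray`, `Sg.lex_congr`).  Choose a representative `rep n` of
  each ray (e.g. `Classical.epsilon` of the predicate `x ∈ P ∧ x ≠ 0 ∧ InQ n x`, which only depends on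
  the ray) and a family `Vr ρ` for each representative `ρ`: the given one (up to degree `r`) for the
  ray of `d`, the one from `ih` (degree `≤ r - 1`) otherwise.  Let `Vt` be the sigma type over the
  representatives, `W'` its group element.  By `mid_M` (signs from `Gen2.plucker` with `δ = deg`) and
  `M_equiv`, `mid (ofHom (eta n)) W'` is the generating function of `Vr (rep n)`.  On the down closed
  set `Z = {deg < r} ∪ {x | InQ d x ∧ deg x ≤ r}` we get `W = W'` by `eqOn_of_mid`.  `gfA` with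
  `Q = σ0.ker`, `η = eta d` computes `mid (ofHom (-η)) W'`; `fac_eqOn` transfers it to `W` on `Z`;
  off the line of `d` both sides vanish.
* `p1`: induction on `r` (for `r < 0`, or `r ≤ 0`, take the empty family), then `flow` with
  `η = eta d`, `Z = {p ∈ P, deg p ≤ r}`, `X = ∅`; at the end use `D.init` (for `n` on the ray of `d`,
  `ofHom (eta n) = ofHom (eta d)` and `Gen σ n`) and `InPos`.
-/

namespace Vale.Agent.P066.S
noncomputable section
open Classical WT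

variable {N : Type} [AddCommGroup N] [QL N]

def InPos (D : Diag N) : Prop := ∀ d ∈ D.C.P, d ≠ 0 → ∃ V : WT N, V.Fam D.C ∧
  (∀ x, InQ d (V.cls x)) ∧ ∀ n, n ≠ 0 → InQ d n → n ∈ D.C.P → D.In n = V.M.gf n

def RayPos (D : Diag N) (σ : Sg N) (d : N) (r : ℤ) : Prop := ∃ V : WT N, V.Fam D.C ∧
  (∀ x, InQ d (V.cls x)) ∧ ∀ n, D.C.deg n ≤ r → (mid σ D.g).fn n = V.M.gf n

theorem p1_ofHom_eta_ray (C : Cone N) {d n : N} (hd : d ∈ C.P) (hn : n ∈ C.P) (hn0 : n ≠ 0)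
    (hd0 : d ≠ 0) (h : InQ d n) : Sg.ofHom (eta n) = Sg.ofHom (eta d) := by
  obtain ⟨j, l, hj, hl, he⟩ := C.ray hd hn hn0 hd0 h
  refine Sg.ext' fun a => ?_
  have h1 : j * eta n a = l * eta d a := by
    have := congrArg (fun x => QL.om a x) he
    simpa [eta_apply, om] using this
  change 0 ≤ eta n a ↔ 0 ≤ eta d a
  constructor
  · intro h0
    by_contra h2
    nlinarith [mul_nonneg hj.le h0, mul_pos hl (neg_pos.2 (not_le.1 h2))]
  · intro h0
    by_contra h2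
    nlinarith [mul_nonneg hl.le h0, mul_pos hj (neg_pos.2 (not_le.1 h2))]

omit [QL N] in
theorem p1_nul_of_InQ {σ : Sg N} {d x : N} (hd : σ.nul d) (h : InQ d x) : σ.nul x := by
  obtain ⟨j, l, hj, he⟩ := h
  rw [← Sg.nul_zsmul_iff hj, he]
  exact Sg.nul_zsmul l hd

theorem p1_exists_reps (S : Set N) (hS : ∀ n ∈ S, n ≠ 0) : ∃ (I : Type) (ρ : I → N),
    (∀ i, ρ i ∈ S) ∧ (∀ i j, InQ (ρ i) (ρ j) → i = j) ∧ ∀ n ∈ S, ∃ i, InQ (ρ i) n := by
  let s : Setoid S := ⟨fun a b => InQ a.1 b.1,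
    ⟨fun a => InQ.refl _, fun {a b} h => h.symm (hS _ b.2), fun h h' => h.trans h'⟩⟩
  refine ⟨Quotient s, fun i => i.out.1, fun i => i.out.2, fun i j h => ?_, fun n hn => ?_⟩
  · rw [← i.out_eq, ← j.out_eq]
    exact Quotient.sound h
  · exact ⟨Quotient.mk s ⟨n, hn⟩, Quotient.mk_out (s := s) ⟨n, hn⟩⟩

/-- disjoint union of weighted types -/
def p1Sig {I : Type} (V : I → WT N) : WT N :=
  ⟨Σ i, (V i).T, fun t => (V t.1).cls t.2, fun t => (V t.1).ex t.2⟩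

theorem p1Sig_Fam {C : Cone N} {I : Type} {ρ : I → N} (hρ0 : ∀ i, ρ i ≠ 0)
    (hρ : ∀ i j, InQ (ρ i) (ρ j) → i = j) {V : I → WT N} (hV : ∀ i, (V i).Fam C)
    (hq : ∀ i x, InQ (ρ i) ((V i).cls x)) : (p1Sig V).Fam C := by
  refine ⟨fun n e => ?_, fun t => (hV t.1).2 t.2⟩
  rcases Set.eq_empty_or_nonempty {t | (p1Sig V).cls t = n ∧ (p1Sig V).ex t ≤ e} with h | h
  · rw [h]; exact Set.finite_empty
  · obtain ⟨⟨i, x⟩, hx, -⟩ := h
    refine (((hV i).1 n e).image (Sigma.mk i)).subset ?_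
    rintro ⟨j, y⟩ ⟨hy, hye⟩
    have h1 : (V i).cls x = (V j).cls y := hx.trans hy.symm
    have h2 : i = j := hρ i j ((hq i x).trans (h1 ▸ (hq j y).symm ((hV j).2 y).2))
    subst h2
    exact ⟨y, ⟨hy, hye⟩, rfl⟩

theorem p1Sig_mid {C : Cone N} {I : Type} {ρ : I → N} {σ0 : Sg N} {d m : N} (h2 : Gen2 σ0 d m)
    (hm : om m d ≠ 0) (hρ0 : ∀ i, ρ i ≠ 0) (hρn : ∀ i, σ0.nul (ρ i))
    (hρ : ∀ i j, InQ (ρ i) (ρ j) → i = j) {V : I → WT N} (hV : ∀ i, (V i).Fam C)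
    (hq : ∀ i x, InQ (ρ i) ((V i).cls x)) {W : Grp C} (hW : W.fn = (p1Sig V).M.gf)
    {n : N} (hn : n ∈ C.P) (hn0 : n ≠ 0) {i : I} (hi : InQ (ρ i) n) :
    (mid (Sg.ofHom (eta n)) W).fn = (V i).M.gf := by
  have hF := p1Sig_Fam hρ0 hρ hV hq
  have hnn : σ0.nul n := p1_nul_of_InQ (hρn i) hi
  have hnul : ∀ t, σ0.nul ((p1Sig V).cls t) := fun t => p1_nul_of_InQ (hρn t.1) (hq t.1 t.2)
  have hdeg : ∀ t, 0 < C.deg ((p1Sig V).cls t) := fun t => C.pos _ (hF.2 t).1 (hF.2 t).2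
  have hdn : 0 < C.deg n := C.pos _ hn hn0
  have hG := h2.lex_eta hm hnn hn0
  rw [mid_M hF (eta n) ?_ ?_ hW]
  · let f : (V i).T → ((p1Sig V).res fun x => eta n ((p1Sig V).cls x) = 0).T :=
      fun x => ⟨⟨i, x⟩, (hq i x).om_eq_zero hi⟩
    have hf : Function.Bijective f := by
      refine ⟨fun x y h => sigma_mk_injective (β := fun i => (V i).T) (congrArg Subtype.val h), ?_⟩
      rintro ⟨⟨j, y⟩, hy⟩
      have h3 : InQ n ((V j).cls y) :=
        (hG _).1 (Sg.lex_nul.2 ⟨hnul ⟨j, y⟩, Sg.ofHom_nul.2 hy⟩)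
      have h4 : i = j := hρ i j ((hi.trans h3).trans ((hq j y).symm ((hV j).2 y).2))
      subst h4
      exact ⟨y, rfl⟩
    exact M_equiv (Equiv.ofBijective f hf) (fun _ => rfl) fun _ => rfl
  · intro x y hx hy
    have h3 := h2.plucker C.deg (hnul x) (hnul y) hnn
    rw [eta_apply] at hx hy
    by_contra h4
    nlinarith [mul_pos (not_le.1 h4) hdn, mul_pos (neg_pos.2 hx) (hdeg y),
      mul_nonneg hy (hdeg x).le]
  · intro x y hx hy
    have h3 := h2.plucker C.deg (hnul x) (hnul y) hnn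
    rw [eta_apply] at hx hy
    rw [hx] at h3
    by_contra h4
    nlinarith [mul_pos (not_le.1 h4) hdn, mul_pos hy (hdeg x)]

theorem joint (D : Diag N) {r : ℤ}
    (ih : ∀ d ∈ D.C.P, d ≠ 0 → ∀ σ, Gen σ d → RayPos D σ d (r - 1))
    {d m : N} (hd : d ∈ D.C.P) (hd0 : d ≠ 0) {σ0 : Sg N} (h2 : Gen2 σ0 d m) (hm : om m d ≠ 0)
    (h : RayPos D (σ0.lex (Sg.ofHom (eta d))) d r) :
    RayPos D (σ0.lex (Sg.ofHom (-eta d))) d r := by
  let Z : Set N := {x | D.C.deg x < r ∨ (InQ d x ∧ D.C.deg x ≤ r)}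
  have hZ : Down D.C Z := by
    intro z hz p _ hzp
    by_cases h0 : z - p = 0
    · rw [← sub_eq_zero.1 h0]; exact hz
    · have h1 := D.C.pos _ hzp h0
      rw [map_sub] at h1
      rcases hz with hz | hz
      · exact Or.inl (by omega)
      · exact Or.inl (by have := hz.2; omega)
  have hdn : σ0.nul d := (h2 d).2 ⟨1, 1, 0, one_ne_zero, by simp⟩
  have hGd := h2.lex_eta hm hdn hd0
  have hline : ∀ x, σ0.nul x → eta d x = 0 → InQ d x := fun x hx hx' =>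
    (hGd x).1 (Sg.lex_nul.2 ⟨hx, Sg.ofHom_nul.2 hx'⟩)
  obtain ⟨I, ρ, hρS, hρ, hrep⟩ :=
    p1_exists_reps {n | n ∈ D.C.P ∧ n ≠ 0 ∧ σ0.nul n} fun n hn => hn.2.1
  have hex : ∀ i, ∃ V : WT N, V.Fam D.C ∧ (∀ x, InQ (ρ i) (V.cls x)) ∧
      ∀ n ∈ Z, n ≠ 0 → InQ (ρ i) n →
        (mid (σ0.lex (Sg.ofHom (eta (ρ i)))) D.g).fn n = V.M.gf n := by
    intro i
    by_cases hi : InQ d (ρ i)
    · obtain ⟨V, hV, hq, he⟩ := h
      refine ⟨V, hV, fun x => (hi.symm (hρS i).2.1).trans (hq x), fun n hn _ _ => ?_⟩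
      rw [p1_ofHom_eta_ray D.C hd (hρS i).1 (hρS i).2.1 hd0 hi]
      exact he n (hn.elim le_of_lt fun h => h.2)
    · obtain ⟨V, hV, hq, he⟩ := ih _ (hρS i).1 (hρS i).2.1 _
        (h2.lex_eta hm (hρS i).2.2 (hρS i).2.1)
      refine ⟨V, hV, hq, fun n hn hn0 hin => he n ?_⟩
      rcases hn with hn | hn
      · omega
      · exact absurd (hn.1.trans (hin.symm hn0)) hi
  choose V hV hq he using hex
  have hF := p1Sig_Fam (fun i => (hρS i).2.1) hρ hV hq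
  obtain ⟨W', hW'⟩ := exists_grp_M hF
  have hnul : ∀ t, (p1Sig V).cls t ∈ σ0.ker := fun t => p1_nul_of_InQ (hρS t.1).2.2 (hq t.1 t.2)
  have hWW : Set.EqOn (mid σ0 D.g).fn W'.fn Z := by
    refine eqOn_of_mid hZ fun p hp hp0 => ?_
    by_cases hS : p ∈ D.C.P ∧ σ0.nul p
    · obtain ⟨i, hi⟩ := hrep p ⟨hS.1, hp0, hS.2⟩
      refine Or.inr ⟨Sg.ofHom (eta p), Sg.ofHom_nul.2 (om_self p), ?_⟩
      rw [p1Sig_mid h2 hm (fun i => (hρS i).2.1) (fun i => (hρS i).2.2) hρ hV hq hW' hS.1 hp0 hi,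
        ← mid_lex, p1_ofHom_eta_ray D.C (hρS i).1 hS.1 hp0 (hρS i).2.1 hi]
      exact he i p hp hp0 hi
    · left
      have h3 : (mid σ0 D.g).fn p = 0 := by
        by_contra h3
        exact hS ⟨(mid σ0 D.g).supp p h3, (isF_fac σ0 D.g).2.1 p h3⟩
      have h4 : W'.fn p = 0 := by
        by_contra h4
        exact hS ⟨W'.supp p h4, M_supp hnul p (hW' ▸ h4)⟩
      rw [h3, h4]
  obtain ⟨V', hV', hq', he'⟩ := gfA hF (eta d) σ0.ker hnul
    (fun n hn n' hn' h0 h0' => (hline n hn h0).om_eq_zero (hline n' hn' h0')) hW'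
  have hq2 : ∀ x, InQ d (V'.cls x) := fun x => hline _ (hq' x).2 (hq' x).1
  refine ⟨V', hV', hq2, fun n hn => ?_⟩
  by_cases hdn' : InQ d n
  · rw [mid_lex, ← he']
    exact (fac_eqOn hZ hWW fun _ _ => ⟨Iff.rfl, Iff.rfl⟩).2.1 (Or.inr ⟨hdn', hn⟩)
  · have h3 : (mid (σ0.lex (Sg.ofHom (-eta d))) D.g).fn n = 0 := by
      by_contra h3
      have h4 := Sg.lex_nul.1 ((isF_fac _ D.g).2.1 n h3)
      refine hdn' (hline n h4.1 ?_)
      simpa using Sg.ofHom_nul.1 h4.2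
    have h4 : V'.M.gf n = 0 := by
      by_contra h4
      exact hdn' ((hGd n).1 (M_supp (Q := (σ0.lex (Sg.ofHom (eta d))).ker)
        (fun x => (hGd _).2 (hq2 x)) n h4))
    rw [h3, h4]

theorem p1_base (D : Diag N) {r : ℤ} (hr : r ≤ 0) (σ : Sg N) (d : N) : RayPos D σ d r := by
  refine ⟨WT.empty N, empty_Fam, fun x => x.elim, fun n hn => ?_⟩
  rw [M_empty]
  by_cases h0 : n = 0
  · subst h0
    simp [dl, Grp.at0]
  · have h1 : (mid σ D.g).fn n = 0 := by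
      by_contra h1
      have := D.C.pos n ((mid σ D.g).supp n h1) h0
      omega
    simp [dl, h0, h1]

theorem p1_step (D : Diag N) (hD : InPos D) {r : ℤ}
    (ih : ∀ d ∈ D.C.P, d ≠ 0 → ∀ σ, Gen σ d → RayPos D σ d (r - 1)) :
    ∀ d ∈ D.C.P, d ≠ 0 → ∀ σ, Gen σ d → RayPos D σ d r := by
  intro d hd hd0 σ hσ
  refine flow (eta d) d (om_self d) {p | p ∈ D.C.P ∧ D.C.deg p ≤ r} (D.C.fin r) ∅ (by simp)
    (fun σ => RayPos D σ d r) ?_ ?_ ?_ σ hσ (by simp)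
  · rintro σ τ - - - - hA ⟨V, hV, hq, he⟩
    refine ⟨V, hV, hq, fun n hn => ?_⟩
    rw [← he n hn]
    exact ((fac_eqOn (down_le D.C r) (fun _ _ => rfl)
      (hA.mono fun p hp => ⟨hp.2, hp.1⟩)).2.1 hn).symm
  · rintro σ hσ -
    obtain ⟨V, hV, hq, he⟩ := hD d hd hd0
    refine ⟨V, hV, hq, fun n _ => ?_⟩
    by_cases h0 : n = 0
    · obtain ⟨g', hg'⟩ := exists_grp_M hV
      rw [h0, ← hg', Grp.at0, Grp.at0]
    by_cases hS : n ∈ D.C.P ∧ InQ d n
    · rw [← p1_ofHom_eta_ray D.C hd hS.1 h0 hd0 hS.2,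
        D.init n h0 σ (hσ.of_nul ((hσ n).2 hS.2) h0)]
      exact he n h0 hS.2 hS.1
    · have h3 : (mid ((Sg.ofHom (eta d)).lex σ) D.g).fn n = 0 := by
        by_contra h3
        exact hS ⟨Grp.supp _ n h3, (hσ n).1 (Sg.lex_nul.1 ((isF_fac _ D.g).2.1 n h3)).2⟩
      have h4 : V.M.gf n = 0 := by
        by_contra h4
        exact hS ⟨M_supp (fun x => (hV.2 x).1) n h4,
          (hσ n).1 (M_supp (Q := σ.ker) (fun x => (hσ _).2 (hq x)) n h4)⟩
      rw [h3, h4]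
  · rintro σ0 m hm h2 - h
    exact joint D ih hd hd0 h2 (ne_of_gt hm) h

theorem p1 (D : Diag N) (hD : InPos D) (r : ℤ) :
    ∀ d ∈ D.C.P, d ≠ 0 → ∀ σ, Gen σ d → RayPos D σ d r := by
  rcases le_total r 0 with hr | hr
  · exact fun d _ _ σ _ => p1_base D hr σ d
  · induction r, hr using Int.le_induction with
    | base => exact fun d _ _ σ _ => p1_base D le_rfl σ d
    | succ r _ ih => exact p1_step D hD (by simpa using ih)

end
end Vale.Agent.P066.S
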