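import Vale.Agent.P066.S.Conv

/-!
P066 part S, file Ring (definitions final; lemmas = TASK S3).  The completed quantum torus `L C`, the
pro-unipotent group `Grp C`, triangularity.
* `tri`: `(a b) n = a n + b n + ∑ over p ∈ Lo n, p ≠ 0`; use `conv_eq_sum` on the finite set
  `{p | p ∈ P, n - p ∈ P}`; if `n ∉ P` everything vanishes.
* `solve`: define `g 0 = 1`, `g (r+1) n = g r n + (y n - Φ (g r) n)` if `n ∈ P` and `deg n = r+1`,
  else `g r n`; the limit is `n ↦ g (deg n).toNat n`.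
* `exists_inv`: `solve` with `Φ x = (x * g).fn`, `y = 0`.
* `eqOn_of_tri`: strong induction on `deg`.
-/

namespace Vale.Agent.P066.S
noncomputable section
open Classical

variable {N : Type} [AddCommGroup N]

@[ext] structure L (C : Cone N) where
  fn : N → K
  adm : Adm C fn

@[ext] structure Grp (C : Cone N) where
  fn : N → K
  supp : SuppIn C.P fn
  at0 : fn 0 = 1

variable {C : Cone N}

instance : Zero (L C) := ⟨⟨0, adm_zero C⟩⟩
instance : One (L C) := ⟨⟨dl 0 1, adm_dl C 0 1⟩⟩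
instance : Add (L C) := ⟨fun F G => ⟨F.fn + G.fn, F.adm.add G.adm⟩⟩
instance : Neg (L C) := ⟨fun F => ⟨-F.fn, F.adm.neg⟩⟩
instance : One (Grp C) := ⟨⟨dl 0 1, fun n h => by
  by_cases hn : n = 0
  · exact hn ▸ C.P.zero_mem
  · simp [dl, hn] at h, by simp [dl]⟩⟩

/-- the monomial `c X^b` -/
def mono (C : Cone N) (b : N) (c : K) : L C := ⟨dl b c, adm_dl C b c⟩
/-- the monomial `X^b` -/
abbrev Xm (C : Cone N) (b : N) : L C := mono C b 1
/-- change of cone -/
def Grp.cast (g : Grp C) (C' : Cone N) (h : SuppIn C'.P g.fn) : Grp C' := ⟨g.fn, h, g.at0⟩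

theorem Grp.eq_zero (g : Grp C) {n : N} (h : n ∉ C.P) : g.fn n = 0 :=
  of_not_not (mt (g.supp n) h)

theorem solve (C : Cone N) (Φ : Grp C → N → K)
    (hΦ : ∀ g g' : Grp C, ∀ n ∈ C.P, n ≠ 0 → (∀ p, C.deg p < C.deg n → g.fn p = g'.fn p) →
      Φ g n - Φ g' n = g.fn n - g'.fn n) (y : N → K) :
    ∃ g : Grp C, ∀ n ∈ C.P, n ≠ 0 → Φ g n = y n := by
  obtain ⟨g, hg⟩ : ∃ g : ℕ → Grp C, ∀ r n, (g (r + 1)).fn n =
      if n ∈ C.P ∧ C.deg n = r + 1 then (g r).fn n + (y n - Φ (g r) n) else (g r).fn n :=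
    ⟨fun r => Nat.rec 1 (fun r x => ⟨fun n => if n ∈ C.P ∧ C.deg n = r + 1 then
      x.fn n + (y n - Φ x n) else x.fn n, fun n h => by
        by_cases h1 : n ∈ C.P ∧ C.deg n = r + 1
        · exact h1.1
        · exact x.supp n (by simpa only [if_neg h1] using h), by
        rw [if_neg fun h => by have := h.2; rw [map_zero] at this; omega]
        exact x.at0⟩) r, fun _ _ => rfl⟩
  have stab : ∀ n (r s : ℕ), C.deg n ≤ r → r ≤ s → (g s).fn n = (g r).fn n := fun n r s h hs => by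
    induction s, hs using Nat.le_induction with
    | base => rfl
    | succ s hs ih => rw [hg, if_neg fun h' => by have := h'.2; omega, ih]
  refine ⟨⟨fun n => (g (C.deg n).toNat).fn n, fun n h => (g _).supp n h, (g _).at0⟩,
    fun n hn h0 => ?_⟩
  have h1 := C.pos n hn h0
  obtain ⟨r, hr⟩ : ∃ r : ℕ, (C.deg n).toNat = r + 1 := ⟨(C.deg n).toNat - 1, by omega⟩
  have h2 := hΦ ⟨fun n => (g (C.deg n).toNat).fn n, fun n h => (g _).supp n h, (g _).at0⟩ (g r)
    n hn h0 fun p hp => (stab p _ r (by omega) (by omega)).symm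
  simp only [hr, hg, if_pos (show n ∈ C.P ∧ C.deg n = r + 1 from ⟨hn, by omega⟩)] at h2
  linear_combination h2

/-- induction principle: agreement on a down closed set -/
theorem eqOn_of_tri {Z : Set N} (hZ : Down C Z) {g g' : Grp C}
    (h : ∀ n ∈ Z, n ∈ C.P → n ≠ 0 → Set.EqOn g.fn g'.fn (Lo C n) → g.fn n = g'.fn n) :
    Set.EqOn g.fn g'.fn Z := by
  intro n hn
  induction hr : (C.deg n).toNat using Nat.strong_induction_on generalizing n with
  | _ r ih =>
    by_cases hP : n ∈ C.P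
    · by_cases h0 : n = 0
      · rw [h0, g.at0, g'.at0]
      · refine h n hn hP h0 fun p hp => ih _ ?_ (hZ.Lo_subset hn hp) rfl
        have := Lo.deg_lt hp
        have := C.deg_nonneg hp.1
        omega
    · rw [g.eq_zero hP, g'.eq_zero hP]

variable [QL N]

instance : Mul (L C) := ⟨fun F G => ⟨conv F.fn G.fn, F.adm.conv G.adm⟩⟩
instance : Mul (Grp C) := ⟨fun g h => ⟨conv g.fn h.fn, g.supp.conv h.supp, by
  rw [conv_at_zero g.supp h.supp, g.at0, h.at0, mul_one]⟩⟩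

omit [QL N] in
instance : AddCommGroup (L C) where
  add_assoc a b c := L.ext (add_assoc _ _ _)
  zero_add a := L.ext (zero_add _)
  add_zero a := L.ext (add_zero _)
  neg_add_cancel a := L.ext (neg_add_cancel _)
  add_comm a b := L.ext (add_comm _ _)
  nsmul := nsmulRec
  zsmul := zsmulRec

theorem conv_one_left (F : N → K) : conv (dl 0 1) F = F := by
  funext n; rw [conv_dl_left]; simp [om, U_zero]
theorem conv_one_right (F : N → K) : conv F (dl 0 1) = F := by
  funext n; rw [conv_dl_right]; simp [om, U_zero]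

instance : Ring (L C) where
  left_distrib a b c := L.ext (conv_add_right a.adm b.adm c.adm)
  right_distrib a b c := L.ext (conv_add_left a.adm b.adm c.adm)
  zero_mul a := L.ext (conv_zero_left _)
  mul_zero a := L.ext (conv_zero_right _)
  mul_assoc a b c := L.ext (conv_assoc a.adm b.adm c.adm)
  one_mul a := L.ext (conv_one_left _)
  mul_one a := L.ext (conv_one_right _)
  neg_add_cancel := neg_add_cancel
  zsmul := zsmulRec

theorem Grp.mul_fn (g h : Grp C) : (g * h).fn = conv g.fn h.fn := rfl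
omit [QL N] in
theorem Grp.one_fn : (1 : Grp C).fn = dl 0 1 := rfl
theorem L.mul_fn (F G : L C) : (F * G).fn = conv F.fn G.fn := rfl
omit [QL N] in
theorem L.add_fn (F G : L C) : (F + G).fn = F.fn + G.fn := rfl
omit [QL N] in
theorem L.neg_fn (F : L C) : (-F).fn = -F.fn := rfl
omit [QL N] in
theorem L.zero_fn : (0 : L C).fn = 0 := rfl
omit [QL N] in
theorem L.one_fn : (1 : L C).fn = dl 0 1 := rfl
omit [QL N] in
theorem mono_fn (b : N) (c : K) : (mono C b c).fn = dl b c := rfl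

theorem tri {a a' b b' : Grp C} {n : N} (hn : n ≠ 0) (ha : Set.EqOn a.fn a'.fn (Lo C n))
    (hb : Set.EqOn b.fn b'.fn (Lo C n)) :
    (a * b).fn n - (a' * b').fn n = (a.fn n - a'.fn n) + (b.fn n - b'.fn n) := by
  by_cases hP : n ∈ C.P
  swap
  · simp only [Grp.eq_zero _ hP, sub_self, add_zero]
  have hm : ∀ p, p ∈ (C.between_finite 0 n).toFinset ↔ p ∈ C.P ∧ n - p ∈ C.P := fun p => by
    rw [Set.Finite.mem_toFinset, Set.mem_ofPred_eq, sub_zero]
  rw [Grp.mul_fn, Grp.mul_fn,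
    conv_eq_sum _ fun p h1 h2 => (hm p).2 ⟨a.supp _ h1, b.supp _ h2⟩,
    conv_eq_sum _ fun p h1 h2 => (hm p).2 ⟨a'.supp _ h1, b'.supp _ h2⟩, ← Finset.sum_sub_distrib,
    Finset.sum_eq_add_of_mem n 0 ((hm n).2 ⟨hP, by simp⟩) ((hm 0).2 ⟨by simp, by simpa using hP⟩) hn]
  · simp [om_self, om, U_zero, Grp.at0]
  · rintro p hp ⟨h1, h2⟩
    obtain ⟨h3, h4⟩ := (hm p).1 hp
    rw [ha ⟨h3, h4, h1⟩, hb ⟨h4, by rwa [sub_sub_cancel], by rwa [Ne, sub_eq_self]⟩, sub_self]

theorem exists_inv (g : Grp C) : ∃ h : Grp C, h * g = 1 := by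
  obtain ⟨h, hh⟩ := solve C (fun x => (x * g).fn) (fun x x' n _ h0 h => by
    rw [tri h0 (fun p hp => h p (Lo.deg_lt hp)) (Set.eqOn_refl _ _), sub_self, add_zero]) 0
  refine ⟨h, Grp.ext (funext fun n => ?_)⟩
  by_cases h0 : n = 0
  · rw [h0, Grp.at0, Grp.at0]
  · by_cases hP : n ∈ C.P
    · exact (hh n hP h0).trans (if_neg h0).symm
    · rw [Grp.eq_zero _ hP, Grp.eq_zero _ hP]

instance : Inv (Grp C) := ⟨fun g => Classical.choose (exists_inv g)⟩

instance : Group (Grp C) :=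
  Group.ofLeftAxioms
    (fun a b c => Grp.ext (conv_assoc (adm_of_supp a.supp) (adm_of_supp b.supp)
      (adm_of_supp c.supp)))
    (fun a => Grp.ext (conv_one_left a.fn))
    (fun a => Classical.choose_spec (exists_inv a))

def toL (C : Cone N) : Grp C →* L C where
  toFun g := ⟨g.fn, adm_of_supp g.supp⟩
  map_one' := rfl
  map_mul' _ _ := rfl

theorem toL_fn (g : Grp C) : (toL C g).fn = g.fn := rfl

theorem L.sub_fn (F G : L C) : (F - G).fn = F.fn - G.fn := by
  rw [sub_eq_add_neg, sub_eq_add_neg]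
  rfl
theorem L.sum_fn {ι : Type} (s : Finset ι) (F : ι → L C) (n : N) :
    (∑ i ∈ s, F i).fn n = ∑ i ∈ s, (F i).fn n := by
  induction s using Finset.induction_on with
  | empty => rfl
  | insert a s ha ih => rw [Finset.sum_insert ha, Finset.sum_insert ha, L.add_fn, Pi.add_apply, ih]
theorem mono_mul (b b' : N) (c c' : K) :
    mono C b c * mono C b' c' = mono C (b + b') (U (om b b') * c * c') := by
  refine L.ext (funext fun n => ?_)
  rw [L.mul_fn, mono_fn, mono_fn, mono_fn, conv_dl_left]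
  by_cases h : n = b + b'
  · simp [dl, h, om, QL.om_self]
  · simp [dl, h, sub_eq_iff_eq_add']
theorem mono_zero_one : mono C 0 1 = 1 := rfl
theorem mono_add (b : N) (c c' : K) : mono C b (c + c') = mono C b c + mono C b c' := by
  refine L.ext (funext fun n => ?_)
  rw [L.add_fn, mono_fn, mono_fn, mono_fn, Pi.add_apply]
  unfold dl
  split_ifs <;> simp
theorem mono_zero_comm (c : K) (F : L C) : mono C 0 c * F = F * mono C 0 c := by
  refine L.ext (funext fun n => ?_)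
  rw [L.mul_fn, L.mul_fn, mono_fn, conv_dl_left, conv_dl_right]
  simp [om, U_zero, mul_comm]
theorem mul_eqOn {Z : Set N} (hZ : Down C Z) {a a' b b' : Grp C} (ha : Set.EqOn a.fn a'.fn Z)
    (hb : Set.EqOn b.fn b'.fn Z) : Set.EqOn (a * b).fn (a' * b').fn Z := by
  refine fun n hn => conv_congr fun p => ?_
  by_cases h1 : p ∈ C.P
  · by_cases h2 : n - p ∈ C.P
    · rw [ha (hZ n hn p h1 h2), hb (hZ n hn _ h2 (by rwa [sub_sub_cancel]))]
    · rw [b.eq_zero h2, b'.eq_zero h2, mul_zero, mul_zero]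
  · rw [a.eq_zero h1, a'.eq_zero h1, zero_mul, zero_mul]
theorem inv_eqOn {Z : Set N} (hZ : Down C Z) {a a' : Grp C} (ha : Set.EqOn a.fn a'.fn Z) :
    Set.EqOn (a⁻¹).fn (a'⁻¹).fn Z := by
  refine eqOn_of_tri hZ fun n hn _ h0 h => ?_
  have h1 := tri h0 h (ha.mono (hZ.Lo_subset hn))
  rw [inv_mul_cancel, inv_mul_cancel, ha hn] at h1
  linear_combination -h1
theorem inv_fn_of {C' : Cone N} {g : Grp C} {g' : Grp C'} (hP : C'.P ≤ C.P) (h : g.fn = g'.fn) :
    (g⁻¹).fn = (g'⁻¹).fn := by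
  have h1 : (g'⁻¹).cast C (fun n hn => hP (Grp.supp _ n hn)) * g = 1 :=
    Grp.ext (by rw [Grp.mul_fn, h]; exact congrArg Grp.fn (inv_mul_cancel g'))
  rw [← eq_inv_of_mul_eq_one_left h1]
  rfl
/-- the inverse does not depend on the cone (compute it in `C.sub C'.P`) -/
theorem inv_fn_congr {C' : Cone N} {g : Grp C} {g' : Grp C'} (h : g.fn = g'.fn) :
    (g⁻¹).fn = (g'⁻¹).fn := by
  have h1 : SuppIn (C.sub C'.P).P g.fn := fun n hn => ⟨g.supp n hn, g'.supp n (h ▸ hn)⟩
  rw [inv_fn_of (g' := g.cast _ h1) (fun _ h => h.1) rfl,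
    inv_fn_of (g' := g.cast _ h1) (fun _ h => h.2) h.symm]
theorem supp_inv {Q : AddSubmonoid N} {g : Grp C} (h : SuppIn Q g.fn) : SuppIn Q (g⁻¹).fn := by
  have h1 : SuppIn (C.sub Q).P g.fn := fun n hn => ⟨g.supp n hn, h n hn⟩
  rw [inv_fn_of (g' := g.cast _ h1) (fun _ h => h.1) rfl]
  exact fun n hn => (Grp.supp _ n hn).2
theorem supp_mul {Q : AddSubmonoid N} {g h : Grp C} (hg : SuppIn Q g.fn) (hh : SuppIn Q h.fn) :
    SuppIn Q (g * h).fn := hg.conv hh
theorem supp_one (Q : AddSubmonoid N) : SuppIn Q (1 : Grp C).fn := by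
  intro n h
  by_cases hn : n = 0
  · exact hn ▸ Q.zero_mem
  · exact absurd (if_neg hn) h
/-- products are local with respect to the degree -/
theorem L.mul_loc {F F' G G' : L C} {r s R : ℤ} (hF : ∀ n, F.fn n ≠ 0 → r ≤ C.deg n)
    (hF' : ∀ n, F'.fn n ≠ 0 → r ≤ C.deg n) (hG : ∀ n, G.fn n ≠ 0 → s ≤ C.deg n)
    (hG' : ∀ n, G'.fn n ≠ 0 → s ≤ C.deg n) (h1 : ∀ n, C.deg n ≤ r + R → F.fn n = F'.fn n)
    (h2 : ∀ n, C.deg n ≤ s + R → G.fn n = G'.fn n) {n : N} (hn : C.deg n ≤ r + s + R) :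
    (F * G).fn n = (F' * G').fn n := by
  refine conv_congr fun a => ?_
  have e : C.deg (n - a) = C.deg n - C.deg a := map_sub _ _ _
  by_cases a1 : C.deg a ≤ r + R
  · by_cases a2 : C.deg (n - a) ≤ s + R
    · rw [h1 a a1, h2 _ a2]
    · rw [of_not_not (mt (hF a) (by omega)), of_not_not (mt (hF' a) (by omega)), zero_mul, zero_mul]
  · rw [of_not_not (mt (hG (n - a)) (by omega)), of_not_not (mt (hG' (n - a)) (by omega)), mul_zero,
      mul_zero]
theorem L.mul_supp {F G : L C} {a b : N} (hF : ∀ n, F.fn n ≠ 0 → n - a ∈ C.P)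
    (hG : ∀ n, G.fn n ≠ 0 → n - b ∈ C.P) : ∀ n, (F * G).fn n ≠ 0 → n - (a + b) ∈ C.P := by
  intro n hn
  obtain ⟨p, h1, h2⟩ := conv_ne_zero hn
  rw [show n - (a + b) = p - a + (n - p - b) by abel]
  exact C.P.add_mem (hF p h1) (hG _ h2)

end
end Vale.Agent.P066.S
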