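import Mathlib

/-!
P066 part S, file Sg (definitions final; lemmas = TASK S1).  Sign functions on an abelian group
(total preorders compatible with addition) and the combinatorial flow lemma.

Proof of `flow`: induction on the number of elements of the finite set
`W σ = {m | (m ∈ Z ∨ -m ∈ Z) ∧ 0 < η m ∧ σ.neg m}`, for all `σ` at once.  If `W σ` is empty, `σ` agrees
on `Z` with `(ofHom η).lex σ`.  Otherwise the relation `m ≼ m' := σ.nn (η m' • m - η m • m')` is total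
and transitive on `W σ` (identity
`η m'' • (η m' • m - η m • m') + η m • (η m'' • m' - η m' • m'') = η m' • (η m'' • m - η m • m'')`,
and `nn_of_zsmul`); take a minimal `m`, `T x = η m • x - η x • m`, `σ0 = σ.comap T`.  Then
`Gen2 σ0 d m`, `σ` agrees on `Z` with `σ0.lex (ofHom (-η))`, and `σ0.lex (ofHom η)` is generic along
`d` with `W` contained in `W σ \ {m}`.
-/

namespace Vale.Agent.P066.S

structure Sg (N : Type) [AddCommGroup N] where
  nn : N → Prop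
  nn_zero : nn 0
  nn_add : ∀ a b, nn a → nn b → nn (a + b)
  total : ∀ a, nn a ∨ nn (-a)

variable {N : Type} [AddCommGroup N]

namespace Sg

def pos (σ : Sg N) (a : N) : Prop := ¬ σ.nn (-a)
def neg (σ : Sg N) (a : N) : Prop := ¬ σ.nn a
def nul (σ : Sg N) (a : N) : Prop := σ.nn a ∧ σ.nn (-a)

theorem ext' {σ τ : Sg N} (h : ∀ a, σ.nn a ↔ τ.nn a) : σ = τ := by
  cases σ; cases τ; congr; funext a; exact propext (h a)

theorem nn_of_pos {σ : Sg N} {a : N} (h : σ.pos a) : σ.nn a := (σ.total a).resolve_right h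

theorem pos_add {σ : Sg N} {a b : N} (ha : σ.pos a) (hb : σ.nn b) : σ.pos (a + b) := fun h =>
  ha (by have := σ.nn_add _ _ h hb; simpa using this)

theorem neg_add {σ : Sg N} {a b : N} (ha : σ.neg a) (hb : σ.nn (-b)) : σ.neg (a + b) := fun h =>
  ha (by have := σ.nn_add _ _ h hb; simpa using this)

theorem nul_add {σ : Sg N} {a b : N} (ha : σ.nul a) (hb : σ.nul b) : σ.nul (a + b) :=
  ⟨σ.nn_add _ _ ha.1 hb.1, by rw [_root_.neg_add]; exact σ.nn_add _ _ ha.2 hb.2⟩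

def ofHom (η : N →+ ℤ) : Sg N where
  nn a := 0 ≤ η a
  nn_zero := by simp
  nn_add a b ha hb := by rw [map_add]; omega
  total a := by rw [map_neg]; omega

def comap {M : Type} [AddCommGroup M] (σ : Sg N) (T : M →+ N) : Sg M where
  nn a := σ.nn (T a)
  nn_zero := by simpa using σ.nn_zero
  nn_add a b ha hb := by rw [map_add]; exact σ.nn_add _ _ ha hb
  total a := by rw [map_neg]; exact σ.total _

def lex (σ τ : Sg N) : Sg N where
  nn a := σ.pos a ∨ (σ.nul a ∧ τ.nn a)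
  nn_zero := Or.inr ⟨⟨σ.nn_zero, by simpa using σ.nn_zero⟩, τ.nn_zero⟩
  nn_add a b ha hb := by
    rcases ha with ha | ha
    · exact Or.inl (pos_add ha (hb.elim nn_of_pos fun h => h.1.1))
    · rcases hb with hb | hb
      · exact Or.inl (by rw [add_comm]; exact pos_add hb ha.1.1)
      · exact Or.inr ⟨nul_add ha.1 hb.1, τ.nn_add _ _ ha.2 hb.2⟩
  total a := by
    by_cases h1 : σ.nn (-a)
    · by_cases h2 : σ.nn a
      · rcases τ.total a with h | h
        · exact Or.inl (Or.inr ⟨⟨h2, h1⟩, h⟩)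
        · exact Or.inr (Or.inr ⟨⟨h1, by simpa using h2⟩, h⟩)
      · exact Or.inr (Or.inl (by simpa [pos] using h2))
    · exact Or.inl (Or.inl h1)

def flip (σ : Sg N) : Sg N := σ.comap (-AddMonoidHom.id N)

def negs (σ : Sg N) : AddSubmonoid N where
  carrier := {a | a = 0 ∨ σ.neg a}
  zero_mem' := Or.inl rfl
  add_mem' := by
    rintro a b (rfl | ha) hb
    · simpa using hb
    · rcases hb with rfl | hb
      · exact Or.inr (by simpa using ha)
      · exact Or.inr (neg_add ha ((σ.total b).resolve_left hb))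

def ker (σ : Sg N) : AddSubmonoid N where
  carrier := {a | σ.nul a}
  zero_mem' := ⟨σ.nn_zero, by simpa using σ.nn_zero⟩
  add_mem' := nul_add

def poss (σ : Sg N) : AddSubmonoid N where
  carrier := {a | a = 0 ∨ σ.pos a}
  zero_mem' := Or.inl rfl
  add_mem' := by
    rintro a b (rfl | ha) hb
    · simpa using hb
    · rcases hb with rfl | hb
      · exact Or.inr (by simpa using ha)
      · exact Or.inr (pos_add ha (nn_of_pos hb))

/-- same signs on `Z` -/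
def Agree (σ τ : Sg N) (Z : Set N) : Prop :=
  ∀ z ∈ Z, (σ.nn z ↔ τ.nn z) ∧ (σ.nn (-z) ↔ τ.nn (-z))

end Sg

/-- `x` is a rational multiple of `d` -/
def InQ (d x : N) : Prop := ∃ j l : ℤ, j ≠ 0 ∧ j • x = l • d
/-- `x` is a rational combination of `d` and `m` -/
def InQ2 (d m x : N) : Prop := ∃ j l l' : ℤ, j ≠ 0 ∧ j • x = l • d + l' • m
/-- the kernel of `σ` is exactly the line of `d` -/
def Gen (σ : Sg N) (d : N) : Prop := ∀ x, σ.nul x ↔ InQ d x
/-- the kernel of `σ` is exactly the plane of `d` and `m` -/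
def Gen2 (σ : Sg N) (d m : N) : Prop := ∀ x, σ.nul x ↔ InQ2 d m x

namespace Sg
variable {σ τ : Sg N} {a b : N} {η : N →+ ℤ}

theorem mem_negs : a ∈ σ.negs ↔ a = 0 ∨ σ.neg a := Iff.rfl
theorem mem_ker : a ∈ σ.ker ↔ σ.nul a := Iff.rfl
theorem mem_poss : a ∈ σ.poss ↔ a = 0 ∨ σ.pos a := Iff.rfl
theorem tri (σ : Sg N) (a : N) : σ.neg a ∨ σ.nul a ∨ σ.pos a := by
  unfold neg nul pos
  tauto
theorem not_neg_of_nul (h : σ.nul a) : ¬ σ.neg a := fun h' => h' h.1
theorem not_pos_of_nul (h : σ.nul a) : ¬ σ.pos a := fun h' => h' h.2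
theorem not_pos_of_neg (h : σ.neg a) : ¬ σ.pos a := fun h' => h (nn_of_pos h')
theorem nul_zero (σ : Sg N) : σ.nul 0 := σ.ker.zero_mem
theorem nul_neg_iff : σ.nul (-a) ↔ σ.nul a := by
  rw [nul, nul, _root_.neg_neg, and_comm]
theorem pos_neg_iff : σ.pos (-a) ↔ σ.neg a := by
  rw [pos, neg, _root_.neg_neg]
theorem neg_neg_iff : σ.neg (-a) ↔ σ.pos a := Iff.rfl
theorem sgAux_nn_zsmul {j : ℤ} (hj : 0 ≤ j) (h : σ.nn a) : σ.nn (j • a) := by
  induction j, hj using Int.le_induction with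
  | base => simpa using σ.nn_zero
  | succ n _ ih =>
    rw [add_smul, one_smul]
    exact σ.nn_add _ _ ih h
theorem nn_zsmul_iff {j : ℤ} (hj : 0 < j) : σ.nn (j • a) ↔ σ.nn a := by
  refine ⟨fun h => by_contra fun h' => ?_, sgAux_nn_zsmul hj.le⟩
  have h1 := neg_add (σ := σ) (b := (j - 1) • a) h' (by
    rw [← smul_neg]
    exact sgAux_nn_zsmul (by omega) ((σ.total a).resolve_left h'))
  rw [sub_smul, one_smul, add_sub_cancel] at h1
  exact h1 h
theorem pos_zsmul_iff {j : ℤ} (hj : 0 < j) : σ.pos (j • a) ↔ σ.pos a := by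
  rw [pos, pos, ← smul_neg, nn_zsmul_iff hj]
theorem neg_zsmul_iff {j : ℤ} (hj : 0 < j) : σ.neg (j • a) ↔ σ.neg a := by
  rw [neg, neg, nn_zsmul_iff hj]
theorem nul_zsmul_iff {j : ℤ} (hj : j ≠ 0) : σ.nul (j • a) ↔ σ.nul a := by
  have h : ∀ i : ℤ, 0 < i → (σ.nul (i • a) ↔ σ.nul a) := fun i hi => by
    rw [nul, nul, ← smul_neg, nn_zsmul_iff hi, nn_zsmul_iff hi]
  rcases hj.lt_or_gt with h1 | h1
  · rw [← nul_neg_iff, ← neg_smul, h _ (by omega)]
  · exact h j h1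
theorem nul_zsmul (j : ℤ) (h : σ.nul a) : σ.nul (j • a) := by
  by_cases hj : j = 0
  · rw [hj, zero_smul]
    exact σ.nul_zero
  · exact (nul_zsmul_iff hj).2 h
theorem ofHom_pos : (ofHom η).pos a ↔ 0 < η a := by
  simp [pos, ofHom]
theorem ofHom_neg : (ofHom η).neg a ↔ η a < 0 := by
  simp [neg, ofHom]
theorem ofHom_nul : (ofHom η).nul a ↔ η a = 0 := by
  simp only [nul, ofHom, map_neg]
  omega
theorem lex_pos : (σ.lex τ).pos a ↔ σ.pos a ∨ (σ.nul a ∧ τ.pos a) := by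
  have := σ.total a
  simp only [pos, lex, nul, _root_.neg_neg]
  tauto
theorem lex_neg : (σ.lex τ).neg a ↔ σ.neg a ∨ (σ.nul a ∧ τ.neg a) := by
  have := σ.total a
  simp only [neg, pos, lex, nul]
  tauto
theorem lex_nul : (σ.lex τ).nul a ↔ σ.nul a ∧ τ.nul a := by
  have := σ.total a
  simp only [pos, lex, nul, _root_.neg_neg]
  tauto
theorem comap_pos {T : N →+ N} : (σ.comap T).pos a ↔ σ.pos (T a) := by
  simp only [pos, comap, map_neg]
theorem comap_neg {T : N →+ N} : (σ.comap T).neg a ↔ σ.neg (T a) := Iff.rfl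
theorem comap_nul {T : N →+ N} : (σ.comap T).nul a ↔ σ.nul (T a) := by
  simp only [nul, comap, map_neg]
theorem flip_pos : σ.flip.pos a ↔ σ.neg a := by
  simp [flip, pos, neg, comap]
theorem flip_neg : σ.flip.neg a ↔ σ.pos a := Iff.rfl
theorem flip_nul : σ.flip.nul a ↔ σ.nul a := comap_nul.trans nul_neg_iff
theorem comap_lex (T : N →+ N) : (σ.lex τ).comap T = (σ.comap T).lex (τ.comap T) :=
  ext' fun _ => or_congr comap_pos.symm (and_congr comap_nul.symm Iff.rfl)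
theorem comap_ofHom (T : N →+ N) : (ofHom η).comap T = ofHom (η.comp T) := rfl
theorem lex_assoc (σ τ υ : Sg N) : (σ.lex τ).lex υ = σ.lex (τ.lex υ) := ext' fun a => by
  change (σ.lex τ).pos a ∨ ((σ.lex τ).nul a ∧ υ.nn a) ↔
    σ.pos a ∨ (σ.nul a ∧ (τ.pos a ∨ (τ.nul a ∧ υ.nn a)))
  rw [lex_pos, lex_nul]
  tauto
/-- the second factor only matters on the kernel of the first -/
theorem lex_congr {τ' : Sg N} (h : ∀ x, σ.nul x → (τ.nn x ↔ τ'.nn x)) : σ.lex τ = σ.lex τ' :=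
  ext' fun a => or_congr Iff.rfl (and_congr_right (h a))
theorem agree_iff {Z : Set N} :
    σ.Agree τ Z ↔ ∀ z ∈ Z, (σ.neg z ↔ τ.neg z) ∧ (σ.pos z ↔ τ.pos z) := by
  simp only [Agree, neg, pos, not_iff_not]
theorem Agree.symm {Z : Set N} (h : σ.Agree τ Z) : τ.Agree σ Z :=
  fun z hz => ⟨(h z hz).1.symm, (h z hz).2.symm⟩
theorem Agree.mono {Z Z' : Set N} (h : σ.Agree τ Z) (hZ : Z' ⊆ Z) : σ.Agree τ Z' :=
  fun z hz => h z (hZ hz)

end Sg

theorem InQ.refl (d : N) : InQ d d := ⟨1, 1, one_ne_zero, rfl⟩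
theorem InQ.zero (d : N) : InQ d 0 := ⟨1, 0, one_ne_zero, by simp⟩
theorem InQ.trans {d x y : N} (h : InQ d x) (h' : InQ x y) : InQ d y := by
  obtain ⟨j, l, hj, h⟩ := h
  obtain ⟨j', l', hj', h'⟩ := h'
  exact ⟨j * j', l' * l, mul_ne_zero hj hj', by rw [mul_smul, h', smul_comm, h, mul_smul]⟩
theorem InQ.add {d x y : N} (h : InQ d x) (h' : InQ d y) : InQ d (x + y) := by
  obtain ⟨j, l, hj, h⟩ := h
  obtain ⟨j', l', hj', h'⟩ := h'
  refine ⟨j * j', j' * l + j * l', mul_ne_zero hj hj', ?_⟩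
  rw [smul_add, add_smul, mul_smul j' l, mul_smul j l', ← h, ← h', mul_smul, mul_smul, smul_comm j]
theorem InQ.zsmul {d x : N} (h : InQ d x) (j : ℤ) : InQ d (j • x) :=
  h.trans ⟨1, j, one_ne_zero, one_smul _ _⟩
theorem InQ.hom {d x : N} (h : InQ d x) (η : N →+ ℤ) (hd : η d = 0) : η x = 0 := by
  obtain ⟨j, l, hj, h⟩ := h
  have := congrArg η h
  rw [map_zsmul, map_zsmul, hd, smul_zero, smul_eq_mul] at this
  exact (mul_eq_zero.1 this).resolve_left hj
theorem InQ.map {d x : N} (T : N ≃+ N) : InQ (T d) (T x) ↔ InQ d x := by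
  simp only [InQ, ← map_zsmul, T.injective.eq_iff]
theorem InQ2_zero {m x : N} : InQ2 0 m x ↔ InQ m x := by
  simp [InQ2, InQ]
theorem Gen.nul_self {σ : Sg N} {d : N} (h : Gen σ d) : σ.nul d := (h d).2 (InQ.refl d)
theorem Gen.ofHom_lex {σ : Sg N} {d : N} (h : Gen σ d) {η : N →+ ℤ} (hd : η d = 0) :
    Gen ((Sg.ofHom η).lex σ) d := fun x => by
  rw [Sg.lex_nul, Sg.ofHom_nul, h x]
  exact ⟨fun h => h.2, fun h => ⟨h.hom η hd, h⟩⟩
theorem Gen.comap {σ : Sg N} {d : N} (h : Gen σ d) (T : N ≃+ N) :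
    Gen (σ.comap T.symm.toAddMonoidHom) (T d) := fun x => by
  rw [Sg.comap_nul, h, ← InQ.map T]
  simp
theorem Gen2.lex {σ : Sg N} {d m : N} (h : Gen2 σ d m) {η : N →+ ℤ} (hd : η d = 0)
    (hm : η m ≠ 0) : Gen (σ.lex (Sg.ofHom η)) d := fun x => by
  rw [Sg.lex_nul, Sg.ofHom_nul, h x]
  refine ⟨fun ⟨⟨j, l, l', hj, h1⟩, h2⟩ => ⟨j, l, hj, ?_⟩,
    fun h1 => ⟨h1.imp fun j => Exists.imp fun l h => ⟨0, by simpa using h⟩, h1.hom η hd⟩⟩
  have h3 := congrArg η h1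
  simp only [map_add, map_zsmul, h2, hd, smul_eq_mul, mul_zero, zero_add] at h3
  rw [h1, (mul_eq_zero.1 h3.symm).resolve_right hm, zero_smul, add_zero]

theorem sgAux_min {α : Type} (s : Finset α) (hs : s.Nonempty) (p : α → Prop) (r : α → α → Prop)
    (hp : ∀ x ∈ s, p x) (tot : ∀ x y, r x y ∨ r y x)
    (tr : ∀ x y z, p x → p y → p z → r x y → r y z → r x z) : ∃ m ∈ s, ∀ x ∈ s, r m x := by
  induction hs using Finset.Nonempty.cons_induction with
  | singleton a => exact ⟨a, Finset.mem_singleton_self a, by simpa using tot a a⟩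
  | cons a s ha _ ih =>
    obtain ⟨m, hm, h⟩ := ih fun x hx => hp x (Finset.mem_cons_of_mem hx)
    rcases tot m a with h1 | h1
    · exact ⟨m, Finset.mem_cons_of_mem hm, (Finset.forall_mem_cons _ _).2 ⟨h1, h⟩⟩
    · refine ⟨a, Finset.mem_cons_self a s, (Finset.forall_mem_cons _ _).2
        ⟨(tot a a).elim id id, fun x hx => ?_⟩⟩
      exact tr a m x (hp a (Finset.mem_cons_self a s)) (hp m (Finset.mem_cons_of_mem hm))
        (hp x (Finset.mem_cons_of_mem hx)) h1 (h x hx)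

theorem sgAux_agree {σ τ : Sg N} {Z : Set N} (η : N →+ ℤ)
    (h0 : ∀ z, η z = 0 → (σ.neg z ↔ τ.neg z))
    (h1 : ∀ z, (z ∈ Z ∨ -z ∈ Z) → 0 < η z → (σ.neg z ↔ τ.neg z) ∧ (σ.pos z ↔ τ.pos z)) :
    σ.Agree τ Z := by
  refine Sg.agree_iff.2 fun z hz => ?_
  rcases lt_trichotomy (η z) 0 with h | h | h
  · have := h1 (-z) (Or.inr (by simpa using hz)) (by simpa using h)
    rw [Sg.pos_neg_iff, Sg.pos_neg_iff] at this
    exact this.symm
  · exact ⟨h0 z h, h0 (-z) (by simpa using h)⟩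
  · exact h1 z (Or.inl hz) h

theorem flow (η : N →+ ℤ) (d : N) (hd : η d = 0) (Z : Set N) (hZ : Z.Finite) (X : Set N)
    (hX : ∀ x ∈ X, η x ≤ 0) (Q : Sg N → Prop)
    (loc : ∀ σ τ, Gen σ d → Gen τ d → (∀ x ∈ X, σ.neg x) → (∀ x ∈ X, τ.neg x) →
      σ.Agree τ Z → Q σ → Q τ)
    (fin : ∀ σ, Gen σ d → (∀ x ∈ X, σ.neg x) → Q ((Sg.ofHom η).lex σ))
    (step : ∀ σ0 m, 0 < η m → Gen2 σ0 d m → (∀ x ∈ X, σ0.neg x) →
      Q (σ0.lex (Sg.ofHom η)) → Q (σ0.lex (Sg.ofHom (-η)))) :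
    ∀ σ, Gen σ d → (∀ x ∈ X, σ.neg x) → Q σ := by
  let W : Sg N → Set N := fun σ => {m | (m ∈ Z ∨ -m ∈ Z) ∧ 0 < η m ∧ σ.neg m}
  have hW : ∀ σ, (W σ).Finite := fun σ => (hZ.union hZ.neg).subset fun m hm => hm.1
  intro σ
  induction hn : (W σ).ncard using Nat.strong_induction_on generalizing σ with
  | _ n ih =>
  intro hσ hσX
  have hnul : ∀ z, 0 < η z → ¬ σ.nul z := fun z hz h => hz.ne' (((hσ z).1 h).hom η hd)
  rcases (W σ).eq_empty_or_nonempty with h0 | h0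
  · refine loc _ σ (hσ.ofHom_lex hd) hσ (fun x hx => ?_) hσX (sgAux_agree η ?_ ?_) (fin σ hσ hσX)
    · rw [Sg.lex_neg, Sg.ofHom_neg, Sg.ofHom_nul]
      exact (hX x hx).lt_or_eq.imp_right fun h => ⟨h, hσX x hx⟩
    · intro z hz
      simp [Sg.lex_neg, Sg.ofHom_neg, Sg.ofHom_nul, hz]
    · intro z hz hz'
      have h1 : ¬ σ.neg z := fun h => (h0 ▸ ⟨hz, hz', h⟩ : z ∈ (∅ : Set N))
      have h2 : σ.pos z := ((σ.tri z).resolve_left h1).resolve_left (hnul z hz')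
      simp [Sg.lex_neg, Sg.lex_pos, Sg.ofHom_neg, Sg.ofHom_nul, Sg.ofHom_pos, h1, h2, hz', hz'.le]
  obtain ⟨m, hm, hmin⟩ := sgAux_min (hW σ).toFinset (by simpa using h0) (fun x => 0 < η x)
    (fun x y => σ.nn (η y • x - η x • y)) (fun x hx => ((hW σ).mem_toFinset.1 hx).2.1)
    (fun x y => by simpa using σ.total (η y • x - η x • y)) fun x y z hx hy hz h1 h2 => by
      have h3 := σ.nn_add _ _ (Sg.sgAux_nn_zsmul hz.le h1) (Sg.sgAux_nn_zsmul hx.le h2)
      rw [← Sg.nn_zsmul_iff hy]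
      refine (congrArg σ.nn ?_).mp h3
      module
  obtain ⟨hm1, hm2, hm3⟩ := (hW σ).mem_toFinset.1 hm
  obtain ⟨T, hT⟩ : ∃ T : N →+ N, ∀ x, T x = η m • x - η x • m :=
    ⟨AddMonoidHom.mk' (fun x => η m • x - η x • m) fun x y => by rw [map_add]; module, fun _ => rfl⟩
  have hmn : σ.nn (-m) := (σ.total m).resolve_left hm3
  have g2 : Gen2 (σ.comap T) d m := fun x => by
    rw [Sg.comap_nul, hσ, hT]
    refine ⟨fun ⟨j, l, hj, h⟩ => ⟨j * η m, l, j * η x, mul_ne_zero hj hm2.ne', ?_⟩,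
      fun ⟨j, l, l', hj, h⟩ => ⟨j, η m * l, hj, ?_⟩⟩
    · rw [← h]
      module
    · have h1 := congrArg η h
      simp only [map_add, map_zsmul, hd, smul_eq_mul, mul_zero, zero_add] at h1
      rw [smul_sub, smul_comm j, h, smul_smul j, h1]
      module
  have gX : ∀ x ∈ X, (σ.comap T).neg x := fun x hx => by
    rw [Sg.comap_neg, hT, sub_eq_add_neg]
    refine Sg.neg_add ((Sg.neg_zsmul_iff hm2).2 (hσX x hx)) ?_
    rw [← neg_smul, ← smul_neg]
    exact Sg.sgAux_nn_zsmul (by have := hX x hx; omega) hmn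
  have key : ∀ z, 0 < η z → σ.nn (-T z) → σ.neg z := fun z hz h => by
    have h1 := Sg.neg_add ((Sg.neg_zsmul_iff hz).2 hm3) h
    rwa [hT, add_sub_cancel, Sg.neg_zsmul_iff hm2] at h1
  have q1 : Q ((σ.comap T).lex (Sg.ofHom η)) := by
    refine ih _ (hn ▸ Set.ncard_lt_ncard ⟨fun z hz => ⟨hz.1, hz.2.1, ?_⟩, fun h => ?_⟩ (hW σ)) _ rfl
      (g2.lex hd hm2.ne') fun x hx => Sg.lex_neg.2 (Or.inl (gX x hx))
    · rcases Sg.lex_neg.1 hz.2.2 with h | h
      · exact key z hz.2.1 ((σ.total _).resolve_left h)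
      · exact absurd (Sg.ofHom_neg.1 h.2) hz.2.1.le.not_gt
    · rcases Sg.lex_neg.1 (h ⟨hm1, hm2, hm3⟩).2.2 with h | h
      · rw [Sg.comap_neg, hT, sub_self] at h
        exact h σ.nn_zero
      · exact absurd (Sg.ofHom_neg.1 h.2) hm2.le.not_gt
  refine loc _ σ (g2.lex (η := -η) (by simp [hd]) (by simp [hm2.ne'])) hσ
    (fun x hx => Sg.lex_neg.2 (Or.inl (gX x hx))) hσX (sgAux_agree η ?_ ?_)
    (step _ m hm2 g2 gX q1)
  · intro z hz
    simp [Sg.lex_neg, Sg.ofHom_neg, Sg.comap_neg, hT, hz, Sg.neg_zsmul_iff hm2]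
  · intro z hz hz'
    rw [Sg.lex_neg, Sg.lex_pos, Sg.ofHom_neg, Sg.ofHom_pos, Sg.comap_neg, Sg.comap_pos,
      Sg.comap_nul, AddMonoidHom.neg_apply]
    by_cases h : σ.nn (-T z)
    · have h1 := key z hz' h
      have h2 := Sg.not_pos_of_neg h1
      have h3 : ¬ σ.pos (T z) := not_not.2 h
      have h4 := σ.tri (T z)
      have h5 : -η z < 0 := by omega
      have h6 : ¬ 0 < -η z := by omega
      tauto
    · have h1 : ¬ σ.neg z := fun h1 => h (by
        rw [hT, neg_sub]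
        exact hmin z ((hW σ).mem_toFinset.2 ⟨hz, hz', h1⟩))
      have h2 : σ.pos z := ((σ.tri z).resolve_left h1).resolve_left (hnul z hz')
      have h3 : σ.pos (T z) := h
      have h4 : ¬ σ.neg (T z) := fun h4 => Sg.not_pos_of_neg h4 h3
      have h5 : ¬ σ.nul (T z) := fun h5 => Sg.not_pos_of_nul h5 h3
      tauto

end Vale.Agent.P066.S
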